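import Mathlib

/-!
# Valuation rings of a finite extension come from embeddings

`L → K` finite, `L → Ω` a field homomorphism such that all elements of `K` split in `Ω`, `O` a
valuation subring of `Ω`, `V` a valuation subring of `K` with the same trace on `L`: there is an
`L`-embedding `ψ : K → Ω` with `O.comap ψ = V`.
-/

namespace Vale.Agent.P298.H416

open Polynomial

section

variable {L K : Type*} [Field L] [Field K] [Algebra L K]
variable {Γ₀ : Type*} [LinearOrderedCommGroupWithZero Γ₀]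
variable {Γ : Type*} [LinearOrderedCommGroupWithZero Γ]
variable {Γ' : Type*} [LinearOrderedCommGroupWithZero Γ']

theorem exists_primitive (v0 : Valuation L Γ₀) {p : L[X]} (hp : p ≠ 0) :
    ∃ c : L, c ≠ 0 ∧ (∀ i, v0 ((C c * p).coeff i) ≤ 1) ∧ ∃ i, v0 ((C c * p).coeff i) = 1 := by
  obtain ⟨i, hi, hmax⟩ := Finset.exists_max_image p.support (fun i => v0 (p.coeff i))
    (Polynomial.support_nonempty.2 hp)
  have hne : p.coeff i ≠ 0 := Polynomial.mem_support_iff.1 hi
  have hv : v0 (p.coeff i) ≠ 0 := (Valuation.ne_zero_iff _).2 hne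
  have hpos : 0 < v0 (p.coeff i) := zero_lt_iff.2 hv
  refine ⟨(p.coeff i)⁻¹, inv_ne_zero hne, fun j => ?_, i, ?_⟩
  · rw [coeff_C_mul, map_mul, map_inv₀]
    by_cases hj : p.coeff j = 0
    · simp [hj]
    · have := hmax j (Polynomial.mem_support_iff.2 hj)
      calc (v0 (p.coeff i))⁻¹ * v0 (p.coeff j) ≤ (v0 (p.coeff i))⁻¹ * v0 (p.coeff i) :=
            mul_le_mul_right this _
        _ = 1 := inv_mul_cancel₀ hv
  · rw [coeff_C_mul, map_mul, map_inv₀, inv_mul_cancel₀ hv]

/-- two valuations have the same ring. -/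
def Eqv (v0 : Valuation L Γ₀) (v : Valuation L Γ) : Prop := ∀ x, v0 x ≤ 1 ↔ v x ≤ 1

theorem Eqv.lt {v0 : Valuation L Γ₀} {v : Valuation L Γ} (h : Eqv v0 v) (x : L) :
    v0 x < 1 ↔ v x < 1 := by
  by_cases hx : x = 0
  · simp [hx]
  · have h1 : v0 x < 1 ↔ ¬ v0 x⁻¹ ≤ 1 := by
      rw [map_inv₀, inv_le_one₀ (zero_lt_iff.2 ((Valuation.ne_zero_iff _).2 hx)), not_le]
    have h2 : v x < 1 ↔ ¬ v x⁻¹ ≤ 1 := by
      rw [map_inv₀, inv_le_one₀ (zero_lt_iff.2 ((Valuation.ne_zero_iff _).2 hx)), not_le]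
    rw [h1, h2, h x⁻¹]

theorem Eqv.eq {v0 : Valuation L Γ₀} {v : Valuation L Γ} (h : Eqv v0 v) (x : L) :
    v0 x = 1 ↔ v x = 1 := by
  constructor
  · intro h1
    refine le_antisymm ((h x).1 h1.le) (not_lt.1 fun h2 => ?_)
    exact absurd ((h.lt x).2 h2) (by rw [h1]; exact lt_irrefl _)
  · intro h1
    refine le_antisymm ((h x).2 h1.le) (not_lt.1 fun h2 => ?_)
    exact absurd ((h.lt x).1 h2) (by rw [h1]; exact lt_irrefl _)

/-- a relation with coefficients in the ring of `v0`, not all in the maximal ideal. -/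
theorem exists_rel [FiniteDimensional L K] (v0 : Valuation L Γ₀) (g : K) :
    ∃ q : L[X], aeval g q = 0 ∧ (∀ i, v0 (q.coeff i) ≤ 1) ∧ ∃ i, v0 (q.coeff i) = 1 := by
  have hi : IsIntegral L g := IsIntegral.of_finite L g
  obtain ⟨c, _, h1, h2⟩ := exists_primitive v0 (minpoly.ne_zero hi)
  exact ⟨C c * minpoly L g, by simp, h1, h2⟩

/-- fractions with a denominator which is a unit at `v`, and integral at all `v'`. -/
theorem exists_frac [FiniteDimensional L K] (v0 : Valuation L Γ₀) (v : Valuation K Γ)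
    (hv : Eqv v0 (v.comap (algebraMap L K))) (g : K) (hg : v g ≤ 1) :
    ∃ u : K, v u = 1 ∧ ∀ (Γ' : Type _) [LinearOrderedCommGroupWithZero Γ'] (v' : Valuation K Γ'),
      (∀ x : L, v0 x ≤ 1 → v' (algebraMap L K x) ≤ 1) → v' u ≤ 1 ∧ v' (g * u) ≤ 1 := by
  classical
  obtain ⟨q, hq0, hq1, i0, hi0⟩ := exists_rel (K := K) v0 g
  set N := q.natDegree with hN
  have hsum : ∑ i ∈ Finset.range (N + 1), algebraMap L K (q.coeff i) * g ^ i = 0 := by
    rw [← hq0, aeval_eq_sum_range]
    refine Finset.sum_congr rfl fun i _ => ?_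
    rw [Algebra.smul_def]
  -- largest unit index
  have hS : ∃ k, k ≤ N ∧ v0 (q.coeff k) = 1 := by
    refine ⟨i0, ?_, hi0⟩
    by_contra hlt
    have : q.coeff i0 = 0 := coeff_eq_zero_of_natDegree_lt (not_le.1 hlt)
    rw [this, map_zero] at hi0
    exact zero_ne_one hi0
  obtain ⟨k, ⟨hkN, hk1⟩, hkmax⟩ : ∃ k, (k ≤ N ∧ v0 (q.coeff k) = 1) ∧
      ∀ j, k < j → j ≤ N → v0 (q.coeff j) ≠ 1 := by
    refine ⟨Nat.findGreatest (fun k => v0 (q.coeff k) = 1) N, ?_, ?_⟩
    · obtain ⟨k, hk, hk'⟩ := hS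
      exact ⟨Nat.findGreatest_le N, Nat.findGreatest_spec (P := fun k => v0 (q.coeff k) = 1) hk hk'⟩
    · intro j hj hjN hj1
      exact absurd (Nat.le_findGreatest (P := fun k => v0 (q.coeff k) = 1) hjN hj1) (not_le.2 hj)
  have hle : ∀ i, v (algebraMap L K (q.coeff i)) ≤ 1 := fun i => (hv _).1 (hq1 i)
  have hlt : ∀ j, k < j → j ≤ N → v (algebraMap L K (q.coeff j)) < 1 := by
    intro j hj hjN
    exact (hv.lt _).1 (lt_of_le_of_ne (hq1 j) (hkmax j hj hjN))
  have hvk : v (algebraMap L K (q.coeff k)) = 1 := (hv.eq _).1 hk1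
  set u : K := ∑ i ∈ Finset.Ico k (N + 1), algebraMap L K (q.coeff i) * g ^ (i - k) with hu
  have hu1 : v u = 1 := by
    rw [hu, Finset.sum_eq_sum_Ico_succ_bot (by omega)]
    rw [Nat.sub_self, pow_zero, mul_one]
    rw [Valuation.map_add_eq_of_lt_left, hvk]
    rw [hvk]
    refine Valuation.map_sum_lt _ one_ne_zero fun j hj => ?_
    rw [Finset.mem_Ico] at hj
    rw [map_mul, map_pow]
    calc v (algebraMap L K (q.coeff j)) * v g ^ (j - k)
        ≤ v (algebraMap L K (q.coeff j)) * 1 := mul_le_mul_right (pow_le_one' hg _) _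
      _ < 1 := by rw [mul_one]; exact hlt j (by omega) (by omega)
  have hgk : g ^ k * u = -∑ i ∈ Finset.range k, algebraMap L K (q.coeff i) * g ^ i := by
    have h1 : g ^ k * u = ∑ i ∈ Finset.Ico k (N + 1), algebraMap L K (q.coeff i) * g ^ i := by
      rw [hu, Finset.mul_sum]
      refine Finset.sum_congr rfl fun i hi => ?_
      rw [Finset.mem_Ico] at hi
      have : g ^ i = g ^ k * g ^ (i - k) := by rw [← pow_add]; congr 1; omega
      rw [this]; ring
    rw [h1, eq_neg_iff_add_eq_zero, add_comm, Finset.range_eq_Ico,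
      Finset.sum_Ico_consecutive _ (Nat.zero_le k) (by omega), ← Finset.range_eq_Ico]
    exact hsum
  have hk0 : k ≠ 0 := by
    rintro rfl
    simp only [pow_zero, one_mul, Finset.range_zero, Finset.sum_empty, neg_zero] at hgk
    rw [hgk, map_zero] at hu1
    exact zero_ne_one hu1
  refine ⟨u, hu1, fun Γ' _ v' hv' => ?_⟩
  have hle' : ∀ i, v' (algebraMap L K (q.coeff i)) ≤ 1 := fun i => hv' _ (hq1 i)
  rcases le_or_gt (v' g) 1 with hg' | hg'
  · have h1 : v' u ≤ 1 := by
      refine Valuation.map_sum_le _ fun j _ => ?_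
      rw [map_mul, map_pow]
      exact mul_le_one' (hle' j) (pow_le_one' hg' _)
    exact ⟨h1, by rw [map_mul]; exact mul_le_one' hg' h1⟩
  · have hg0 : g ≠ 0 := by
      rintro rfl
      rw [map_zero] at hg'
      exact absurd hg' (not_lt.2 zero_le_one)
    have hinv : v' g⁻¹ ≤ 1 := by
      rw [map_inv₀]
      exact inv_le_one_of_one_le₀ hg'.le
    have h1 : g * u = -∑ i ∈ Finset.range k, algebraMap L K (q.coeff i) * g⁻¹ ^ (k - 1 - i) := by
      have h2 : g * u = g⁻¹ ^ (k - 1) * (g ^ k * u) := by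
        have : g ^ k = g ^ (k - 1) * g := by rw [← pow_succ]; congr 1; omega
        rw [this, inv_pow]
        field_simp
      rw [h2, hgk, mul_neg, Finset.mul_sum]
      congr 1
      refine Finset.sum_congr rfl fun i hi => ?_
      rw [Finset.mem_range] at hi
      have : g⁻¹ ^ (k - 1) = g⁻¹ ^ (k - 1 - i) * g⁻¹ ^ i := by rw [← pow_add]; congr 1; omega
      rw [this, inv_pow g i]
      field_simp
    have h2 : v' (g * u) ≤ 1 := by
      rw [h1, Valuation.map_neg]
      refine Valuation.map_sum_le _ fun j _ => ?_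
      rw [map_mul, map_pow]
      exact mul_le_one' (hle' j) (pow_le_one' hinv _)
    refine ⟨?_, h2⟩
    have h3 : u = g⁻¹ * (g * u) := by field_simp
    rw [h3, map_mul]
    exact mul_le_one' hinv h2

/-- incomparability. -/
theorem eqv_of_le [FiniteDimensional L K] (v0 : Valuation L Γ₀) (v : Valuation K Γ)
    (v' : Valuation K Γ') (hv : Eqv v0 (v.comap (algebraMap L K)))
    (hv' : Eqv v0 (v'.comap (algebraMap L K))) (hle : ∀ g, v g ≤ 1 → v' g ≤ 1) : Eqv v v' := by
  classical
  intro g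
  refine ⟨hle g, fun hg => ?_⟩
  by_contra hcon
  rw [not_le] at hcon
  have hg0 : g ≠ 0 := by
    rintro rfl
    rw [map_zero] at hcon
    exact absurd hcon (not_lt.2 zero_le_one)
  have hsmall : ∀ x, v' x < 1 → v x < 1 := by
    intro x hx
    by_contra hx'
    rw [not_lt] at hx'
    have hx0 : x ≠ 0 := by
      rintro rfl
      rw [map_zero] at hx'
      exact absurd hx' (not_le.2 zero_lt_one)
    have h1 : v x⁻¹ ≤ 1 := by rw [map_inv₀]; exact inv_le_one_of_one_le₀ hx'
    have h2 := hle _ h1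
    rw [map_inv₀, inv_le_one₀ (zero_lt_iff.2 ((Valuation.ne_zero_iff _).2 hx0))] at h2
    exact absurd hx (not_lt.2 h2)
  set h := g⁻¹ with hh
  have hvh : v h < 1 := by rw [hh, map_inv₀]; exact inv_lt_one_of_one_lt₀ hcon
  have hv'h : v' h = 1 := by
    refine le_antisymm (hle _ hvh.le) ?_
    rw [hh, map_inv₀]
    exact (one_le_inv₀ (zero_lt_iff.2 ((Valuation.ne_zero_iff _).2 hg0))).2 hg
  obtain ⟨q, hq0, hq1, hq2⟩ := exists_rel (K := K) v0 h
  set N := q.natDegree with hN
  have hsum : ∑ i ∈ Finset.range (N + 1), algebraMap L K (q.coeff i) * h ^ i = 0 := by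
    rw [← hq0, aeval_eq_sum_range]
    refine Finset.sum_congr rfl fun i _ => ?_
    rw [Algebra.smul_def]
  set k := Nat.find hq2 with hk
  have hk1 : v0 (q.coeff k) = 1 := Nat.find_spec hq2
  have hkN : k ≤ N := by
    by_contra hlt
    have : q.coeff k = 0 := coeff_eq_zero_of_natDegree_lt (not_le.1 hlt)
    rw [this, map_zero] at hk1
    exact zero_ne_one hk1
  have hkmin : ∀ j < k, v0 (q.coeff j) < 1 := fun j hj =>
    lt_of_le_of_ne (hq1 j) (Nat.find_min hq2 hj)
  set t : K := ∑ i ∈ Finset.Ico k (N + 1), algebraMap L K (q.coeff i) * h ^ (i - k) with ht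
  have hgk : h ^ k * t = -∑ i ∈ Finset.range k, algebraMap L K (q.coeff i) * h ^ i := by
    have h1 : h ^ k * t = ∑ i ∈ Finset.Ico k (N + 1), algebraMap L K (q.coeff i) * h ^ i := by
      rw [ht, Finset.mul_sum]
      refine Finset.sum_congr rfl fun i hi => ?_
      rw [Finset.mem_Ico] at hi
      have : h ^ i = h ^ k * h ^ (i - k) := by rw [← pow_add]; congr 1; omega
      rw [this]; ring
    rw [h1, eq_neg_iff_add_eq_zero, add_comm, Finset.range_eq_Ico,
      Finset.sum_Ico_consecutive _ (Nat.zero_le k) (by omega), ← Finset.range_eq_Ico]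
    exact hsum
  have ht' : v' t < 1 := by
    have h1 : v' (h ^ k * t) < 1 := by
      rw [hgk, Valuation.map_neg]
      refine Valuation.map_sum_lt _ one_ne_zero fun j hj => ?_
      rw [Finset.mem_range] at hj
      rw [map_mul, map_pow, hv'h, one_pow, mul_one]
      exact (hv'.lt _).1 (hkmin j hj)
    rwa [map_mul, map_pow, hv'h, one_pow, one_mul] at h1
  have ht1 : v t = 1 := by
    have hvk : v (algebraMap L K (q.coeff k)) = 1 := (hv.eq _).1 hk1
    rw [ht, Finset.sum_eq_sum_Ico_succ_bot (by omega)]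
    rw [Nat.sub_self, pow_zero, mul_one]
    rw [Valuation.map_add_eq_of_lt_left, hvk]
    rw [hvk]
    refine Valuation.map_sum_lt _ one_ne_zero fun j hj => ?_
    rw [Finset.mem_Ico] at hj
    rw [map_mul, map_pow]
    have h1 : v h ^ (j - k) < 1 := by
      have : j - k ≠ 0 := by omega
      exact pow_lt_one₀ zero_le hvh this
    calc v (algebraMap L K (q.coeff j)) * v h ^ (j - k)
        ≤ 1 * v h ^ (j - k) := mul_le_mul_left ((hv _).1 (hq1 j)) _
      _ < 1 := by rw [one_mul]; exact h1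
  exact absurd (hsmall t ht') (by rw [ht1]; exact lt_irrefl _)

end

section

variable {L K Ω : Type*} [Field L] [Field K] [Field Ω] [Algebra L K] [Algebra L Ω]
variable {Γ : Type*} [LinearOrderedCommGroupWithZero Γ]
variable {Γ' : Type*} [LinearOrderedCommGroupWithZero Γ']

/-- valuations of `K` come from embeddings in `Ω`. -/
theorem exists_algHom_eqv [FiniteDimensional L K]
    (hs : ∀ g : K, ((minpoly L g).map (algebraMap L Ω)).Splits)
    (w : Valuation Ω Γ') (v : Valuation K Γ)
    (h : Eqv (v.comap (algebraMap L K)) (w.comap (algebraMap L Ω))) :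
    ∃ ψ : K →ₐ[L] Ω, Eqv v (w.comap (ψ : K →+* Ω)) := by
  classical
  by_contra hcon
  push Not at hcon
  set v0 := v.comap (algebraMap L K) with hv0
  have hEv : Eqv v0 (v.comap (algebraMap L K)) := fun x => Iff.rfl
  have hψ : ∀ ψ : K →ₐ[L] Ω, Eqv v0 ((w.comap (ψ : K →+* Ω)).comap (algebraMap L K)) := by
    intro ψ x
    rw [h x]
    simp [Valuation.comap_apply]
  -- the separating elements
  have key : ∀ ψ : K →ₐ[L] Ω, ∃ s : K, v s = 1 ∧ w (ψ s) < 1 ∧ ∀ ψ' : K →ₐ[L] Ω, w (ψ' s) ≤ 1 := by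
    intro ψ
    by_contra hno
    push Not at hno
    -- then `v ≤ 1 → w ∘ ψ ≤ 1`
    refine hcon ψ (eqv_of_le v0 v (w.comap (ψ : K →+* Ω)) hEv (hψ ψ) fun g hg => ?_)
    obtain ⟨u, hu1, hu2⟩ := exists_frac v0 v hEv g hg
    have hall : ∀ ψ' : K →ₐ[L] Ω, w (ψ' u) ≤ 1 ∧ w (ψ' (g * u)) ≤ 1 := by
      intro ψ'
      refine hu2 _ (w.comap (ψ' : K →+* Ω)) fun x hx => ?_
      exact (hψ ψ' x).1 hx
    have h1 : w (ψ u) = 1 := by
      refine le_antisymm (hall ψ).1 (not_lt.1 fun hlt => ?_)
      obtain ⟨ψ', hψ'⟩ := hno u hu1 hlt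
      exact absurd (hall ψ').1 (not_le.2 hψ')
    have h2 := (hall ψ).2
    rw [map_mul, map_mul, h1, mul_one] at h2
    exact h2
  choose s hs1 hs2 hs3 using key
  set g : K := ∏ ψ : K →ₐ[L] Ω, s ψ with hg
  have hvg : v g = 1 := by
    rw [hg, map_prod]
    exact Finset.prod_eq_one fun ψ _ => hs1 ψ
  have hwg : ∀ ψ : K →ₐ[L] Ω, w (ψ g) < 1 := by
    intro ψ
    rw [hg, map_prod, map_prod, ← Finset.mul_prod_erase _ _ (Finset.mem_univ ψ)]
    have h1 : ∏ x ∈ Finset.univ.erase ψ, w (ψ (s x)) ≤ 1 :=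
      Finset.prod_le_one' fun x _ => hs3 x ψ
    calc w (ψ (s ψ)) * ∏ x ∈ Finset.univ.erase ψ, w (ψ (s x)) ≤ w (ψ (s ψ)) * 1 :=
          mul_le_mul_right h1 _
      _ < 1 := by rw [mul_one]; exact hs2 ψ
  -- the minimal polynomial
  have hint : ∀ s : K, IsIntegral L s := fun s => IsIntegral.of_finite L s
  set P := minpoly L g with hP
  have hPm : P.Monic := minpoly.monic (hint g)
  have hroots : ∀ r ∈ (P.map (algebraMap L Ω)).roots, w r < 1 := by
    intro r hr
    rw [mem_roots (hPm.map _).ne_zero, IsRoot.def, eval_map_algebraMap] at hr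
    obtain ⟨ψ, hψr⟩ := IntermediateField.exists_algHom_of_splits_of_aeval
      (fun s => ⟨hint s, hs s⟩) hr
    rw [← hψr]
    exact hwg ψ
  have hprod : P.map (algebraMap L Ω) = ((P.map (algebraMap L Ω)).roots.map fun a => X - C a).prod := by
    have := (hs g).eq_prod_roots
    rwa [(hPm.map _).leadingCoeff, C_1, one_mul] at this
  have hcoef : ∀ (m : Multiset Ω), (∀ r ∈ m, w r < 1) →
      (∀ i, w ((m.map fun a => X - C a).prod.coeff i) ≤ 1) ∧
      ∀ i < Multiset.card m, w ((m.map fun a => X - C a).prod.coeff i) < 1 := by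
    intro m
    induction m using Multiset.induction_on with
    | empty =>
      intro _
      refine ⟨fun i => ?_, fun i hi => absurd hi (by simp)⟩
      simp only [Multiset.map_zero, Multiset.prod_zero, coeff_one]
      split_ifs <;> simp
    | cons a m ih =>
      intro hm
      obtain ⟨h1, h2⟩ := ih fun r hr => hm r (Multiset.mem_cons_of_mem hr)
      have ha : w a < 1 := hm a (Multiset.mem_cons_self _ _)
      have hform : ∀ i, ((Multiset.map (fun a => X - C a) (a ::ₘ m)).prod).coeff i =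
          (if i = 0 then 0 else ((m.map fun a => X - C a).prod).coeff (i - 1)) -
            a * ((m.map fun a => X - C a).prod).coeff i := by
        intro i
        rw [Multiset.map_cons, Multiset.prod_cons, sub_mul, coeff_sub, coeff_C_mul]
        congr 1
        rcases i with _ | i
        · simp
        · simp [coeff_X_mul]
      refine ⟨fun i => ?_, fun i hi => ?_⟩
      · rw [hform]
        refine Valuation.map_sub_le _ ?_ ?_
        · split_ifs
          · simp
          · exact h1 _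
        · rw [map_mul]
          exact mul_le_one' ha.le (h1 i)
      · rw [hform]
        refine Valuation.map_sub_lt _ ?_ ?_
        · split_ifs with hi0
          · simp
          · rw [Multiset.card_cons] at hi
            exact h2 _ (by omega)
        · rw [map_mul]
          calc w a * w (((m.map fun a => X - C a).prod).coeff i) ≤ w a * 1 :=
                mul_le_mul_right (h1 i) _
            _ < 1 := by rw [mul_one]; exact ha
  have hc := (hcoef _ hroots).2
  have hcard : Multiset.card (P.map (algebraMap L Ω)).roots = P.natDegree := by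
    rw [← natDegree_map (algebraMap L Ω), (hs g).natDegree_eq_card_roots]
  have hsmallc : ∀ i < P.natDegree, v (algebraMap L K (P.coeff i)) < 1 := by
    intro i hi
    have h1 := hc i (by rw [hcard]; exact hi)
    rw [← hprod, coeff_map] at h1
    exact (Eqv.lt h (P.coeff i)).2 h1
  have h0 : aeval g P = 0 := minpoly.aeval L g
  rw [aeval_eq_sum_range, Finset.sum_range_succ, hPm.coeff_natDegree, one_smul,
    add_comm, ← eq_neg_iff_add_eq_zero] at h0
  have h1 : v (g ^ P.natDegree) < 1 := by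
    rw [h0, Valuation.map_neg]
    refine Valuation.map_sum_lt _ one_ne_zero fun i hi => ?_
    rw [Finset.mem_range] at hi
    rw [Algebra.smul_def, map_mul, map_pow, hvg, one_pow, mul_one]
    exact hsmallc i hi
  rw [map_pow, hvg, one_pow] at h1
  exact lt_irrefl _ h1

/-- valuation subrings of `K` come from embeddings in `Ω`. -/
theorem exists_algHom_comap [FiniteDimensional L K]
    (hs : ∀ g : K, ((minpoly L g).map (algebraMap L Ω)).Splits)
    (O : ValuationSubring Ω) (V : ValuationSubring K)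
    (h : V.comap (algebraMap L K) = O.comap (algebraMap L Ω)) :
    ∃ ψ : K →ₐ[L] Ω, O.comap (ψ : K →+* Ω) = V := by
  obtain ⟨ψ, hψ⟩ := exists_algHom_eqv hs O.valuation V.valuation (fun x => by
    rw [Valuation.comap_apply, Valuation.comap_apply, ValuationSubring.valuation_le_one_iff,
      ValuationSubring.valuation_le_one_iff]
    have := SetLike.ext_iff.1 h x
    simpa using this)
  refine ⟨ψ, ?_⟩
  ext x
  have := hψ x
  rw [Valuation.comap_apply, ValuationSubring.valuation_le_one_iff,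
      ValuationSubring.valuation_le_one_iff] at this
  rw [ValuationSubring.mem_comap]
  exact this.symm

end

end Vale.Agent.P298.H416
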