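import Mathlib
import Vale.Agent.P298.H416.Emb

/-!
# Composite valuation rings, charts at the places of a residue field
-/

namespace Vale.Agent.P298.H416

/-- `f` is the normalised additive valuation of `O` (with `f 0 = 0`), same as `P019P.IsOrd`. -/
structure NOrd {F : Type*} [Field F] (O : ValuationSubring F) (f : F → ℤ) : Prop where
  zero : f 0 = 0
  mul : ∀ x y, x ≠ 0 → y ≠ 0 → f (x * y) = f x + f y
  add : ∀ x y, x ≠ 0 → y ≠ 0 → x + y ≠ 0 → min (f x) (f y) ≤ f (x + y)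
  mem : ∀ x, x ∈ O ↔ x = 0 ∨ 0 ≤ f x
  one : ∃ π, f π = 1

namespace NOrd

variable {F : Type*} [Field F] {O : ValuationSubring F} {f g : F → ℤ}

theorem map_one (h : NOrd O f) : f 1 = 0 := by
  have := h.mul 1 1 one_ne_zero one_ne_zero
  rw [mul_one] at this
  omega

theorem inv (h : NOrd O f) (x : F) : f x⁻¹ = -f x := by
  by_cases hx : x = 0
  · rw [hx, inv_zero, h.zero, neg_zero]
  · have := h.mul x x⁻¹ hx (inv_ne_zero hx)
    rw [mul_inv_cancel₀ hx, h.map_one] at this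
    omega

theorem neg (h : NOrd O f) (x : F) : f (-x) = f x := by
  have h1 : f (-1) = 0 := by
    have := h.mul (-1) (-1) (neg_ne_zero.2 one_ne_zero) (neg_ne_zero.2 one_ne_zero)
    rw [neg_mul_neg, mul_one, h.map_one] at this
    omega
  by_cases hx : x = 0
  · rw [hx, neg_zero]
  · have := h.mul (-1) x (neg_ne_zero.2 one_ne_zero) hx
    rw [neg_one_mul, h1] at this
    omega

theorem div (h : NOrd O f) {x y : F} (hx : x ≠ 0) (hy : y ≠ 0) : f (x / y) = f x - f y := by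
  rw [div_eq_mul_inv, h.mul x _ hx (inv_ne_zero hy), h.inv]
  ring

theorem pow (h : NOrd O f) (x : F) (n : ℕ) : f (x ^ n) = n * f x := by
  by_cases hx : x = 0
  · rcases Nat.eq_zero_or_pos n with rfl | hn
    · simp [h.map_one]
    · rw [hx, zero_pow hn.ne', h.zero, mul_zero]
  induction n with
  | zero => simp [h.map_one]
  | succ n ih =>
    rw [pow_succ, h.mul _ _ (pow_ne_zero n hx) hx, ih]
    push_cast
    ring

theorem zpow (h : NOrd O f) (x : F) (n : ℤ) : f (x ^ n) = n * f x := by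
  cases n with
  | ofNat n => rw [Int.ofNat_eq_natCast, zpow_natCast, h.pow]
  | negSucc n =>
    rw [zpow_negSucc, h.inv, h.pow, Int.negSucc_eq]
    push_cast
    ring

theorem val_le_one (h : NOrd O f) {x : F} (hx : x ≠ 0) : O.valuation x ≤ 1 ↔ 0 ≤ f x := by
  rw [ValuationSubring.valuation_le_one_iff, h.mem]
  exact ⟨fun h => h.resolve_left hx, Or.inr⟩

theorem val_lt_one (h : NOrd O f) {x : F} (hx : x ≠ 0) : O.valuation x < 1 ↔ 0 < f x := by
  have h1 : O.valuation x < 1 ↔ ¬ O.valuation x⁻¹ ≤ 1 := by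
    rw [map_inv₀, inv_le_one₀ (zero_lt_iff.2 ((Valuation.ne_zero_iff _).2 hx)), not_le]
  rw [h1, h.val_le_one (inv_ne_zero hx), h.inv]
  omega

/-- a coarse comparison determines the normalised order. -/
theorem eq_mul (h : NOrd O f) {k : F → ℤ} (k0 : k 0 = 0)
    (kmul : ∀ x y, x ≠ 0 → y ≠ 0 → k (x * y) = k x + k y)
    (kmem : ∀ x, x ≠ 0 → (x ∈ O ↔ 0 ≤ k x)) :
    ∃ c : ℤ, 0 < c ∧ ∀ x, k x = c * f x := by
  obtain ⟨π, hπ⟩ := h.one
  have hπ0 : π ≠ 0 := by
    rintro rfl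
    rw [h.zero] at hπ
    exact absurd hπ (by norm_num)
  have k1 : k 1 = 0 := by
    have := kmul 1 1 one_ne_zero one_ne_zero
    rw [mul_one] at this
    omega
  have kinv : ∀ x, x ≠ 0 → k x⁻¹ = -k x := by
    intro x hx
    have := kmul x x⁻¹ hx (inv_ne_zero hx)
    rw [mul_inv_cancel₀ hx, k1] at this
    omega
  have kpow : ∀ (x : F) (n : ℕ), x ≠ 0 → k (x ^ n) = n * k x := by
    intro x n hx
    induction n with
    | zero => simp [k1]
    | succ n ih =>
      rw [pow_succ, kmul _ _ (pow_ne_zero n hx) hx, ih]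
      push_cast
      ring
  have kzpow : ∀ (x : F) (n : ℤ), x ≠ 0 → k (x ^ n) = n * k x := by
    intro x n hx
    cases n with
    | ofNat n => rw [Int.ofNat_eq_natCast, zpow_natCast, kpow x n hx]
    | negSucc n =>
      rw [zpow_negSucc, kinv _ (pow_ne_zero _ hx), kpow x _ hx, Int.negSucc_eq]
      push_cast
      ring
  have hunit : ∀ x, x ≠ 0 → f x = 0 → k x = 0 := by
    intro x hx hfx
    have h1 : 0 ≤ k x := (kmem x hx).1 ((h.mem x).2 (Or.inr hfx.ge))
    have h2 : 0 ≤ k x⁻¹ := (kmem _ (inv_ne_zero hx)).1 ((h.mem _).2 (Or.inr (by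
      rw [h.inv, hfx, neg_zero])))
    rw [kinv x hx] at h2
    omega
  refine ⟨k π, ?_, fun x => ?_⟩
  · have h1 : ¬ (π⁻¹ ∈ O) := by
      rw [h.mem, h.inv, hπ]
      rintro (h | h)
      · exact inv_ne_zero hπ0 h
      · omega
    rw [kmem _ (inv_ne_zero hπ0), kinv π hπ0] at h1
    omega
  · by_cases hx : x = 0
    · rw [hx, k0, h.zero, mul_zero]
    · have h1 : k (x * (π ^ (f x))⁻¹) = 0 := by
        refine hunit _ (mul_ne_zero hx (inv_ne_zero (zpow_ne_zero _ hπ0))) ?_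
        rw [h.mul _ _ hx (inv_ne_zero (zpow_ne_zero _ hπ0)), h.inv, h.zpow, hπ]
        ring
      rw [kmul _ _ hx (inv_ne_zero (zpow_ne_zero _ hπ0)), kinv _ (zpow_ne_zero _ hπ0),
        kzpow _ _ hπ0] at h1
      linarith [mul_comm (f x) (k π)]

theorem unique (h : NOrd O f) (h' : NOrd O g) : f = g := by
  obtain ⟨c, hc, hk⟩ := h.eq_mul h'.zero h'.mul (fun x hx => by
    rw [h'.mem]
    exact ⟨fun h => h.resolve_left hx, Or.inr⟩)
  obtain ⟨π, hπ⟩ := h'.one
  have h1 : c = 1 := by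
    have h2 := hk π
    rw [hπ] at h2
    exact Int.eq_one_of_dvd_one hc.le ⟨_, h2⟩
  funext x
  rw [hk x, h1, one_mul]

end NOrd

/-- pull-back of a discrete valuation. -/
theorem exists_nord_comap {K Ω : Type*} [Field K] [Field Ω] {O : ValuationSubring Ω} {f : Ω → ℤ}
    (h : NOrd O f) (ψ : K →+* Ω) (hne : ∃ x, f (ψ x) ≠ 0) :
    ∃ (k : K → ℤ) (c : ℤ), 0 < c ∧ NOrd (O.comap ψ) k ∧ ∀ x, f (ψ x) = c * k x := by
  classical
  have hψ : ∀ x : K, x ≠ 0 → ψ x ≠ 0 := fun x hx => by rwa [Ne, map_eq_zero]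
  -- the value group
  let H : AddSubgroup ℤ :=
    { carrier := {n | ∃ x : K, x ≠ 0 ∧ f (ψ x) = n}
      zero_mem' := ⟨1, one_ne_zero, by rw [map_one, h.map_one]⟩
      add_mem' := by
        rintro _ _ ⟨x, hx, rfl⟩ ⟨y, hy, rfl⟩
        exact ⟨x * y, mul_ne_zero hx hy, by rw [map_mul, h.mul _ _ (hψ x hx) (hψ y hy)]⟩
      neg_mem' := by
        rintro _ ⟨x, hx, rfl⟩
        exact ⟨x⁻¹, inv_ne_zero hx, by rw [map_inv₀, h.inv]⟩ }
  obtain ⟨d, hd⟩ := Int.subgroup_cyclic H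
  have hmem : ∀ n, n ∈ H ↔ d ∣ n := by
    intro n
    rw [hd, AddSubgroup.mem_closure_singleton]
    constructor
    · rintro ⟨m, rfl⟩
      exact ⟨m, by rw [smul_eq_mul, mul_comm]⟩
    · rintro ⟨m, rfl⟩
      exact ⟨m, by rw [smul_eq_mul, mul_comm]⟩
  have hd0 : d ≠ 0 := by
    rintro rfl
    obtain ⟨x, hx⟩ := hne
    have hx0 : x ≠ 0 := by
      rintro rfl
      exact hx (by rw [map_zero, h.zero])
    exact hx (by simpa using (hmem (f (ψ x))).1 ⟨x, hx0, rfl⟩)
  set c := |d| with hc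
  have hc0 : 0 < c := abs_pos.2 hd0
  have hdvd : ∀ x : K, c ∣ f (ψ x) := by
    intro x
    by_cases hx : x = 0
    · rw [hx, map_zero, h.zero]
      exact dvd_zero _
    · exact (abs_dvd _ _).2 ((hmem _).1 ⟨x, hx, rfl⟩)
  choose k hk using hdvd
  refine ⟨k, c, hc0, ⟨?_, ?_, ?_, ?_, ?_⟩, hk⟩
  · have := hk 0
    rw [map_zero, h.zero] at this
    rcases mul_eq_zero.1 this.symm with h1 | h1
    · exact absurd h1 hc0.ne'
    · exact h1
  · intro x y hx hy
    have := h.mul _ _ (hψ x hx) (hψ y hy)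
    rw [← map_mul, hk, hk, hk, ← mul_add] at this
    exact mul_left_cancel₀ hc0.ne' this
  · intro x y hx hy hxy
    have := h.add _ _ (hψ x hx) (hψ y hy) (by rw [← map_add]; exact hψ _ hxy)
    rw [← map_add, hk, hk, hk] at this
    rcases min_le_iff.1 this with h1 | h1
    · exact min_le_iff.2 (Or.inl (le_of_mul_le_mul_left h1 hc0))
    · exact min_le_iff.2 (Or.inr (le_of_mul_le_mul_left h1 hc0))
  · intro x
    rw [ValuationSubring.mem_comap, h.mem, map_eq_zero, hk]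
    exact or_congr_right ⟨fun h => nonneg_of_mul_nonneg_right h hc0, fun h => mul_nonneg hc0.le h⟩
  · obtain ⟨x, hx, hx'⟩ := (hmem c).2 ((dvd_abs _ _).2 dvd_rfl)
    refine ⟨x, ?_⟩
    rw [hk] at hx'
    exact (mul_eq_left₀ hc0.ne').1 hx'

section comp

variable {K : Type*} [Field K]

/-- a residue map of `O`. -/
structure Res (O : ValuationSubring K) (k : Type*) [Field k] where
  /-- the map -/
  ρ : O →+* k
  ker : ∀ x, ρ x = 0 ↔ O.valuation (x : K) < 1

/-- the canonical one. -/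
noncomputable def resCan (O : ValuationSubring K) : Res O (IsLocalRing.ResidueField O) where
  ρ := IsLocalRing.residue O
  ker := fun x => by
    rw [IsLocalRing.residue_eq_zero_iff, O.valuation_lt_one_iff]

/-- the composite of `O` with a valuation ring `P` of a residue field. -/
def comp (O : ValuationSubring K) {k : Type*} [Field k] (ρ : Res O k) (P : ValuationSubring k) :
    ValuationSubring K where
  carrier := {x | ∃ h : x ∈ O, ρ.ρ ⟨x, h⟩ ∈ P}
  mul_mem' := by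
    rintro x y ⟨hx, hx'⟩ ⟨hy, hy'⟩
    refine ⟨mul_mem hx hy, ?_⟩
    have : (⟨x * y, mul_mem hx hy⟩ : O) = ⟨x, hx⟩ * ⟨y, hy⟩ := rfl
    rw [this, map_mul]
    exact mul_mem hx' hy'
  one_mem' := ⟨one_mem _, by
    have : (⟨1, one_mem _⟩ : O) = 1 := rfl
    rw [this, map_one]
    exact one_mem _⟩
  add_mem' := by
    rintro x y ⟨hx, hx'⟩ ⟨hy, hy'⟩
    refine ⟨add_mem hx hy, ?_⟩
    have : (⟨x + y, add_mem hx hy⟩ : O) = ⟨x, hx⟩ + ⟨y, hy⟩ := rfl
    rw [this, map_add]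
    exact add_mem hx' hy'
  zero_mem' := ⟨zero_mem _, by
    have : (⟨0, zero_mem _⟩ : O) = 0 := rfl
    rw [this, map_zero]
    exact zero_mem _⟩
  neg_mem' := by
    rintro x ⟨hx, hx'⟩
    refine ⟨neg_mem hx, ?_⟩
    have : (⟨-x, neg_mem hx⟩ : O) = -⟨x, hx⟩ := rfl
    rw [this, map_neg]
    exact neg_mem hx'
  mem_or_inv_mem' := by
    -- elements of small valuation are in the composite
    have hsm : ∀ y : K, O.valuation y < 1 → ∃ h : y ∈ O, ρ.ρ ⟨y, h⟩ ∈ P := by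
      intro y hy
      have hyO : y ∈ O := (O.valuation_le_one_iff y).1 hy.le
      refine ⟨hyO, ?_⟩
      rw [(ρ.ker ⟨y, hyO⟩).2 hy]
      exact zero_mem _
    intro x
    by_cases hx0 : x = 0
    · left
      rw [hx0]
      exact hsm 0 (by rw [map_zero]; exact zero_lt_one)
    have hpos : 0 < O.valuation x := zero_lt_iff.2 ((Valuation.ne_zero_iff _).2 hx0)
    rcases lt_trichotomy (O.valuation x) 1 with h | h | h
    · exact Or.inl (hsm x h)
    · have hxO : x ∈ O := (O.valuation_le_one_iff x).1 h.le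
      have hxO' : x⁻¹ ∈ O := (O.valuation_le_one_iff _).1 (by rw [map_inv₀, h, inv_one])
      have hmul : ρ.ρ ⟨x, hxO⟩ * ρ.ρ ⟨x⁻¹, hxO'⟩ = 1 := by
        rw [← map_mul]
        have : (⟨x, hxO⟩ * ⟨x⁻¹, hxO'⟩ : O) = 1 := Subtype.ext (mul_inv_cancel₀ hx0)
        rw [this, map_one]
      rcases P.mem_or_inv_mem (ρ.ρ ⟨x, hxO⟩) with h1 | h1
      · exact Or.inl ⟨hxO, h1⟩
      · refine Or.inr ⟨hxO', ?_⟩
        rwa [eq_inv_of_mul_eq_one_right hmul]
    · right
      refine hsm _ ?_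
      rw [map_inv₀]
      exact inv_lt_one_of_one_lt₀ h

variable {k : Type*} [Field k]

theorem mem_comp {O : ValuationSubring K} {ρ : Res O k} {P : ValuationSubring k} {x : K} :
    x ∈ comp O ρ P ↔ ∃ h : x ∈ O, ρ.ρ ⟨x, h⟩ ∈ P := Iff.rfl

theorem comp_le (O : ValuationSubring K) (ρ : Res O k) (P : ValuationSubring k) :
    comp O ρ P ≤ O := fun _ h => h.1

theorem mem_comp_of_lt {O : ValuationSubring K} (ρ : Res O k) (P : ValuationSubring k) {x : K}
    (h : O.valuation x < 1) : x ∈ comp O ρ P := by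
  have hx : x ∈ O := (O.valuation_le_one_iff x).1 h.le
  refine ⟨hx, ?_⟩
  rw [(ρ.ker ⟨x, hx⟩).2 h]
  exact zero_mem _

end comp

section chart

variable {L K Ω : Type*} [Field L] [Field K] [Field Ω] [Algebra L K] [Algebra L Ω]

theorem eqv_of_comap_eq {V : ValuationSubring K} {O : ValuationSubring Ω}
    (h : V.comap (algebraMap L K) = O.comap (algebraMap L Ω)) :
    Eqv (V.valuation.comap (algebraMap L K)) (O.valuation.comap (algebraMap L Ω)) := by
  intro x
  rw [Valuation.comap_apply, Valuation.comap_apply, ValuationSubring.valuation_le_one_iff,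
      ValuationSubring.valuation_le_one_iff]
  have := SetLike.ext_iff.1 h x
  simpa using this

/-- valuation rings of an algebraic extension with the same trace are not comparable. -/
theorem eq_of_le_of_comap_eq [FiniteDimensional L K] {V W : ValuationSubring K} (hle : V ≤ W)
    (h : V.comap (algebraMap L K) = W.comap (algebraMap L K)) : V = W := by
  have h1 := eqv_of_le (V.valuation.comap (algebraMap L K)) V.valuation W.valuation
    (fun _ => Iff.rfl) (eqv_of_comap_eq (L := L) (K := K) (Ω := K) h) (fun g hg => by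
      rw [ValuationSubring.valuation_le_one_iff] at hg ⊢
      exact hle hg)
  ext x
  have := h1 x
  rwa [ValuationSubring.valuation_le_one_iff, ValuationSubring.valuation_le_one_iff] at this

/-- every place of a residue field of a valuation ring of `K` is seen by an embedding. -/
theorem exists_chart [FiniteDimensional L K]
    (hs : ∀ g : K, ((minpoly L g).map (algebraMap L Ω)).Splits)
    (O : ValuationSubring K) {k : Type*} [Field k] (ρ : Res O k) (P : ValuationSubring k)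
    (O₁ : ValuationSubring Ω) {k₁ : Type*} [Field k₁] (ρ₁ : Res O₁ k₁) (P₁ : ValuationSubring k₁)
    (h1 : ∀ x : L, algebraMap L K x ∈ O ↔ algebraMap L Ω x ∈ O₁)
    (h2 : ∀ (x : L) (h : algebraMap L K x ∈ O) (h' : algebraMap L Ω x ∈ O₁),
      ρ.ρ ⟨algebraMap L K x, h⟩ ∈ P ↔ ρ₁.ρ ⟨algebraMap L Ω x, h'⟩ ∈ P₁) :
    ∃ ψ : K →ₐ[L] Ω, O₁.comap (ψ : K →+* Ω) = O ∧
      (comp O₁ ρ₁ P₁).comap (ψ : K →+* Ω) = comp O ρ P := by
  obtain ⟨ψ, hψ⟩ := exists_algHom_comap hs (comp O₁ ρ₁ P₁) (comp O ρ P) (by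
    ext x
    rw [ValuationSubring.mem_comap, ValuationSubring.mem_comap, mem_comp, mem_comp]
    constructor
    · rintro ⟨h, h'⟩
      exact ⟨(h1 x).1 h, (h2 x h _).1 h'⟩
    · rintro ⟨h, h'⟩
      exact ⟨(h1 x).2 h, (h2 x _ h).2 h'⟩)
  refine ⟨ψ, ?_, hψ⟩
  -- both rings contain the composite
  have hV1 : comp O ρ P ≤ O := comp_le O ρ P
  have hV2 : comp O ρ P ≤ O₁.comap (ψ : K →+* Ω) := by
    rw [← hψ]
    intro x hx
    exact hx.1
  have htr : (O₁.comap (ψ : K →+* Ω)).comap (algebraMap L K) = O.comap (algebraMap L K) := by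
    ext x
    rw [ValuationSubring.mem_comap, ValuationSubring.mem_comap, ValuationSubring.mem_comap, h1]
    simp
  rcases le_total (⟨O, hV1⟩ : {S // comp O ρ P ≤ S}) ⟨O₁.comap (ψ : K →+* Ω), hV2⟩ with h | h
  · exact (eq_of_le_of_comap_eq (L := L) (Subtype.mk_le_mk.1 h) htr.symm).symm
  · exact eq_of_le_of_comap_eq (L := L) (Subtype.mk_le_mk.1 h) htr

/-- the restriction of `ψ` to the rings. -/
def resPre {O : ValuationSubring K} {O₁ : ValuationSubring Ω} (ψ : K →+* Ω)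
    (h : O₁.comap ψ = O) : O →+* O₁ where
  toFun := fun x => ⟨ψ x, (SetLike.ext_iff.1 h (x : K)).2 x.2⟩
  map_one' := Subtype.ext (map_one ψ)
  map_zero' := Subtype.ext (map_zero ψ)
  map_mul' := fun _ _ => Subtype.ext (map_mul ψ _ _)
  map_add' := fun _ _ => Subtype.ext (map_add ψ _ _)

theorem val_lt_one_comap {O : ValuationSubring K} {O₁ : ValuationSubring Ω} (ψ : K →+* Ω)
    (h : O₁.comap ψ = O) (x : K) : O.valuation x < 1 ↔ O₁.valuation (ψ x) < 1 := by
  by_cases hx : x = 0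
  · simp [hx]
  · have h1 : O.valuation x < 1 ↔ ¬ x⁻¹ ∈ O := by
      rw [← O.valuation_le_one_iff, map_inv₀, inv_le_one₀ (zero_lt_iff.2
        ((Valuation.ne_zero_iff _).2 hx)), not_le]
    have h2 : O₁.valuation (ψ x) < 1 ↔ ¬ (ψ x)⁻¹ ∈ O₁ := by
      rw [← O₁.valuation_le_one_iff, map_inv₀, inv_le_one₀ (zero_lt_iff.2
        ((Valuation.ne_zero_iff _).2 (by rwa [Ne, map_eq_zero]))), not_le]
    rw [h1, h2, ← map_inv₀, ← h, ValuationSubring.mem_comap]

/-- the induced map of residue fields. -/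
noncomputable def resMap {O : ValuationSubring K} {O₁ : ValuationSubring Ω} {k₁ : Type*} [Field k₁]
    (ρ₁ : Res O₁ k₁) (ψ : K →+* Ω) (h : O₁.comap ψ = O) : IsLocalRing.ResidueField O →+* k₁ :=
  Ideal.Quotient.lift _ (ρ₁.ρ.comp (resPre ψ h)) (fun x hx => by
    have h1 := (O.valuation_lt_one_iff x).1 hx
    rw [RingHom.comp_apply, ρ₁.ker]
    exact (val_lt_one_comap ψ h x).1 h1)

theorem resMap_residue {O : ValuationSubring K} {O₁ : ValuationSubring Ω} {k₁ : Type*} [Field k₁]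
    (ρ₁ : Res O₁ k₁) (ψ : K →+* Ω) (h : O₁.comap ψ = O) (x : O) :
    resMap ρ₁ ψ h (IsLocalRing.residue O x) = ρ₁.ρ (resPre ψ h x) := rfl

/-- every place of the residue field of a valuation ring of `K` is seen by an embedding. -/
theorem exists_chart' [FiniteDimensional L K]
    (hs : ∀ g : K, ((minpoly L g).map (algebraMap L Ω)).Splits)
    (O : ValuationSubring K) (P : ValuationSubring (IsLocalRing.ResidueField O))
    (O₁ : ValuationSubring Ω) {k₁ : Type*} [Field k₁] (ρ₁ : Res O₁ k₁) (P₁ : ValuationSubring k₁)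
    (h1 : ∀ x : L, algebraMap L K x ∈ O ↔ algebraMap L Ω x ∈ O₁)
    (h2 : ∀ (x : L) (h : algebraMap L K x ∈ O) (h' : algebraMap L Ω x ∈ O₁),
      IsLocalRing.residue O ⟨algebraMap L K x, h⟩ ∈ P ↔ ρ₁.ρ ⟨algebraMap L Ω x, h'⟩ ∈ P₁) :
    ∃ (ψ : K →ₐ[L] Ω) (h : O₁.comap (ψ : K →+* Ω) = O),
      P₁.comap (resMap ρ₁ (ψ : K →+* Ω) h) = P := by
  obtain ⟨ψ, hψ, hψ'⟩ := exists_chart hs O (resCan O) P O₁ ρ₁ P₁ h1 h2
  refine ⟨ψ, hψ, ?_⟩
  ext r
  obtain ⟨x, rfl⟩ := IsLocalRing.residue_surjective r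
  rw [ValuationSubring.mem_comap, resMap_residue]
  have h3 := SetLike.ext_iff.1 hψ' (x : K)
  rw [ValuationSubring.mem_comap, mem_comp, mem_comp] at h3
  constructor
  · intro h
    obtain ⟨_, h'⟩ := h3.1 ⟨(resPre (ψ : K →+* Ω) hψ x).2, h⟩
    exact h'
  · intro h
    obtain ⟨_, h'⟩ := h3.2 ⟨x.2, h⟩
    exact h'

/-- the orders in a chart. -/
theorem exists_chart_ord [FiniteDimensional L K]
    (hs : ∀ g : K, ((minpoly L g).map (algebraMap L Ω)).Splits)
    (O : ValuationSubring K) (P : ValuationSubring (IsLocalRing.ResidueField O))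
    {v : K → ℤ} (hv : NOrd O v) {w : IsLocalRing.ResidueField O → ℤ} (hw : NOrd P w)
    (O₁ : ValuationSubring Ω) {k₁ : Type*} [Field k₁] (ρ₁ : Res O₁ k₁) (P₁ : ValuationSubring k₁)
    {v₁ : Ω → ℤ} (hv₁ : NOrd O₁ v₁) {w₁ : k₁ → ℤ} (hw₁ : NOrd P₁ w₁)
    (h1 : ∀ x : L, algebraMap L K x ∈ O ↔ algebraMap L Ω x ∈ O₁)
    (h2 : ∀ (x : L) (h : algebraMap L K x ∈ O) (h' : algebraMap L Ω x ∈ O₁),
      IsLocalRing.residue O ⟨algebraMap L K x, h⟩ ∈ P ↔ ρ₁.ρ ⟨algebraMap L Ω x, h'⟩ ∈ P₁) :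
    ∃ (ψ : K →ₐ[L] Ω) (h : O₁.comap (ψ : K →+* Ω) = O) (a b : ℤ), 0 < a ∧ 0 < b ∧
      (∀ x, v₁ (ψ x) = a * v x) ∧ ∀ r, w₁ (resMap ρ₁ (ψ : K →+* Ω) h r) = b * w r := by
  obtain ⟨ψ, h, hP⟩ := exists_chart' hs O P O₁ ρ₁ P₁ h1 h2
  obtain ⟨a, ha, hva⟩ := hv.eq_mul (k := fun x => v₁ (ψ x)) (by simp [hv₁.zero])
    (fun x y hx hy => by
      simp only [map_mul]
      exact hv₁.mul _ _ (by rwa [Ne, map_eq_zero]) (by rwa [Ne, map_eq_zero]))
    (fun x hx => by
      have hx' : ψ x ≠ 0 := by rwa [Ne, map_eq_zero]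
      have h3 : x ∈ O ↔ ψ x ∈ O₁ := by
        rw [← h, ValuationSubring.mem_comap]
        rfl
      rw [h3, hv₁.mem]
      exact ⟨fun h => h.resolve_left hx', Or.inr⟩)
  obtain ⟨b, hb, hwb⟩ := hw.eq_mul (k := fun r => w₁ (resMap ρ₁ (ψ : K →+* Ω) h r))
    (by simp [hw₁.zero])
    (fun x y hx hy => by
      simp only [map_mul]
      exact hw₁.mul _ _ (by rwa [Ne, map_eq_zero]) (by rwa [Ne, map_eq_zero]))
    (fun r hr => by
      have hr' : resMap ρ₁ (ψ : K →+* Ω) h r ≠ 0 := by rwa [Ne, map_eq_zero]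
      have h3 : r ∈ P ↔ resMap ρ₁ (ψ : K →+* Ω) h r ∈ P₁ := by
        rw [← hP, ValuationSubring.mem_comap]
      rw [h3, hw₁.mem]
      exact ⟨fun h => h.resolve_left hr', Or.inr⟩)
  exact ⟨ψ, h, a, b, ha, hb, hva, hwb⟩

end chart

end Vale.Agent.P298.H416
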