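import Mathlib
import Vale.Agent.P298.H416.Cmp

/-!
# The fundamental identity in the language of valuation rings: preparations
-/

namespace Vale.Agent.P298.H416

open IsDedekindDomain

section dvr

variable {F : Type*} [Field F] {O : ValuationSubring F} {f : F → ℤ}

theorem NOrd.isUnit_iff (h : NOrd O f) (x : O) : IsUnit x ↔ (x : F) ≠ 0 ∧ f x = 0 := by
  constructor
  · intro hx
    obtain ⟨u, rfl⟩ := hx
    have h0 : ((u : O) : F) ≠ 0 := by
      intro h0
      exact u.ne_zero (Subtype.ext h0)
    have h0' : ((u⁻¹ : Oˣ) : O).1 ≠ 0 := by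
      intro h0
      exact (u⁻¹).ne_zero (Subtype.ext h0)
    have h1 : ((u : O) : F) * ((u⁻¹ : Oˣ) : O).1 = 1 := by
      have := congrArg Subtype.val (u.mul_inv)
      exact this
    have h2 := h.mul _ _ h0 h0'
    rw [h1, h.map_one] at h2
    have h3 := ((h.mem _).1 (u : O).2).resolve_left h0
    have h4 := ((h.mem _).1 ((u⁻¹ : Oˣ) : O).2).resolve_left h0'
    exact ⟨h0, by omega⟩
  · rintro ⟨h0, h1⟩
    have h2 : (x : F)⁻¹ ∈ O := by
      rw [h.mem, h.inv, h1]
      right
      norm_num
    refine IsUnit.of_mul_eq_one (⟨(x : F)⁻¹, h2⟩ : O) (Subtype.ext ?_)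
    exact mul_inv_cancel₀ h0

theorem NOrd.dvr (h : NOrd O f) : IsDiscreteValuationRing O := by
  obtain ⟨π, hπ⟩ := h.one
  have hπ0 : π ≠ 0 := by
    rintro rfl
    rw [h.zero] at hπ
    omega
  have hπO : π ∈ O := (h.mem π).2 (Or.inr (by omega))
  refine IsDiscreteValuationRing.ofHasUnitMulPowIrreducibleFactorization
    ⟨⟨π, hπO⟩, ⟨?_, ?_⟩, ?_⟩
  · rw [h.isUnit_iff]
    rintro ⟨-, h1⟩
    rw [hπ] at h1
    omega
  · rintro ⟨a, ha⟩ ⟨b, hb⟩ hab
    have hab' : π = a * b := congrArg Subtype.val hab
    have ha0 : a ≠ 0 := by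
      rintro rfl
      exact hπ0 (by rw [hab', zero_mul])
    have hb0 : b ≠ 0 := by
      rintro rfl
      exact hπ0 (by rw [hab', mul_zero])
    have h1 := h.mul a b ha0 hb0
    rw [← hab', hπ] at h1
    have h2 := ((h.mem _).1 ha).resolve_left ha0
    have h3 := ((h.mem _).1 hb).resolve_left hb0
    rw [h.isUnit_iff, h.isUnit_iff]
    rcases (show f a = 0 ∨ f b = 0 by omega) with h4 | h4
    · exact Or.inl ⟨ha0, h4⟩
    · exact Or.inr ⟨hb0, h4⟩
  · rintro ⟨x, hx⟩ hx0
    have hx0' : x ≠ 0 := fun h0 => hx0 (Subtype.ext h0)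
    have h1 := ((h.mem _).1 hx).resolve_left hx0'
    refine ⟨(f x).toNat, ?_⟩
    have h2 : f (x / π ^ (f x).toNat) = 0 := by
      rw [h.div hx0' (pow_ne_zero _ hπ0), h.pow, hπ]
      omega
    have h3 : x / π ^ (f x).toNat ∈ O := (h.mem _).2 (Or.inr h2.ge)
    have h4 : IsUnit (⟨_, h3⟩ : O) := (h.isUnit_iff _).2
      ⟨div_ne_zero hx0' (pow_ne_zero _ hπ0), h2⟩
    obtain ⟨u, hu⟩ := h4
    refine ⟨u, Subtype.ext ?_⟩
    rw [hu]
    change π ^ (f x).toNat * (x / π ^ (f x).toNat) = x
    field_simp

end dvr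

section adic

variable {R K : Type*} [CommRing R] [IsDedekindDomain R] [Field K] [Algebra R K]
  [IsFractionRing R K]

theorem nord_adic (v : HeightOneSpectrum R) :
    NOrd (v.valuation K).valuationSubring (fun x => -WithZero.log (v.valuation K x)) where
  zero := by simp
  mul := fun x y hx hy => by
    rw [map_mul, WithZero.log_mul ((Valuation.ne_zero_iff _).2 hx)
      ((Valuation.ne_zero_iff _).2 hy)]
    ring
  add := fun x y hx hy hxy => by
    have h0 := (Valuation.ne_zero_iff (v.valuation K)).2 hx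
    have h1 := (Valuation.ne_zero_iff (v.valuation K)).2 hy
    have h2 := (Valuation.ne_zero_iff (v.valuation K)).2 hxy
    have h3 := (v.valuation K).map_add x y
    rcases le_max_iff.1 h3 with h | h
    · refine le_trans (min_le_left _ _) (neg_le_neg ?_)
      exact (WithZero.log_le_log h2 h0).2 h
    · refine le_trans (min_le_right _ _) (neg_le_neg ?_)
      exact (WithZero.log_le_log h2 h1).2 h
  mem := fun x => by
    rw [Valuation.mem_valuationSubring_iff]
    by_cases hx : x = 0
    · simp [hx]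
    · have h0 := (Valuation.ne_zero_iff (v.valuation K)).2 hx
      rw [← WithZero.log_le_log h0 one_ne_zero, WithZero.log_one]
      simp [hx]
  one := by
    obtain ⟨π, hπ⟩ := v.valuation_exists_uniformizer K
    exact ⟨π, by simp only [hπ]; simp⟩

/-- two discrete valuation rings one of which contains the other are equal. -/
theorem NOrd.eq_of_le {O O' : ValuationSubring K} {f : K → ℤ} (h : NOrd O f) (hle : O ≤ O')
    (hO' : O' ≠ ⊤) : O = O' := by
  obtain ⟨z, hz⟩ : ∃ z, z ∉ O' := by
    by_contra hcon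
    push Not at hcon
    exact hO' (top_unique fun z _ => hcon z)
  refine le_antisymm hle fun x hx => ?_
  by_contra hxO
  have hz0 : z ≠ 0 := by
    rintro rfl
    exact hz (zero_mem _)
  have hx0 : x ≠ 0 := by
    rintro rfl
    exact hxO (zero_mem _)
  have h1 : f x < 0 := by
    by_contra hcon
    exact hxO ((h.mem x).2 (Or.inr (not_lt.1 hcon)))
  -- `z = x ^ n * y`
  set n := (-f z).toNat with hn
  have h2 : z / x ^ n ∈ O := by
    rw [h.mem]
    right
    rw [h.div hz0 (pow_ne_zero _ hx0), h.pow]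
    have h3 : (-f z) ≤ (n : ℤ) := Int.self_le_toNat _
    nlinarith
  refine hz ?_
  have h3 : z = x ^ n * (z / x ^ n) := by
    field_simp
  rw [h3]
  exact mul_mem (pow_mem hx n) (hle h2)

/-- the residue map of an adic valuation, on the ring. -/
theorem residue_adic_surjective (v : HeightOneSpectrum R) (x : (v.valuation K).valuationSubring) :
    ∃ (b : R) (hb : algebraMap R K b ∈ (v.valuation K).valuationSubring),
      IsLocalRing.residue _ x = IsLocalRing.residue _ (⟨algebraMap R K b, hb⟩ :
        (v.valuation K).valuationSubring) := by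
  have hx : v.valuation K (x : K) ≤ 1 := x.2
  obtain ⟨b, hb⟩ := v.exists_valuation_sub_lt_of_integer hx 1
  have hb1 : algebraMap R K b ∈ (v.valuation K).valuationSubring := v.valuation_le_one b
  refine ⟨b, hb1, ?_⟩
  rw [← sub_eq_zero, ← map_sub, IsLocalRing.residue_eq_zero_iff,
    ValuationSubring.valuation_lt_one_iff,
    ← (Valuation.isEquiv_iff_val_lt_one.1
      (Valuation.isEquiv_valuation_valuationSubring (v.valuation K)))]
  change v.valuation K ((x : K) - algebraMap R K b) < 1
  rw [Valuation.map_sub_swap]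
  exact hb

end adic

end Vale.Agent.P298.H416
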