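import Mathlib
import Vale.Agent.P298.H416.Fund1

/-!
# The fundamental identity in the language of valuation rings
-/

namespace Vale.Agent.P298.H416

open IsDedekindDomain

/-- valuation rings of `K` over `W`. -/
@[ext]
structure Ovr {L : Type*} [Field L] (W : ValuationSubring L) (K : Type*) [Field K]
    [Algebra L K] where
  /-- the ring -/
  val : ValuationSubring K
  prop : val.comap (algebraMap L K) = W

/-- the residue degree. -/
noncomputable def rdeg {L K : Type*} [Field L] [Field K] [Algebra L K] {W : ValuationSubring L}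
    (O : Ovr W K) : ℕ :=
  letI : Algebra (IsLocalRing.ResidueField W) (IsLocalRing.ResidueField O.1) :=
    (resMap (resCan O.1) (algebraMap L K) O.2).toAlgebra
  Module.finrank (IsLocalRing.ResidueField W) (IsLocalRing.ResidueField O.1)

theorem nord_ne_top {L : Type*} [Field L] {O : ValuationSubring L} {f : L → ℤ} (h : NOrd O f) :
    O ≠ ⊤ := by
  rintro rfl
  obtain ⟨π, hπ⟩ := h.one
  have h1 := (h.mem π⁻¹).1 (ValuationSubring.mem_top _)
  rw [h.inv, hπ] at h1
  rcases h1 with h1 | h1
  · rw [inv_eq_zero] at h1
    rw [h1, h.zero] at hπ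
    omega
  · omega

theorem adic_le {R K : Type*} [CommRing R] [IsDedekindDomain R] [Field K] [Algebra R K]
    [IsFractionRing R K] (v : HeightOneSpectrum R) {O : ValuationSubring K}
    (h1 : ∀ b : R, algebraMap R K b ∈ O) (h2 : ∀ b : R, b ∉ v.asIdeal → (algebraMap R K b)⁻¹ ∈ O) :
    (v.valuation K).valuationSubring ≤ O := by
  intro x hx
  rw [Valuation.mem_valuationSubring_iff] at hx
  obtain ⟨n, d, hnd⟩ := v.exists_primeCompl_mul_eq_of_integer x hx
  have hd : algebraMap R K d ≠ 0 := by
    intro h
    have h3 : (d : R) = 0 := (IsFractionRing.injective R K) (by rw [h, map_zero])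
    exact d.2 (by rw [h3]; exact zero_mem _)
  have h3 : x = algebraMap R K n * (algebraMap R K d)⁻¹ := by
    rw [← hnd]
    field_simp
  rw [h3]
  exact mul_mem (h1 n) (h2 d d.2)

section fund

variable {L K : Type*} [Field L] [Field K] [Algebra L K]
variable (W : ValuationSubring L) [IsDiscreteValuationRing W]

theorem adic_self :
    ((IsDiscreteValuationRing.maximalIdeal W).valuation L).valuationSubring = W := by
  refine le_antisymm (adic_le _ (fun b => b.2) (fun b hb => ?_)) (fun x hx => ?_)
  · have h1 : IsUnit b := by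
      by_contra hcon
      exact hb ((IsLocalRing.mem_maximalIdeal _).2 hcon)
    obtain ⟨u, rfl⟩ := h1
    have h2 : ((u : W) : L)⁻¹ = ((u⁻¹ : Wˣ) : W).1 := by
      rw [inv_eq_iff_eq_inv, eq_comm]
      refine inv_eq_of_mul_eq_one_left ?_
      exact congrArg Subtype.val (u.mul_inv)
    change ((u : W) : L)⁻¹ ∈ W
    rw [h2]
    exact ((u⁻¹ : Wˣ) : W).2
  · exact (IsDiscreteValuationRing.maximalIdeal W).valuation_le_one (⟨x, hx⟩ : W)

/-- the normalised valuation of `W`. -/
theorem adic_ord {w : L → ℤ} (hw : NOrd W w) (x : L) :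
    -WithZero.log ((IsDiscreteValuationRing.maximalIdeal W).valuation L x) = w x := by
  have h := nord_adic (K := L) (IsDiscreteValuationRing.maximalIdeal W)
  rw [adic_self] at h
  exact congrFun (h.unique hw) x

variable [FiniteDimensional L K] [Algebra.IsSeparable L K]

instance : IsDedekindDomain (integralClosure W K) := integralClosure.isDedekindDomain W L K

instance : IsFractionRing (integralClosure W K) K :=
  integralClosure.isFractionRing_of_finite_extension L K

instance : Module.Finite W (integralClosure W K) :=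
  IsIntegralClosure.finite W L K (integralClosure W K)

instance : FaithfulSMul W (integralClosure W K) := by
  rw [faithfulSMul_iff_algebraMap_injective]
  intro x y h
  have := congrArg Subtype.val h
  exact Subtype.ext ((algebraMap L K).injective this)

theorem mis_ne_bot : IsLocalRing.maximalIdeal W ≠ ⊥ :=
  (IsDiscreteValuationRing.maximalIdeal W).ne_bot

/-- the height one prime. -/
noncomputable def hos (q : (IsLocalRing.maximalIdeal W).primesOver (integralClosure W K)) :
    HeightOneSpectrum (integralClosure W K) where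
  asIdeal := q.1
  isPrime := q.2.1
  ne_bot := Ideal.ne_bot_of_mem_primesOver (mis_ne_bot W) q.2

instance (q : (IsLocalRing.maximalIdeal W).primesOver (integralClosure W K)) :
    (hos W q).asIdeal.LiesOver (IsDiscreteValuationRing.maximalIdeal W).asIdeal := q.2.2

theorem hos_ord (q : (IsLocalRing.maximalIdeal W).primesOver (integralClosure W K))
    {w : L → ℤ} (hw : NOrd W w) (x : L) :
    -WithZero.log ((hos W q).valuation K (algebraMap L K x)) =
      ((IsLocalRing.maximalIdeal W).ramificationIdx' q.1 : ℤ) * w x := by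
  have h := HeightOneSpectrum.valuation_liesOver K (IsDiscreteValuationRing.maximalIdeal W)
    (hos W q) x
  rw [← h, WithZero.log_pow, ← adic_ord W hw x, nsmul_eq_mul, mul_neg]
  rfl

theorem hos_comap (q : (IsLocalRing.maximalIdeal W).primesOver (integralClosure W K)) :
    ((hos W q).valuation K).valuationSubring.comap (algebraMap L K) = W := by
  have h1 : NOrd W (fun x => -WithZero.log
      ((IsDiscreteValuationRing.maximalIdeal W).valuation L x)) := by
    have h := nord_adic (K := L) (IsDiscreteValuationRing.maximalIdeal W)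
    rwa [adic_self] at h
  have h2 : (IsLocalRing.maximalIdeal W).ramificationIdx' q.1 ≠ 0 :=
    Ideal.IsDedekindDomain.ramificationIdx'_ne_zero_of_liesOver q.1 (mis_ne_bot W)
  ext x
  rw [ValuationSubring.mem_comap, (nord_adic (hos W q)).mem, h1.mem, map_eq_zero]
  change _ ∨ 0 ≤ -WithZero.log ((hos W q).valuation K (algebraMap L K x)) ↔ _
  rw [hos_ord W q h1]
  refine or_congr_right ⟨fun h => ?_, fun h => mul_nonneg (Int.natCast_nonneg _) h⟩
  exact nonneg_of_mul_nonneg_right h (by positivity)

omit [IsDiscreteValuationRing W] [FiniteDimensional L K] [Algebra.IsSeparable L K] in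
variable {W} in
/-- the elements of the integral closure are in every valuation ring over `W`. -/
theorem Ovr.int_mem (O : Ovr W K) (b : integralClosure W K) : (b : K) ∈ O.1 := by
  obtain ⟨p, hp, hpe⟩ := b.2
  have h1 : IsIntegral O.1 (b : K) := by
    refine ⟨p.map (resPre (algebraMap L K) O.2), hp.map _, ?_⟩
    rw [Polynomial.eval₂_map]
    exact hpe
  obtain ⟨y, hy⟩ := IsIntegrallyClosed.isIntegral_iff.1 h1
  rw [← hy]
  exact y.2

variable {W} in
/-- the inclusion. -/
def Ovr.inc (O : Ovr W K) : integralClosure W K →+* O.1 where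
  toFun := fun b => ⟨b, O.int_mem b⟩
  map_one' := rfl
  map_zero' := rfl
  map_mul' := fun _ _ => rfl
  map_add' := fun _ _ => rfl

omit [FiniteDimensional L K] [Algebra.IsSeparable L K] in
variable {W} in
theorem Ovr.ne_top (O : Ovr W K) : O.1 ≠ ⊤ := by
  intro h
  have h1 := O.2
  rw [h] at h1
  have h2 : W = ⊤ := by
    rw [← h1]
    ext x
    simp
  have h3 : NOrd W (fun x => -WithZero.log
      ((IsDiscreteValuationRing.maximalIdeal W).valuation L x)) := by
    have h := nord_adic (K := L) (IsDiscreteValuationRing.maximalIdeal W)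
    rwa [adic_self] at h
  exact nord_ne_top h3 h2

variable {W} in
theorem Ovr.exists_hos (O : Ovr W K) :
    ∃ q : (IsLocalRing.maximalIdeal W).primesOver (integralClosure W K),
      ((hos W q).valuation K).valuationSubring = O.1 := by
  have hq1 : ((IsLocalRing.maximalIdeal O.1).comap O.inc).IsPrime := inferInstance
  have hq2 : ((IsLocalRing.maximalIdeal O.1).comap O.inc).LiesOver (IsLocalRing.maximalIdeal W) := by
    constructor
    ext x
    rw [Ideal.mem_under, Ideal.mem_comap, ValuationSubring.valuation_lt_one_iff,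
      ValuationSubring.valuation_lt_one_iff]
    exact val_lt_one_comap (algebraMap L K) O.2 x
  refine ⟨⟨_, hq1, hq2⟩, ?_⟩
  refine NOrd.eq_of_le (nord_adic _) (adic_le _ (fun b => O.int_mem b) (fun b hb => ?_)) O.ne_top
  have h1 : ¬ (O.inc b ∈ IsLocalRing.maximalIdeal O.1) := hb
  rw [IsLocalRing.mem_maximalIdeal, mem_nonunits_iff, not_not] at h1
  obtain ⟨u, hu⟩ := h1
  have h2 : (algebraMap (integralClosure W K) K b)⁻¹ = ((u⁻¹ : O.1ˣ) : O.1).1 := by
    rw [inv_eq_iff_eq_inv, eq_comm]
    refine inv_eq_of_mul_eq_one_left ?_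
    have h3 := congrArg Subtype.val (u.mul_inv)
    rw [hu] at h3
    exact h3
  rw [h2]
  exact ((u⁻¹ : O.1ˣ) : O.1).2

/-- the valuation ring of a prime. -/
noncomputable def ofPrime (q : (IsLocalRing.maximalIdeal W).primesOver (integralClosure W K)) :
    Ovr W K := ⟨_, hos_comap W q⟩

theorem ofPrime_bijective : Function.Bijective (ofPrime (K := K) W) := by
  constructor
  · intro q q' h
    have h1 : ((hos W q).valuation K).valuationSubring =
      ((hos W q').valuation K).valuationSubring := congrArg Ovr.val h
    have h2 : hos W q = hos W q' := HeightOneSpectrum.eq_of_valuation_isEquiv_valuation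
      ((Valuation.isEquiv_iff_valuationSubring _ _).2 h1)
    exact Subtype.ext (congrArg HeightOneSpectrum.asIdeal h2)
  · intro O
    obtain ⟨q, hq⟩ := O.exists_hos
    exact ⟨q, Ovr.ext hq⟩

/-- primes and valuation rings. -/
noncomputable def primesEquiv :
    (IsLocalRing.maximalIdeal W).primesOver (integralClosure W K) ≃ Ovr W K :=
  Equiv.ofBijective _ (ofPrime_bijective W)

theorem rdeg_ofPrime (q : (IsLocalRing.maximalIdeal W).primesOver (integralClosure W K)) :
    rdeg (ofPrime W q) = q.1.inertiaDeg W := by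
  have hp : (IsLocalRing.maximalIdeal W).IsMaximal := inferInstance
  have hq : q.1.LiesOver (IsLocalRing.maximalIdeal W) := q.2.2
  have hq1 : q.1.IsPrime := q.2.1
  have hq2 : q.1.IsMaximal := Ideal.IsMaximal.of_liesOver_isMaximal q.1 (IsLocalRing.maximalIdeal W)
  rw [Ideal.inertiaDeg_eq_of_isMaximal (IsLocalRing.maximalIdeal W) q.1]
  have hmem : ∀ b : integralClosure W K, b ∈ q.1 ↔
      (IsLocalRing.residue (ofPrime W q).1) ((ofPrime W q).inc b) = 0 := by
    intro b
    rw [IsLocalRing.residue_eq_zero_iff, ValuationSubring.valuation_lt_one_iff]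
    exact ((hos W q).valuation_lt_one_iff_mem b).symm.trans (Valuation.isEquiv_iff_val_lt_one.1
      (Valuation.isEquiv_valuation_valuationSubring ((hos W q).valuation K)))
  let j0 : (integralClosure W K) ⧸ q.1 →+* IsLocalRing.ResidueField (ofPrime W q).1 :=
    Ideal.Quotient.lift _ ((IsLocalRing.residue (ofPrime W q).1).comp ((ofPrime W q).inc))
      (fun b hb => (hmem b).1 hb)
  have hj0 : Function.Bijective j0 := by
    constructor
    · rw [injective_iff_map_eq_zero]
      intro x hx
      obtain ⟨b, rfl⟩ := Ideal.Quotient.mk_surjective x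
      exact Ideal.Quotient.eq_zero_iff_mem.2 ((hmem b).2 hx)
    · intro r
      obtain ⟨x, rfl⟩ := IsLocalRing.residue_surjective r
      obtain ⟨b, hb, hx⟩ := residue_adic_surjective (hos W q) x
      exact ⟨Ideal.Quotient.mk _ b, hx.symm⟩
  let : Algebra (IsLocalRing.ResidueField W) (IsLocalRing.ResidueField (ofPrime W q).1) :=
    (resMap (resCan (ofPrime W q).1) (algebraMap L K) (ofPrime W q).2).toAlgebra
  refine (Algebra.finrank_eq_of_equiv_equiv (R₀ := W ⧸ IsLocalRing.maximalIdeal W)
    (S₀ := (integralClosure W K) ⧸ q.1) (R₁ := IsLocalRing.ResidueField W)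
    (S₁ := IsLocalRing.ResidueField (ofPrime W q).1)
    (RingEquiv.refl (IsLocalRing.ResidueField W)) (RingEquiv.ofBijective j0 hj0) ?_).symm
  refine RingHom.ext fun x => ?_
  obtain ⟨x, rfl⟩ := Ideal.Quotient.mk_surjective x
  rfl

theorem ovr_finite : Finite (Ovr W K) := by
  have := (IsDedekindDomain.primesOver_finite (IsLocalRing.maximalIdeal W)
    (integralClosure W K)).to_subtype
  exact Finite.of_surjective _ (ofPrime_bijective (K := K) W).2

end fund

/-- `e` is the ramification index of `O` (and `O` is discrete). -/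
def IsE {L K : Type*} [Field L] [Field K] [Algebra L K] {W : ValuationSubring L}
    (O : Ovr W K) (w : L → ℤ) (e : ℕ) : Prop :=
  0 < e ∧ ∃ v : K → ℤ, NOrd O.1 v ∧ ∀ x : L, v (algebraMap L K x) = e * w x

/-- **the fundamental identity.** -/
theorem exists_fund {L : Type*} (K : Type*) [Field L] [Field K] [Algebra L K]
    [FiniteDimensional L K] [Algebra.IsSeparable L K] {W : ValuationSubring L} {w : L → ℤ}
    (hw : NOrd W w) [Fintype (Ovr W K)] :
    ∃ e : Ovr W K → ℕ, (∀ O, IsE O w (e O)) ∧ ∑ O, e O * rdeg O = Module.finrank L K := by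
  have := hw.dvr
  let _ : Fintype ((IsLocalRing.maximalIdeal W).primesOver (integralClosure W K)) :=
    Fintype.ofEquiv _ (primesEquiv W).symm
  let e : Ovr W K → ℕ := fun O =>
    (IsLocalRing.maximalIdeal W).ramificationIdx' ((primesEquiv W).symm O).1
  have he : ∀ q, e (ofPrime W q) = (IsLocalRing.maximalIdeal W).ramificationIdx' q.1 := by
    intro q
    change (IsLocalRing.maximalIdeal W).ramificationIdx'
      ((primesEquiv W).symm (primesEquiv W q)).1 = _
    rw [Equiv.symm_apply_apply]
  refine ⟨e, fun O => ?_, ?_⟩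
  · obtain ⟨q, rfl⟩ := (ofPrime_bijective (K := K) W).2 O
    have : q.1.LiesOver (IsLocalRing.maximalIdeal W) := q.2.2
    have : q.1.IsPrime := q.2.1
    refine ⟨?_, _, nord_adic (hos W q), fun x => ?_⟩
    · rw [he]
      exact Nat.pos_of_ne_zero
        (Ideal.IsDedekindDomain.ramificationIdx'_ne_zero_of_liesOver q.1 (mis_ne_bot W))
    · rw [he]
      exact hos_ord W q hw x
  · have : Module.Free W (integralClosure W K) :=
      IsIntegralClosure.module_free W L K (integralClosure W K)
    rw [← IsIntegralClosure.rank W L K (integralClosure W K),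
      ← Ideal.sum_ramification_inertia_eq_finrank (IsLocalRing.maximalIdeal W),
      ← (primesEquiv (K := K) W).sum_comp]
    refine Finset.sum_congr rfl fun q _ => ?_
    have : q.1.LiesOver (IsLocalRing.maximalIdeal W) := q.2.2
    have : q.1.IsPrime := q.2.1
    have h1 : e (primesEquiv W q) = q.1.ramificationIdx W := by
      rw [← Ideal.ramificationIdx'_eq_ramificationIdx (IsLocalRing.maximalIdeal W) q.1
        (mis_ne_bot W)]
      exact he q
    have h2 : rdeg (primesEquiv W q) = q.1.inertiaDeg W := rdeg_ofPrime W q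
    rw [h1, h2]

theorem IsE.unique {L K : Type*} [Field L] [Field K] [Algebra L K] {W : ValuationSubring L}
    {O : Ovr W K} {w : L → ℤ} (hw : NOrd W w) {e e' : ℕ} (h : IsE O w e) (h' : IsE O w e') :
    e = e' := by
  obtain ⟨-, v, hv, h1⟩ := h
  obtain ⟨-, v', hv', h2⟩ := h'
  obtain ⟨π, hπ⟩ := hw.one
  have h3 := h1 π
  rw [hv.unique hv', h2, hπ] at h3
  simpa using h3.symm

theorem ovr_finite' {L : Type*} (K : Type*) [Field L] [Field K] [Algebra L K]
    [FiniteDimensional L K] [Algebra.IsSeparable L K] {W : ValuationSubring L} {w : L → ℤ}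
    (hw : NOrd W w) : Finite (Ovr W K) :=
  haveI := hw.dvr
  ovr_finite W

end Vale.Agent.P298.H416
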