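import Mathlib
import Vale.Agent.P298.H416.Fund2

/-!
# Two levels of valuation rings
-/

namespace Vale.Agent.P298.H416

open IsDedekindDomain

section two

variable {L K : Type*} [Field L] [Field K] [Algebra L K] {W : ValuationSubring L}

/-- the residue extension. -/
noncomputable instance resAlg (O : Ovr W K) :
    Algebra (IsLocalRing.ResidueField W) (IsLocalRing.ResidueField O.val) :=
  (resMap (resCan O.val) (algebraMap L K) O.prop).toAlgebra

theorem resAlg_residue (O : Ovr W K) (x : W) :
    algebraMap (IsLocalRing.ResidueField W) (IsLocalRing.ResidueField O.val)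
      (IsLocalRing.residue W x) =
      IsLocalRing.residue O.val (resPre (algebraMap L K) O.prop x) := rfl

theorem rdeg_eq (O : Ovr W K) : rdeg O =
    Module.finrank (IsLocalRing.ResidueField W) (IsLocalRing.ResidueField O.val) := rfl

theorem rdeg_pos [FiniteDimensional L K] [Algebra.IsSeparable L K] {w : L → ℤ}
    (hw : NOrd W w) (O : Ovr W K) : 0 < rdeg O := by
  have := hw.dvr
  obtain ⟨q, rfl⟩ := (ofPrime_bijective (K := K) W).2 O
  have : q.1.IsPrime := q.2.1
  rw [rdeg_ofPrime]
  exact Ideal.inertiaDeg_pos _ _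

theorem res_finite [FiniteDimensional L K] [Algebra.IsSeparable L K] {w : L → ℤ}
    (hw : NOrd W w) (O : Ovr W K) :
    FiniteDimensional (IsLocalRing.ResidueField W) (IsLocalRing.ResidueField O.val) :=
  Module.finite_of_finrank_pos (rdeg_pos hw O)

theorem rdeg_eq_one [FiniteDimensional L K] [Algebra.IsSeparable L K] {w : L → ℤ}
    (hw : NOrd W w) [IsAlgClosed (IsLocalRing.ResidueField W)] (O : Ovr W K) : rdeg O = 1 := by
  have := res_finite hw O
  rw [rdeg_eq]
  have h := IsAlgClosed.algebraMap_bijective_of_isIntegral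
    (k := IsLocalRing.ResidueField W) (K := IsLocalRing.ResidueField O.val)
  exact (finrank_eq_one_iff_of_nonzero' (1 : IsLocalRing.ResidueField O.val)
    one_ne_zero).2 fun z => by
      obtain ⟨c, hc⟩ := h.2 z
      exact ⟨c, by rw [Algebra.smul_def, mul_one, hc]⟩

/-- **the fundamental identity for two levels.** -/
theorem exists_fund2 [FiniteDimensional L K] [Algebra.IsSeparable L K] {w : L → ℤ}
    (hw : NOrd W w) [CharZero (IsLocalRing.ResidueField W)]
    {Q : ValuationSubring (IsLocalRing.ResidueField W)} {d : IsLocalRing.ResidueField W → ℤ}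
    (hd : NOrd Q d) [IsAlgClosed (IsLocalRing.ResidueField Q)]
    [Fintype (Ovr W K)] [∀ O : Ovr W K, Fintype (Ovr Q (IsLocalRing.ResidueField O.val))] :
    ∃ (e : Ovr W K → ℕ) (e' : ∀ O : Ovr W K, Ovr Q (IsLocalRing.ResidueField O.val) → ℕ),
      (∀ O, IsE O w (e O)) ∧ (∀ O P, IsE P d (e' O P)) ∧
      ∑ O, ∑ P, e O * e' O P = Module.finrank L K := by
  obtain ⟨e, he, hs⟩ := exists_fund K hw
  have h : ∀ O : Ovr W K, ∃ e' : Ovr Q (IsLocalRing.ResidueField O.val) → ℕ,
      (∀ P, IsE P d (e' P)) ∧ ∑ P, e' P = rdeg O := by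
    intro O
    have := res_finite hw O
    obtain ⟨e', he', hs'⟩ := exists_fund (IsLocalRing.ResidueField O.val) hd
    refine ⟨e', he', ?_⟩
    rw [rdeg_eq, ← hs']
    exact Finset.sum_congr rfl fun P _ => by rw [rdeg_eq_one hd, mul_one]
  choose e' he' hs' using h
  refine ⟨e, e', he, he', ?_⟩
  rw [← hs]
  exact Finset.sum_congr rfl fun O _ => by rw [← Finset.mul_sum, hs']

end two

end Vale.Agent.P298.H416
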