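import Mathlib
import Vale.Agent.P298.H416.Fund3

/-!
# Towers of two discrete valuations with leading coefficients, and the counting argument
-/

namespace Vale.Agent.P298.H416

/-- a rank two valuation with leading coefficients. -/
structure Twr (Ω k1 : Type*) [Field Ω] [Field k1] where
  O : ValuationSubring Ω
  ρ : Res O k1
  P : ValuationSubring k1
  v : Ω → ℤ
  w : k1 → ℤ
  hv : NOrd O v
  hw : NOrd P w
  /-- the second order. -/
  lam : Ω → ℤ
  lam_mul : ∀ x y, x ≠ 0 → y ≠ 0 → lam (x * y) = lam x + lam y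
  lam_res : ∀ z : O, (z : Ω) ≠ 0 → v z = 0 → lam z = w (ρ.ρ z)
  /-- the leading coefficient. -/
  lc : Ω → ℂ
  lc_ne : ∀ x, x ≠ 0 → lc x ≠ 0
  lc_mul : ∀ x y, x ≠ 0 → y ≠ 0 → lc (x * y) = lc x * lc y

namespace Twr

variable {Ω k1 : Type*} [Field Ω] [Field k1] (T : Twr Ω k1)

theorem lam_one : T.lam 1 = 0 := by
  have := T.lam_mul 1 1 one_ne_zero one_ne_zero
  rw [mul_one] at this
  omega

theorem lam_inv {x : Ω} (hx : x ≠ 0) : T.lam x⁻¹ = -T.lam x := by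
  have := T.lam_mul x x⁻¹ hx (inv_ne_zero hx)
  rw [mul_inv_cancel₀ hx, T.lam_one] at this
  omega

theorem lam_pow {x : Ω} (hx : x ≠ 0) (n : ℕ) : T.lam (x ^ n) = n * T.lam x := by
  induction n with
  | zero => simp [T.lam_one]
  | succ n ih =>
    rw [pow_succ, T.lam_mul _ _ (pow_ne_zero n hx) hx, ih]
    push_cast
    ring

theorem mem_comp_iff {x : Ω} (hx : x ≠ 0) :
    x ∈ comp T.O T.ρ T.P ↔ 0 < T.v x ∨ (T.v x = 0 ∧ 0 ≤ T.lam x) := by
  constructor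
  · rintro ⟨h, h'⟩
    rcases lt_or_eq_of_le (((T.hv.mem x).1 h).resolve_left hx) with h1 | h1
    · exact Or.inl h1
    · refine Or.inr ⟨h1.symm, ?_⟩
      rw [T.lam_res ⟨x, h⟩ hx h1.symm]
      rcases (T.hw.mem _).1 h' with h2 | h2
      · rw [h2, T.hw.zero]
      · exact h2
  · rintro (h | ⟨h, h'⟩)
    · exact mem_comp_of_lt _ _ ((T.hv.val_lt_one hx).2 h)
    · have hO : x ∈ T.O := (T.hv.mem x).2 (Or.inr h.ge)
      refine ⟨hO, (T.hw.mem _).2 (Or.inr ?_)⟩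
      rw [← T.lam_res ⟨x, hO⟩ hx h]
      exact h'

end Twr

/-- a group acting on a tower through a pairing. -/
structure GAct (L : Type*) {Ω k1 : Type*} [Field L] [Field Ω] [Field k1] [Algebra L Ω]
    (T : Twr Ω k1) (G : Type*) [CommGroup G] where
  act : G →* (Ω →ₐ[L] Ω)
  χ : G →* (Multiplicative (ℤ × ℤ) →* ℂˣ)
  v_act : ∀ g x, T.v (act g x) = T.v x
  lam_act : ∀ g x, x ≠ 0 → T.lam (act g x) = T.lam x
  lc_act : ∀ g x, x ≠ 0 → T.lc (act g x) = χ g (Multiplicative.ofAdd (T.v x, T.lam x)) * T.lc x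
  nondeg : ∀ γ : ℤ × ℤ, (∀ g, χ g (Multiplicative.ofAdd γ) = 1) →
    ∃ x : L, x ≠ 0 ∧ T.v (algebraMap L Ω x) = γ.1 ∧ T.lam (algebraMap L Ω x) = γ.2

end Vale.Agent.P298.H416
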