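import Mathlib
import Vale.Agent.P298.H416.Twr

/-!
# The counting argument: preparations
-/

namespace Vale.Agent.P298.H416

section sees

variable {L K Ω k1 : Type*} [Field L] [Field K] [Field Ω] [Field k1] [Algebra L K] [Algebra L Ω]
  {W : ValuationSubring L} {Q : ValuationSubring (IsLocalRing.ResidueField W)}

/-- pairs of a valuation ring over `W` and a place of its residue field over `Q`. -/
abbrev Prs (K : Type*) [Field K] [Algebra L K] (Q : ValuationSubring (IsLocalRing.ResidueField W)) :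
    Type _ := Σ O : Ovr W K, Ovr Q (IsLocalRing.ResidueField O.val)

/-- the embedding `ψ` sees the pair `t`. -/
def Sees (T : Twr Ω k1) (ψ : K →ₐ[L] Ω) (t : Prs K Q) : Prop :=
  ∃ h : T.O.comap (ψ : K →+* Ω) = t.1.val, T.P.comap (resMap T.ρ (ψ : K →+* Ω) h) = t.2.val

theorem Sees.unique {T : Twr Ω k1} {ψ : K →ₐ[L] Ω} {t t' : Prs K Q} (h : Sees T ψ t)
    (h' : Sees T ψ t') : t = t' := by
  obtain ⟨O, P⟩ := t
  obtain ⟨O', P'⟩ := t'
  obtain ⟨h1, h2⟩ := h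
  obtain ⟨h1', h2'⟩ := h'
  have h3 : O = O' := Ovr.ext (h1.symm.trans h1')
  subst h3
  have h4 : P = P' := Ovr.ext (h2.symm.trans h2')
  rw [h4]

theorem exists_sees {T : Twr Ω k1} (h1 : T.O.comap (algebraMap L Ω) = W)
    (h2 : T.P.comap (resMap T.ρ (algebraMap L Ω) h1) = Q) (ψ : K →ₐ[L] Ω) :
    ∃ t : Prs K Q, Sees T ψ t := by
  have hO : (T.O.comap (ψ : K →+* Ω)).comap (algebraMap L K) = W := by
    rw [← h1]
    ext x
    rw [ValuationSubring.mem_comap, ValuationSubring.mem_comap, ValuationSubring.mem_comap]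
    exact iff_of_eq (congrArg (· ∈ T.O) (ψ.commutes x))
  obtain ⟨O, hOO⟩ : ∃ O : Ovr W K, T.O.comap (ψ : K →+* Ω) = O.val := ⟨⟨_, hO⟩, rfl⟩
  refine ⟨⟨O, ⟨T.P.comap (resMap T.ρ (ψ : K →+* Ω) hOO), ?_⟩⟩, hOO, rfl⟩
  rw [← h2]
  ext x
  obtain ⟨y, rfl⟩ := IsLocalRing.residue_surjective x
  rw [ValuationSubring.mem_comap, ValuationSubring.mem_comap, ValuationSubring.mem_comap,
    resAlg_residue, resMap_residue, resMap_residue]
  refine iff_of_eq (congrArg (· ∈ T.P) (congrArg T.ρ.ρ (Subtype.ext ?_)))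
  exact ψ.commutes y

theorem exists_sees' [FiniteDimensional L K]
    (hs : ∀ g : K, ((minpoly L g).map (algebraMap L Ω)).Splits)
    {T : Twr Ω k1} (h1 : T.O.comap (algebraMap L Ω) = W)
    (h2 : T.P.comap (resMap T.ρ (algebraMap L Ω) h1) = Q) (t : Prs K Q) :
    ∃ ψ : K →ₐ[L] Ω, Sees T ψ t := by
  obtain ⟨ψ, h, h'⟩ := exists_chart' hs t.1.val t.2.val T.O T.ρ T.P (fun x => by
    have h3 := SetLike.ext_iff.1 t.1.prop x
    have h4 := SetLike.ext_iff.1 h1 x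
    rw [ValuationSubring.mem_comap] at h3 h4
    rw [h3, h4]) (fun x hx hx' => by
    have hxW : x ∈ W := by
      rw [← h1]
      exact hx'
    have h3 := SetLike.ext_iff.1 t.2.prop (IsLocalRing.residue W ⟨x, hxW⟩)
    have h4 := SetLike.ext_iff.1 h2 (IsLocalRing.residue W ⟨x, hxW⟩)
    rw [ValuationSubring.mem_comap] at h3 h4
    exact h3.trans h4.symm)
  exact ⟨ψ, h, h'⟩

theorem sees_of {T : Twr Ω k1} {ψ ψ' : K →ₐ[L] Ω} {t : Prs K Q} (h : Sees T ψ t)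
    (hO : ∀ x, T.v (ψ' x) = T.v (ψ x)) (hl : ∀ x, x ≠ 0 → T.lam (ψ' x) = T.lam (ψ x)) :
    Sees T ψ' t := by
  obtain ⟨h1, h2⟩ := h
  have h3 : T.O.comap (ψ' : K →+* Ω) = t.1.val := by
    rw [← h1]
    ext x
    rw [ValuationSubring.mem_comap, ValuationSubring.mem_comap, T.hv.mem, T.hv.mem, map_eq_zero,
      map_eq_zero]
    change _ ∨ 0 ≤ T.v (ψ' x) ↔ _ ∨ 0 ≤ T.v (ψ x)
    rw [hO]
  refine ⟨h3, ?_⟩
  rw [← h2]
  ext r
  obtain ⟨x, rfl⟩ := IsLocalRing.residue_surjective r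
  rw [ValuationSubring.mem_comap, ValuationSubring.mem_comap, resMap_residue, resMap_residue]
  by_cases hx : (x : K) = 0
  · have hx' : x = 0 := Subtype.ext hx
    rw [hx', map_zero, map_zero]
    simp only [map_zero]
  · have hψ : ψ (x : K) ≠ 0 := by rwa [Ne, map_eq_zero]
    have hψ' : ψ' (x : K) ≠ 0 := by rwa [Ne, map_eq_zero]
    have e1 : T.ρ.ρ (resPre (ψ' : K →+* Ω) h3 x) ∈ T.P ↔ ψ' (x : K) ∈ comp T.O T.ρ T.P :=
      ⟨fun h => ⟨(resPre (ψ' : K →+* Ω) h3 x).2, h⟩, fun h => h.2⟩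
    have e2 : T.ρ.ρ (resPre (ψ : K →+* Ω) h1 x) ∈ T.P ↔ ψ (x : K) ∈ comp T.O T.ρ T.P :=
      ⟨fun h => ⟨(resPre (ψ : K →+* Ω) h1 x).2, h⟩, fun h => h.2⟩
    rw [e1, e2, T.mem_comp_iff hψ, T.mem_comp_iff hψ', hO, hl _ hx]

/-- the orders seen by an embedding. -/
theorem Sees.ords {T : Twr Ω k1} {ψ : K →ₐ[L] Ω} {t : Prs K Q} (h : Sees T ψ t) {v : K → ℤ}
    (hv : NOrd t.1.val v) {p : IsLocalRing.ResidueField t.1.val → ℤ} (hp : NOrd t.2.val p) :
    ∃ κ κ' : ℤ, 0 < κ ∧ 0 < κ' ∧ (∀ x, T.v (ψ x) = κ * v x) ∧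
      ∀ z : t.1.val, (z : K) ≠ 0 → v z = 0 →
        T.lam (ψ z) = κ' * p (IsLocalRing.residue _ z) := by
  obtain ⟨h, hP⟩ := h
  obtain ⟨a, ha, hva⟩ := hv.eq_mul (k := fun x => T.v (ψ x)) (by simp [T.hv.zero])
    (fun x y hx hy => by
      simp only [map_mul]
      exact T.hv.mul _ _ (by rwa [Ne, map_eq_zero]) (by rwa [Ne, map_eq_zero]))
    (fun x hx => by
      have hx' : ψ x ≠ 0 := by rwa [Ne, map_eq_zero]
      have h3 : x ∈ t.1.val ↔ ψ x ∈ T.O := by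
        rw [← h, ValuationSubring.mem_comap]
        rfl
      rw [h3, T.hv.mem]
      exact ⟨fun h => h.resolve_left hx', Or.inr⟩)
  obtain ⟨b, hb, hwb⟩ := hp.eq_mul (k := fun r => T.w (resMap T.ρ (ψ : K →+* Ω) h r))
    (by simp [T.hw.zero])
    (fun x y hx hy => by
      simp only [map_mul]
      exact T.hw.mul _ _ (by rwa [Ne, map_eq_zero]) (by rwa [Ne, map_eq_zero]))
    (fun r hr => by
      have hr' : resMap T.ρ (ψ : K →+* Ω) h r ≠ 0 := by rwa [Ne, map_eq_zero]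
      have h3 : r ∈ t.2.val ↔ resMap T.ρ (ψ : K →+* Ω) h r ∈ T.P := by
        rw [← hP, ValuationSubring.mem_comap]
      rw [h3, T.hw.mem]
      exact ⟨fun h => h.resolve_left hr', Or.inr⟩)
  refine ⟨a, b, ha, hb, hva, fun z hz hz0 => ?_⟩
  rw [← hwb, resMap_residue]
  exact T.lam_res (resPre (ψ : K →+* Ω) h z) (by
    change ψ (z : K) ≠ 0
    rwa [Ne, map_eq_zero]) (by
    change T.v (ψ (z : K)) = 0
    rw [hva, hz0, mul_zero])

end sees

end Vale.Agent.P298.H416
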