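import Mathlib
import Vale.Agent.P298.H416.Count1

/-!
# The counting argument: value groups and stabilisers
-/

namespace Vale.Agent.P298.H416

section count

variable {L K Ω k1 : Type*} [Field L] [Field K] [Field Ω] [Field k1] [Algebra L K] [Algebra L Ω]
  {W : ValuationSubring L} {Q : ValuationSubring (IsLocalRing.ResidueField W)}
  {T : Twr Ω k1} {G : Type*} [CommGroup G]

/-- the action on embeddings. -/
@[reducible] def GAct.mulAction (A : GAct L T G) (K : Type*) [Field K] [Algebra L K] :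
    MulAction G (K →ₐ[L] Ω) where
  smul g ψ := (A.act g).comp ψ
  one_smul ψ := by
    change (A.act 1).comp ψ = ψ
    rw [map_one]
    rfl
  mul_smul g h ψ := by
    change (A.act (g * h)).comp ψ = (A.act g).comp ((A.act h).comp ψ)
    rw [map_mul]
    rfl

/-- the stabiliser of an embedding. -/
def GAct.stab (A : GAct L T G) (ψ : K →ₐ[L] Ω) : Subgroup G :=
  letI := A.mulAction K
  MulAction.stabilizer G ψ

theorem GAct.mem_stab {A : GAct L T G} {ψ : K →ₐ[L] Ω} {g : G} :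
    g ∈ A.stab ψ ↔ (A.act g).comp ψ = ψ := Iff.rfl

/-- the character of an exponent. -/
def GAct.chi (A : GAct L T G) (γ : ℤ × ℤ) : G →* ℂˣ := A.χ.flip (Multiplicative.ofAdd γ)

theorem GAct.chi_apply (A : GAct L T G) (γ : ℤ × ℤ) (g : G) :
    A.chi γ g = A.χ g (Multiplicative.ofAdd γ) := rfl

theorem GAct.chi_add (A : GAct L T G) (γ γ' : ℤ × ℤ) (g : G) :
    A.chi (γ + γ') g = A.chi γ g * A.chi γ' g := by
  rw [A.chi_apply, A.chi_apply, A.chi_apply, ofAdd_add, map_mul]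

theorem GAct.chi_sub (A : GAct L T G) (γ γ' : ℤ × ℤ) (g : G) :
    A.chi (γ - γ') g = A.chi γ g / A.chi γ' g := by
  rw [A.chi_apply, A.chi_apply, A.chi_apply, ofAdd_sub, map_div]

/-- values are invariant under the stabiliser. -/
theorem GAct.chi_value (A : GAct L T G) (ψ : K →ₐ[L] Ω) {h : K} (hh : h ≠ 0) {g : G}
    (hg : g ∈ A.stab ψ) : A.chi (T.v (ψ h), T.lam (ψ h)) g = 1 := by
  have h0 : ψ h ≠ 0 := by rwa [Ne, map_eq_zero]
  have h1 := A.lc_act g (ψ h) h0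
  have h2 : A.act g (ψ h) = ψ h := DFunLike.congr_fun (GAct.mem_stab.1 hg) h
  rw [h2] at h1
  have h3 := T.lc_ne _ h0
  have h4 : ((A.χ g (Multiplicative.ofAdd (T.v (ψ h), T.lam (ψ h))) : ℂˣ) : ℂ) = 1 := by
    have h5 : (1 : ℂ) * T.lc (ψ h) = ((A.χ g (Multiplicative.ofAdd
        (T.v (ψ h), T.lam (ψ h))) : ℂˣ) : ℂ) * T.lc (ψ h) := by
      rw [one_mul]; exact h1
    exact (mul_right_cancel₀ h3 h5).symm
  exact Units.ext h4

variable (K) in
/-- the basic input: `n` elements with values in the box. -/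
structure Box (T : Twr Ω k1) (ψ : K →ₐ[L] Ω) (e e' : ℕ) where
  /-- the first element -/
  a : K
  /-- the second element -/
  b : K
  a0 : a ≠ 0
  b0 : b ≠ 0
  κ : ℤ
  κ' : ℤ
  κ0 : 0 < κ
  κ0' : 0 < κ'
  va : T.v (ψ a) = κ
  vb : T.v (ψ b) = 0
  lb : T.lam (ψ b) = κ'
  hL : ∀ x : L, x ≠ 0 → κ * e ∣ T.v (algebraMap L Ω x)
  hL' : ∀ x : L, x ≠ 0 → T.v (algebraMap L Ω x) = 0 → κ' * e' ∣ T.lam (algebraMap L Ω x)

theorem value_zpow (T : Twr Ω k1) (ψ : K →ₐ[L] Ω) {a b : K} (a0 : a ≠ 0) (b0 : b ≠ 0)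
    (i k : ℕ) :
    T.v (ψ (a ^ i * b ^ k)) = i * T.v (ψ a) + k * T.v (ψ b) ∧
    T.lam (ψ (a ^ i * b ^ k)) = i * T.lam (ψ a) + k * T.lam (ψ b) := by
  have h1 : ψ a ≠ 0 := by rwa [Ne, map_eq_zero]
  have h2 : ψ b ≠ 0 := by rwa [Ne, map_eq_zero]
  rw [map_mul, map_pow, map_pow]
  constructor
  · rw [T.hv.mul _ _ (pow_ne_zero _ h1) (pow_ne_zero _ h2), T.hv.pow, T.hv.pow]
  · rw [T.lam_mul _ _ (pow_ne_zero _ h1) (pow_ne_zero _ h2), T.lam_pow h1, T.lam_pow h2]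

theorem box_dvd {κ e i j : ℤ} (hκ : 0 < κ) (hi : 0 ≤ i) (hj : 0 ≤ j) (hie : i < e)
    (hje : j < e) (h : κ * e ∣ κ * i - κ * j) : i = j := by
  rw [← mul_sub] at h
  have h1 : e ∣ i - j := (mul_dvd_mul_iff_left hκ.ne').1 h
  have h2 : |i - j| < e := by
    rw [abs_lt]
    constructor <;> linarith
  have h3 := Int.eq_zero_of_abs_lt_dvd h1 h2
  omega

/-- the value of the elements of the box. -/
def Box.val {ψ : K →ₐ[L] Ω} {e e' : ℕ} (B : Box K T ψ e e') (t : Fin e × Fin e') : ℤ × ℤ :=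
  (T.v (ψ (B.a ^ (t.1 : ℕ) * B.b ^ (t.2 : ℕ))), T.lam (ψ (B.a ^ (t.1 : ℕ) * B.b ^ (t.2 : ℕ))))

/-- the characters of the quotient. -/
def Box.char {ψ : K →ₐ[L] Ω} {e e' : ℕ} (B : Box K T ψ e e') (A : GAct L T G)
    (t : Fin e × Fin e') : G ⧸ A.stab ψ →* ℂˣ :=
  QuotientGroup.lift (A.stab ψ) (A.chi (B.val t)) (fun _ hg =>
    A.chi_value ψ (mul_ne_zero (pow_ne_zero _ B.a0) (pow_ne_zero _ B.b0)) hg)

theorem Box.char_inj {ψ : K →ₐ[L] Ω} {e e' : ℕ} (B : Box K T ψ e e') (A : GAct L T G) :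
    Function.Injective (B.char A) := by
  intro t t' h
  have h1 : ∀ g, A.χ g (Multiplicative.ofAdd (B.val t - B.val t')) = 1 := by
    intro g
    have h2 := DFunLike.congr_fun h (QuotientGroup.mk g)
    have h3 : A.chi (B.val t) g = A.chi (B.val t') g := h2
    rw [← A.chi_apply, A.chi_sub, h3, div_self']
  obtain ⟨x, hx, hx1, hx2⟩ := A.nondeg _ h1
  have e1 := value_zpow T ψ B.a0 B.b0 (t.1 : ℕ) (t.2 : ℕ)
  have e2 := value_zpow T ψ B.a0 B.b0 (t'.1 : ℕ) (t'.2 : ℕ)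
  rw [B.va, B.vb, mul_zero, add_zero] at e1 e2
  have hx1' : T.v (algebraMap L Ω x) = B.κ * (t.1 : ℕ) - B.κ * (t'.1 : ℕ) := by
    rw [hx1]
    change T.v _ - T.v _ = _
    rw [e1.1, e2.1]
    ring
  have h4 := B.hL x hx
  rw [hx1'] at h4
  have h5 := box_dvd B.κ0 (Int.natCast_nonneg _) (Int.natCast_nonneg _)
    (by exact_mod_cast t.1.2) (by exact_mod_cast t'.1.2) h4
  have h6 : T.v (algebraMap L Ω x) = 0 := by rw [hx1', h5, sub_self]
  have h7 := B.hL' x hx h6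
  have hx2' : T.lam (algebraMap L Ω x) = B.κ' * (t.2 : ℕ) - B.κ' * (t'.2 : ℕ) := by
    rw [hx2]
    change T.lam _ - T.lam _ = _
    rw [e1.2, e2.2, B.lb, h5]
    ring
  rw [hx2'] at h7
  have h8 := box_dvd B.κ0' (Int.natCast_nonneg _) (Int.natCast_nonneg _)
    (by exact_mod_cast t.2.2) (by exact_mod_cast t'.2.2) h7
  exact Prod.ext (Fin.ext (by exact_mod_cast h5)) (Fin.ext (by exact_mod_cast h8))

theorem card_char [Finite G] (A : GAct L T G) (ψ : K →ₐ[L] Ω) :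
    Nat.card (G ⧸ A.stab ψ →* ℂˣ) = (A.stab ψ).index := by
  rw [CommGroup.card_monoidHom_of_hasEnoughRootsOfUnity]
  rfl

theorem Box.le_index [Finite G] {ψ : K →ₐ[L] Ω} {e e' : ℕ} (B : Box K T ψ e e')
    (A : GAct L T G) : e * e' ≤ (A.stab ψ).index := by
  rw [← card_char]
  have : Finite (G ⧸ A.stab ψ →* ℂˣ) := by
    refine Nat.finite_of_card_ne_zero ?_
    rw [card_char]
    exact Subgroup.index_ne_zero_of_finite
  have h := Nat.card_le_card_of_injective _ (B.char_inj A)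
  simpa using h

/-- in the case of equality the value group is the annihilator of the stabiliser. -/
theorem Box.value_of_index [Finite G] {ψ : K →ₐ[L] Ω} {e e' : ℕ} (B : Box K T ψ e e')
    (A : GAct L T G) (he : e * e' = (A.stab ψ).index) {γ : ℤ × ℤ}
    (hγ : ∀ g ∈ A.stab ψ, A.chi γ g = 1) :
    ∃ h : K, h ≠ 0 ∧ T.v (ψ h) = γ.1 ∧ T.lam (ψ h) = γ.2 := by
  have : Finite (G ⧸ A.stab ψ →* ℂˣ) := by
    refine Nat.finite_of_card_ne_zero ?_
    rw [card_char]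
    exact Subgroup.index_ne_zero_of_finite
  have h1 : Function.Bijective (B.char A) := by
    have := Fintype.ofFinite (G ⧸ A.stab ψ →* ℂˣ)
    rw [Fintype.bijective_iff_injective_and_card]
    refine ⟨B.char_inj A, ?_⟩
    rw [← Nat.card_eq_fintype_card, ← Nat.card_eq_fintype_card, card_char, ← he]
    simp
  obtain ⟨t, ht⟩ := h1.2 (QuotientGroup.lift (A.stab ψ) (A.chi γ) hγ)
  have h2 : ∀ g, A.χ g (Multiplicative.ofAdd (γ - B.val t)) = 1 := by
    intro g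
    have h2 := DFunLike.congr_fun ht (QuotientGroup.mk g)
    have h3 : A.chi (B.val t) g = A.chi γ g := h2
    rw [← A.chi_apply, A.chi_sub, h3, div_self']
  obtain ⟨x, hx, hx1, hx2⟩ := A.nondeg _ h2
  have hab : B.a ^ (t.1 : ℕ) * B.b ^ (t.2 : ℕ) ≠ 0 :=
    mul_ne_zero (pow_ne_zero _ B.a0) (pow_ne_zero _ B.b0)
  have hab' : ψ (B.a ^ (t.1 : ℕ) * B.b ^ (t.2 : ℕ)) ≠ 0 := by rwa [Ne, map_eq_zero]
  have hx' : algebraMap L Ω x ≠ 0 := by rwa [Ne, map_eq_zero]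
  have hx'' : algebraMap L K x ≠ 0 := by rwa [Ne, map_eq_zero]
  refine ⟨B.a ^ (t.1 : ℕ) * B.b ^ (t.2 : ℕ) * algebraMap L K x, mul_ne_zero hab hx'', ?_, ?_⟩
  · rw [map_mul, ψ.commutes, T.hv.mul _ _ hab' hx', hx1]
    change (B.val t).1 + (γ.1 - (B.val t).1) = γ.1
    ring
  · rw [map_mul, ψ.commutes, T.lam_mul _ _ hab' hx', hx2]
    change (B.val t).2 + (γ.2 - (B.val t).2) = γ.2
    ring

end count

end Vale.Agent.P298.H416
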