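import Mathlib
import Vale.Agent.P298.H416.Count2

/-!
# The counting argument: embeddings and places
-/

namespace Vale.Agent.P298.H416

section count

variable {L K Ω k1 : Type*} [Field L] [Field K] [Field Ω] [Field k1] [Algebra L K] [Algebra L Ω]
  {W : ValuationSubring L} {Q : ValuationSubring (IsLocalRing.ResidueField W)}
  {T : Twr Ω k1} {G : Type*} [CommGroup G]

theorem ovr_mem {O : Ovr W K} {x : L} : algebraMap L K x ∈ O.val ↔ x ∈ W := by
  conv_rhs => rw [← O.prop]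
  exact ValuationSubring.mem_comap.symm

/-- the box of a pair. -/
theorem Sees.exists_box {ψ : K →ₐ[L] Ω} {t : Prs K Q} (h : Sees T ψ t) {w : L → ℤ}
    (hw : NOrd W w) {d : IsLocalRing.ResidueField W → ℤ} {e e' : ℕ} (he : IsE t.1 w e)
    (he' : IsE t.2 d e') : Nonempty (Box K T ψ e e') := by
  obtain ⟨he0, v, hv, hvL⟩ := he
  obtain ⟨he0', p, hp, hpL⟩ := he'
  obtain ⟨κ, κ', hκ, hκ', hv1, hl1⟩ := h.ords hv hp
  obtain ⟨a, ha⟩ := hv.one
  obtain ⟨r, hr⟩ := hp.one
  obtain ⟨z, rfl⟩ := IsLocalRing.residue_surjective r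
  have ha0 : a ≠ 0 := by
    rintro rfl
    rw [hv.zero] at ha
    omega
  have hr0 : IsLocalRing.residue t.1.val z ≠ 0 := by
    intro h0
    rw [h0, hp.zero] at hr
    omega
  have hz0 : (z : K) ≠ 0 := by
    intro h0
    apply hr0
    rw [show z = 0 from Subtype.ext h0, map_zero]
  have hvz : v z = 0 := by
    have h1 : 0 ≤ v z := ((hv.mem _).1 z.2).resolve_left hz0
    have h2 : ¬ 0 < v z := by
      rw [← hv.val_lt_one hz0, ← ValuationSubring.valuation_lt_one_iff,
        ← IsLocalRing.residue_eq_zero_iff]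
      exact hr0
    omega
  have hψL : ∀ x : L, T.v (algebraMap L Ω x) = κ * (e * w x) := by
    intro x
    rw [← ψ.commutes, hv1, hvL]
  refine ⟨⟨a, z, ha0, hz0, κ, κ', hκ, hκ', ?_, ?_, ?_, ?_, ?_⟩⟩
  · rw [hv1, ha, mul_one]
  · rw [hv1, hvz, mul_zero]
  · rw [hl1 z hz0 hvz, hr, mul_one]
  · intro x _
    rw [hψL]
    exact ⟨w x, by ring⟩
  · intro x hx hx0
    have hwx : w x = 0 := by
      rw [hψL] at hx0
      rcases mul_eq_zero.1 hx0 with h1 | h1
      · exact absurd h1 hκ.ne'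
      · rcases mul_eq_zero.1 h1 with h2 | h2
        · exact absurd (by exact_mod_cast h2) he0.ne'
        · exact h2
    have hxW : x ∈ W := (hw.mem x).2 (Or.inr hwx.ge)
    have hx' : algebraMap L K x ≠ 0 := by rwa [Ne, map_eq_zero]
    have h3 := hl1 ⟨algebraMap L K x, ovr_mem.2 hxW⟩ hx' (by
      change v (algebraMap L K x) = 0
      rw [hvL, hwx, mul_zero])
    have h4 : T.lam (algebraMap L Ω x) = T.lam (ψ (algebraMap L K x)) := by
      rw [ψ.commutes]
    rw [h4]
    have h5 := hpL (IsLocalRing.residue W ⟨x, hxW⟩)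
    rw [resAlg_residue] at h5
    refine ⟨d (IsLocalRing.residue W ⟨x, hxW⟩), ?_⟩
    rw [mul_assoc, ← h5]
    exact h3

theorem Sees.act {ψ : K →ₐ[L] Ω} {t : Prs K Q} (h : Sees T ψ t) (A : GAct L T G) (g : G) :
    Sees T ((A.act g).comp ψ) t :=
  sees_of h (fun x => A.v_act g _) (fun x hx => A.lam_act g _ (by rwa [Ne, map_eq_zero]))

/-- **the counting argument.** -/
theorem count [FiniteDimensional L K] [Algebra.IsSeparable L K]
    (hs : ∀ g : K, ((minpoly L g).map (algebraMap L Ω)).Splits)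
    {w : L → ℤ} (hw : NOrd W w) [CharZero (IsLocalRing.ResidueField W)]
    {d : IsLocalRing.ResidueField W → ℤ} (hd : NOrd Q d)
    [IsAlgClosed (IsLocalRing.ResidueField Q)]
    (h1 : T.O.comap (algebraMap L Ω) = W) (h2 : T.P.comap (resMap T.ρ (algebraMap L Ω) h1) = Q)
    [Finite G] (A : GAct L T G) {ψ : K →ₐ[L] Ω} {t : Prs K Q} (h : Sees T ψ t) :
    (∀ e e' : ℕ, IsE t.1 w e → IsE t.2 d e' → e * e' = (A.stab ψ).index) ∧
      ∀ ψ', Sees T ψ' t → ∃ g, (A.act g).comp ψ = ψ' := by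
  classical
  have := ovr_finite' K hw
  let _ : Fintype (Ovr W K) := Fintype.ofFinite _
  have hfin : ∀ O : Ovr W K, Finite (Ovr Q (IsLocalRing.ResidueField O.val)) := by
    intro O
    have := res_finite hw O
    exact ovr_finite' _ hd
  let _ : ∀ O : Ovr W K, Fintype (Ovr Q (IsLocalRing.ResidueField O.val)) := fun O =>
    Fintype.ofFinite _
  obtain ⟨e, e', he, he', hsum⟩ := exists_fund2 (K := K) hw hd
  have hsum' : ∑ t : Prs K Q, e t.1 * e' t.1 t.2 = Fintype.card (K →ₐ[L] Ω) := by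
    rw [AlgHom.card_of_splits L K Ω hs, ← hsum, Finset.sum_sigma']
    rfl
  -- the fibres
  let E : Prs K Q → Finset (K →ₐ[L] Ω) := fun t => Finset.univ.filter (fun ψ => Sees T ψ t)
  have hE : ∑ t : Prs K Q, (E t).card = Fintype.card (K →ₐ[L] Ω) := by
    have hex := fun ψ : K →ₐ[L] Ω => exists_sees (Q := Q) h1 h2 ψ
    choose f hf using hex
    rw [← Finset.card_univ, Finset.card_eq_sum_card_fiberwise (f := f) (t := Finset.univ)
      (fun _ _ => Finset.mem_coe.2 (Finset.mem_univ _))]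
    refine Finset.sum_congr rfl fun t _ => congrArg Finset.card ?_
    ext ψ
    simp only [E, Finset.mem_filter, Finset.mem_univ, true_and]
    exact ⟨fun h => (hf ψ).unique h, fun h => h ▸ hf ψ⟩
  let _ := A.mulAction K
  have horb : ∀ (t : Prs K Q) (ψ : K →ₐ[L] Ω), Sees T ψ t →
      (MulAction.orbit G ψ : Set (K →ₐ[L] Ω)) ⊆ E t := by
    rintro t ψ hψ _ ⟨g, rfl⟩
    simp only [E, Finset.coe_filter, Finset.mem_univ, true_and, Set.mem_ofPred_eq]
    exact hψ.act A g
  have hidx : ∀ ψ : K →ₐ[L] Ω, (A.stab ψ).index = (MulAction.orbit G ψ).ncard := by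
    intro ψ
    exact MulAction.index_stabilizer G ψ
  have hle1 : ∀ (t : Prs K Q) (ψ : K →ₐ[L] Ω), Sees T ψ t →
      e t.1 * e' t.1 t.2 ≤ (A.stab ψ).index := by
    intro t ψ hψ
    obtain ⟨B⟩ := hψ.exists_box hw (he t.1) (he' t.1 t.2)
    exact B.le_index A
  have hle2 : ∀ (t : Prs K Q) (ψ : K →ₐ[L] Ω), Sees T ψ t →
      (A.stab ψ).index ≤ (E t).card := by
    intro t ψ hψ
    rw [hidx, ← Set.ncard_coe_finset]
    exact Set.ncard_le_ncard (horb t ψ hψ) (Finset.finite_toSet _)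
  have hle : ∀ t : Prs K Q, e t.1 * e' t.1 t.2 ≤ (E t).card := by
    intro t
    obtain ⟨ψ, hψ⟩ := exists_sees' hs h1 h2 t
    exact (hle1 t ψ hψ).trans (hle2 t ψ hψ)
  have heq : ∀ t : Prs K Q, e t.1 * e' t.1 t.2 = (E t).card := by
    have := (Finset.sum_eq_sum_iff_of_le (s := Finset.univ) (fun t _ => hle t)).1
      (hsum'.trans hE.symm)
    exact fun t => this t (Finset.mem_univ _)
  have hindex : e t.1 * e' t.1 t.2 = (A.stab ψ).index :=
    le_antisymm (hle1 t ψ h) ((hle2 t ψ h).trans (heq t).ge)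
  constructor
  · intro a a' ha ha'
    rw [ha.unique hw (he t.1), ha'.unique hd (he' t.1 t.2)]
    exact hindex
  · intro ψ' hψ'
    have h3 : (MulAction.orbit G ψ : Set (K →ₐ[L] Ω)) = E t := by
      refine Set.eq_of_subset_of_ncard_le (horb t ψ h) ?_ (Finset.finite_toSet _)
      rw [Set.ncard_coe_finset, ← heq t, hindex, hidx]
    have h4 : ψ' ∈ (MulAction.orbit G ψ : Set (K →ₐ[L] Ω)) := by
      rw [h3]
      simp only [E, Finset.coe_filter, Finset.mem_univ, true_and, Set.mem_ofPred_eq]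
      exact hψ'
    obtain ⟨g, hg⟩ := h4
    exact ⟨g, hg⟩

/-- **the value lattice of a pair is the annihilator of the stabiliser.** -/
theorem value_lattice [FiniteDimensional L K] [Algebra.IsSeparable L K]
    (hs : ∀ g : K, ((minpoly L g).map (algebraMap L Ω)).Splits)
    {w : L → ℤ} (hw : NOrd W w) [CharZero (IsLocalRing.ResidueField W)]
    {d : IsLocalRing.ResidueField W → ℤ} (hd : NOrd Q d)
    [IsAlgClosed (IsLocalRing.ResidueField Q)]
    (h1 : T.O.comap (algebraMap L Ω) = W) (h2 : T.P.comap (resMap T.ρ (algebraMap L Ω) h1) = Q)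
    [Finite G] (A : GAct L T G) (ψ : K →ₐ[L] Ω) (γ : ℤ × ℤ) :
    (∃ h : K, h ≠ 0 ∧ T.v (ψ h) = γ.1 ∧ T.lam (ψ h) = γ.2) ↔ ∀ g ∈ A.stab ψ, A.chi γ g = 1 := by
  constructor
  · rintro ⟨h, h0, hv, hl⟩ g hg
    have h3 := A.chi_value ψ h0 hg
    rw [hv, hl] at h3
    exact h3
  · intro hγ
    obtain ⟨t, ht⟩ := exists_sees (Q := Q) h1 h2 ψ
    have := ovr_finite' K hw
    let _ : Fintype (Ovr W K) := Fintype.ofFinite _
    have hfin : ∀ O : Ovr W K, Finite (Ovr Q (IsLocalRing.ResidueField O.val)) := by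
      intro O
      have := res_finite hw O
      exact ovr_finite' _ hd
    let _ : ∀ O : Ovr W K, Fintype (Ovr Q (IsLocalRing.ResidueField O.val)) := fun O =>
      Fintype.ofFinite _
    obtain ⟨e, e', he, he', -⟩ := exists_fund2 (K := K) hw hd
    obtain ⟨B⟩ := ht.exists_box hw (he t.1) (he' t.1 t.2)
    exact B.value_of_index A
      ((count hs hw hd h1 h2 A ht).1 _ _ (he t.1) (he' t.1 t.2)) hγ

end count

end Vale.Agent.P298.H416
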