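import Mathlib
import Vale.Agent.P298.H416.Twr

/-!
# The tower of iterated Laurent series
-/

namespace Vale.Agent.P298.H416

open HahnSeries

section lau

variable (F : Type*) [Field F]

theorem order_inv' {F : Type*} [Field F] (x : LaurentSeries F) : x⁻¹.order = -x.order := by
  by_cases hx : x = 0
  · simp [hx]
  · have h := order_mul hx (inv_ne_zero hx)
    rw [mul_inv_cancel₀ hx, order_one] at h
    omega

/-- Laurent series of nonnegative order. -/
noncomputable def lO : ValuationSubring (LaurentSeries F) where
  carrier := {x | 0 ≤ x.order}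
  mul_mem' := by
    intro x y hx hy
    by_cases hx0 : x = 0
    · simp [hx0]
    by_cases hy0 : y = 0
    · simp [hy0]
    change 0 ≤ (x * y).order
    rw [order_mul hx0 hy0]
    exact add_nonneg hx hy
  one_mem' := by
    change 0 ≤ (1 : LaurentSeries F).order
    rw [order_one]
  add_mem' := by
    intro x y hx hy
    by_cases hxy : x + y = 0
    · change 0 ≤ (x + y).order
      rw [hxy, order_zero]
    · exact le_trans (le_min hx hy) (min_order_le_order_add hxy)
  zero_mem' := by
    change 0 ≤ (0 : LaurentSeries F).order
    rw [order_zero]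
  neg_mem' := by
    intro x hx
    change 0 ≤ (-x).order
    rw [order_neg]
    exact hx
  mem_or_inv_mem' := by
    intro x
    rcases le_total 0 x.order with h | h
    · exact Or.inl h
    · right
      change 0 ≤ x⁻¹.order
      rw [order_inv']
      omega

variable {F}

theorem mem_lO {x : LaurentSeries F} : x ∈ lO F ↔ 0 ≤ x.order := Iff.rfl

theorem lord : NOrd (lO F) (fun x => x.order) where
  zero := order_zero
  mul := fun _ _ hx hy => order_mul hx hy
  add := fun _ _ _ _ hxy => min_order_le_order_add hxy
  mem := fun x => by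
    rw [mem_lO]
    exact ⟨Or.inr, fun h => h.elim (fun h => by rw [h, order_zero]) id⟩
  one := ⟨single 1 1, order_single one_ne_zero⟩

theorem coeff_zero_mul {x y : LaurentSeries F} (hx : 0 ≤ x.order) (hy : 0 ≤ y.order) :
    (x * y).coeff 0 = x.coeff 0 * y.coeff 0 := by
  by_cases hx0 : x = 0
  · simp [hx0]
  by_cases hy0 : y = 0
  · simp [hy0]
  rcases hx.eq_or_lt with h1 | h1
  · rcases hy.eq_or_lt with h2 | h2
    · have h3 := coeff_mul_order_add_order x y
      rw [← h1, ← h2, add_zero, leadingCoeff_eq, leadingCoeff_eq, ← h1, ← h2] at h3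
      exact h3
    · rw [coeff_eq_zero_of_lt_order (x := y) h2, mul_zero]
      refine coeff_eq_zero_of_lt_order ?_
      rw [order_mul hx0 hy0]
      omega
  · rw [coeff_eq_zero_of_lt_order (x := x) h1, zero_mul]
    refine coeff_eq_zero_of_lt_order ?_
    rw [order_mul hx0 hy0]
    omega

/-- the residue map of Laurent series. -/
noncomputable def lRes : Res (lO F) F where
  ρ :=
    { toFun := fun x => (x : LaurentSeries F).coeff 0
      map_one' := by
        change (1 : LaurentSeries F).coeff 0 = 1
        simp
      map_zero' := by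
        change (0 : LaurentSeries F).coeff 0 = 0
        simp
      map_add' := fun x y => by
        change ((x : LaurentSeries F) + y).coeff 0 = _
        simp
      map_mul' := fun x y => coeff_zero_mul x.2 y.2 }
  ker := fun x => by
    change (x : LaurentSeries F).coeff 0 = 0 ↔ _
    by_cases hx : (x : LaurentSeries F) = 0
    · simp [hx]
    · rw [lord.val_lt_one hx]
      constructor
      · intro h
        rcases (mem_lO.1 x.2).eq_or_lt with h1 | h1
        · exfalso
          have h2 := leadingCoeff_ne_zero.2 hx
          rw [leadingCoeff_eq, ← h1] at h2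
          exact h2 h
        · exact h1
      · exact fun h => coeff_eq_zero_of_lt_order h

theorem lRes_apply (x : lO F) : (lRes (F := F)).ρ x = (x : LaurentSeries F).coeff 0 := rfl

theorem leadingCoeff_mul' (x y : LaurentSeries F) :
    (x * y).leadingCoeff = x.leadingCoeff * y.leadingCoeff := leadingCoeff_mul x y

end lau

/-- the field of iterated Laurent series. -/
abbrev Lam2 := LaurentSeries (LaurentSeries ℂ)

/-- the tower. -/
noncomputable def lTwr : Twr Lam2 (LaurentSeries ℂ) where
  O := lO (LaurentSeries ℂ)
  ρ := lRes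
  P := lO ℂ
  v := fun x => x.order
  w := fun x => x.order
  hv := lord
  hw := lord
  lam := fun x => x.leadingCoeff.order
  lam_mul := fun x y hx hy => by
    rw [leadingCoeff_mul']
    exact order_mul (leadingCoeff_ne_zero.2 hx) (leadingCoeff_ne_zero.2 hy)
  lam_res := fun z _ hz => by
    rw [leadingCoeff_eq, hz]
    rfl
  lc := fun x => x.leadingCoeff.leadingCoeff
  lc_ne := fun _ hx => leadingCoeff_ne_zero.2 (leadingCoeff_ne_zero.2 hx)
  lc_mul := fun x y _ _ => by
    rw [leadingCoeff_mul', leadingCoeff_mul']

/-- pull-back of a tower. -/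
noncomputable def Twr.pull {Ω Ω' k1 : Type*} [Field Ω] [Field Ω'] [Field k1] (T : Twr Ω k1)
    (j : Ω' →+* Ω) (h : ∃ x, T.v (j x) = 1) : Twr Ω' k1 where
  O := T.O.comap j
  ρ :=
    { ρ := T.ρ.ρ.comp (resPre j rfl)
      ker := fun x => by
        rw [RingHom.comp_apply, T.ρ.ker]
        exact (val_lt_one_comap j rfl x).symm }
  P := T.P
  v := fun x => T.v (j x)
  w := T.w
  hv :=
    { zero := by rw [map_zero, T.hv.zero]
      mul := fun x y hx hy => by
        rw [map_mul]
        exact T.hv.mul _ _ (by rwa [Ne, map_eq_zero]) (by rwa [Ne, map_eq_zero])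
      add := fun x y hx hy hxy => by
        rw [map_add]
        exact T.hv.add _ _ (by rwa [Ne, map_eq_zero]) (by rwa [Ne, map_eq_zero])
          (by rw [← map_add]; rwa [Ne, map_eq_zero])
      mem := fun x => by
        rw [ValuationSubring.mem_comap, T.hv.mem, map_eq_zero]
      one := h }
  hw := T.hw
  lam := fun x => T.lam (j x)
  lam_mul := fun x y hx hy => by
    rw [map_mul]
    exact T.lam_mul _ _ (by rwa [Ne, map_eq_zero]) (by rwa [Ne, map_eq_zero])
  lam_res := fun z hz hz0 => by
    exact T.lam_res (resPre j rfl z) (by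
      change j (z : Ω') ≠ 0
      rwa [Ne, map_eq_zero]) hz0
  lc := fun x => T.lc (j x)
  lc_ne := fun x hx => T.lc_ne _ (by rwa [Ne, map_eq_zero])
  lc_mul := fun x y hx hy => by
    rw [map_mul]
    exact T.lc_mul _ _ (by rwa [Ne, map_eq_zero]) (by rwa [Ne, map_eq_zero])

end Vale.Agent.P298.H416
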