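import Vale.Agent.P298.H868.XT

/-!
# The end place on the curve `x = 0`
-/

set_option linter.style.haveILetI false

noncomputable section

namespace Vale.Agent.P298.H416

open Filter Topology Vale.Agent.P298.H928 Vale.Agent.P298.H707

theorem psi_snoc (v : List (Option ℂ)) (d : Option ℂ) (q : ℂ × ℂ) :
    psi (v ++ [d]) q = bl d (psi v q) := by
  rw [psi_append]
  rfl

theorem tendsto_arc {φ : ℂ → ℂ} (hφ : ContinuousAt φ 0) (hφ0 : φ 0 = 0) :
    Tendsto (fun a : ℂ => ((a, φ a) : ℂ × ℂ)) (𝓝[≠] 0) (𝓝 0) := by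
  have h1 : Tendsto (fun a : ℂ => ((a, φ a) : ℂ × ℂ)) (𝓝 0) (𝓝 (0, φ 0)) :=
    (continuousAt_id.prodMk hφ).tendsto
  rw [hφ0] at h1
  exact h1.mono_left nhdsWithin_le_nhds

/-- an arc over the first axis is the first axis. -/
theorem word_aux {φ : ℂ → ℂ} (hφ : ContinuousAt φ 0) (hφ0 : φ 0 = 0) (v : List (Option ℂ))
    (h : ∀ᶠ a in 𝓝[≠] (0 : ℂ), (psi v (a, φ a)).1 ≠ 0 ∧ (psi v (a, φ a)).2 = 0) :
    (∃ k, v = List.replicate k (some 0)) ∧ ∀ᶠ a in 𝓝[≠] (0 : ℂ), φ a = 0 := by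
  induction v using List.reverseRecOn with
  | nil => exact ⟨⟨0, rfl⟩, h.mono fun a ha => ha.2⟩
  | append_singleton v d ih =>
    cases d with
    | none =>
      exfalso
      obtain ⟨a, h1, h2⟩ := h.exists
      rw [psi_snoc, bl_none] at h1 h2
      simp only at h1 h2
      exact h1 (by rw [h2, zero_mul])
    | some c =>
      have h1 : ∀ᶠ a in 𝓝[≠] (0 : ℂ), (psi v (a, φ a)).1 ≠ 0 ∧ (psi v (a, φ a)).2 = -c := by
        filter_upwards [h] with a ha
        rw [psi_snoc, bl_some] at ha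
        exact ⟨ha.1, eq_neg_of_add_eq_zero_left ((mul_eq_zero.1 ha.2).resolve_left ha.1)⟩
      have h2 : Tendsto (fun a : ℂ => (psi v (a, φ a)).2) (𝓝[≠] 0) (𝓝 0) := by
        have h3 := (tendsto_psi v).comp (tendsto_arc hφ hφ0)
        exact (continuous_snd.tendsto (0 : ℂ × ℂ)).comp h3
      have h3 : Tendsto (fun a : ℂ => (psi v (a, φ a)).2) (𝓝[≠] 0) (𝓝 (-c)) :=
        tendsto_const_nhds.congr' (h1.mono fun a ha => ha.2.symm)
      have hc : c = 0 := neg_eq_zero.1 (tendsto_nhds_unique h3 h2)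
      subst hc
      obtain ⟨⟨k, rfl⟩, h5⟩ := ih (h1.mono fun a ha => ⟨ha.1, ha.2.trans neg_zero⟩)
      exact ⟨⟨k + 1, (List.replicate_succ' ..).symm⟩, h5⟩

variable {D : ℂ × ℂ → ℂ} (T : Tree fun q => q.1 * D q)

/-- **the word of a free place on `x = 0` and its chart.** -/
theorem word_of_x {w : List (Option ℂ)} (hw : w ∈ T.C) {d : Option ℂ} (h : d :: w ∉ T.C)
    (he : ¬ exc (d :: w)) {a b : ℕ} (hm : MonU (fun q => (T.Th w d q).1) a b) (hb : 0 < b) :
    ∃ k, d :: w = List.replicate k (some 0) ++ [none] ∧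
      ∀ s, T.Th w d s = (s.1 ^ (k + 1) * s.2, s.1) := by
  set φ := phi (fun q => q.1 * D q) (d :: w) with hφdef
  obtain ⟨hφ, hφ0, hφz, -⟩ := phi_spec (H := fun q => q.1 * D q) (T.nc w hw d h)
  have hax : Tendsto (fun a : ℂ => ((a, 0) : ℂ × ℂ)) (𝓝[≠] 0) (𝓝 0) :=
    tendsto_arc (φ := fun _ => 0) continuousAt_const rfl
  obtain ⟨U, hU, hU0, hU1⟩ := hm
  have h1 : ∀ᶠ a in 𝓝[≠] (0 : ℂ), psi (d :: w) (a, φ a) ≠ 0 ∧ (psi (d :: w) (a, φ a)).1 = 0 := by
    filter_upwards [hax.eventually (T.Th_snd_ne_zero hw h he), hax.eventually hU1,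
      self_mem_nhdsWithin] with a h1 h2 h3
    have h4 := h1 h3
    rw [T.Th_of_notMem h, zero_add] at h4 h2
    refine ⟨h4, h2.trans ?_⟩
    rw [zero_pow hb.ne', mul_zero, zero_mul]
  obtain ⟨v, l, hvl⟩ := (List.eq_nil_or_concat (d :: w)).resolve_left (List.cons_ne_nil _ _)
  have h2 : l = none ∧ ∀ᶠ a in 𝓝[≠] (0 : ℂ),
      (psi v (a, φ a)).1 ≠ 0 ∧ (psi v (a, φ a)).2 = 0 := by
    rw [hvl] at h1
    cases l with
    | some c =>
      exfalso
      obtain ⟨a, h3, h4⟩ := h1.exists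
      rw [List.concat_eq_append, psi_snoc, bl_some] at h3 h4
      simp only at h4
      exact h3 (by rw [h4, zero_mul]; rfl)
    | none =>
      refine ⟨rfl, h1.mono fun a ha => ?_⟩
      obtain ⟨h3, h4⟩ := ha
      rw [List.concat_eq_append, psi_snoc, bl_none] at h3 h4
      simp only at h4
      have h5 : (psi v (a, φ a)).1 ≠ 0 := fun h5 => h3 (by rw [h5, zero_mul]; rfl)
      exact ⟨h5, (mul_eq_zero.1 h4).resolve_left h5⟩
  obtain ⟨rfl, h2⟩ := h2
  obtain ⟨⟨k, rfl⟩, h3⟩ := word_aux hφ.continuousAt hφ0 v h2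
  have h4 : φ = fun _ => 0 := by
    refine hφz ?_
    rw [eventually_nhdsWithin_iff] at h3
    filter_upwards [h3] with a ha
    by_cases h5 : a = 0
    · rw [h5]
      exact hφ0
    · exact ha h5
  rw [List.concat_eq_append] at hvl
  refine ⟨k, hvl, fun s => ?_⟩
  rw [T.Th_of_notMem h, ← hφdef, h4, add_zero, hvl, psi_replicate, psi_cons, psi_nil, bl_none]
  refine Prod.ext ?_ rfl
  simp only
  ring

/-- there is only one such word. -/
theorem word_unique {w w' : List (Option ℂ)} (hw : w ∈ T.C) (hw' : w' ∈ T.C) {d d' : Option ℂ}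
    (h : d :: w ∉ T.C) (h' : d' :: w' ∉ T.C) {k k' : ℕ}
    (hk : d :: w = List.replicate k (some 0) ++ [none])
    (hk' : d' :: w' = List.replicate k' (some 0) ++ [none]) : d :: w = d' :: w' := by
  have key : ∀ {w w' : List (Option ℂ)} {d d' : Option ℂ} {k k' : ℕ}, w' ∈ T.C →
      d :: w ∉ T.C → d :: w = List.replicate k (some 0) ++ [none] →
      d' :: w' = List.replicate k' (some 0) ++ [none] → k' ≤ k := by
    intro w w' d d' k k' hw' h hk hk'
    by_contra hlt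
    push Not at hlt
    obtain ⟨m, rfl⟩ : ∃ m, k' = m + 1 := ⟨k' - 1, by omega⟩
    rw [List.replicate_succ, List.cons_append, List.cons.injEq] at hk'
    apply h
    rw [hk]
    exact T.replicate_mem (k := m) (by omega) (hk'.2 ▸ hw')
  have h1 := key hw' h hk hk'
  have h2 := key hw h' hk' hk
  rw [hk, hk', le_antisymm h2 h1]

end Vale.Agent.P298.H416
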