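import Vale.Agent.P298.H416.Surf7
import Vale.Agent.P298.H416.XW
import Vale.Agent.P298.H928.SurfJ
import Vale.Agent.P298.H868.XJ

/-!
# The monodromy on the surface of a Jung model and the inputs of the anchor
-/

set_option linter.style.haveILetI false

noncomputable section

namespace Vale.Agent.P298.H416

open Filter Topology Polynomial Vale.Agent.P298 Vale.Agent.P298.H707 Vale.Agent.P298.H868.Xf
  Vale.Agent.P298.H928
open Vale.Agent.P298.H983 (omg omg_ne_zero)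
open Vale.Agent.P298.H701 (ser2 psiC LL2 KF PL)
open Vale.Agent.P298.H471 (RV cl algRK towRK finDim_KF sep_KF)

variable {f : (Fin 3 → ℂ) → ℂ} {n : ℕ} {P : ℂ × ℂ → ℂ[X]} {v : ℂ × (ℂ × ℂ) → ℂ}
  {T : Tree fun p => p.1 * disc n P p} {ζ : PlT T → Fin n → ℂ × ℂ → ℂ}
  {σ ρ : PlT T → Equiv.Perm (Fin n)}
  (J : JungT f n P v T ζ σ ρ) [hirr : Fact (Irreducible (PL n P))]

theorem psJ_injective (p : PlT T) : Function.Injective (psJ J p) := by
  intro l l' h1
  have h2 := congrArg (fun φ : KF n P →+* LL2 => φ (AdjoinRoot.root (PL n P))) h1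
  simp only [psJ_root] at h2
  exact H701.ser2_zeta_injective (J.M.C p) (IsFractionRing.injective R2 LL2 h2)

theorem psJ_act (p : PlT T) (i j : ℕ) (l : Fin n) (z : KF n P) :
    rsOm ((Units.mk0 _ (omg_ne_zero n.factorial)) ^ i) ((Units.mk0 _ (omg_ne_zero n.factorial)) ^ j)
      (psJ J p l z) = psJ J p ((σ p ^ i * ρ p ^ j) l) z :=
  rsOm_psiC J.M.W (J.M.C p) (J.M.an p) (J.M.zero p) (jacT_ne T p) i j l z

theorem primJ : IsPrimitiveRoot (Units.mk0 _ (omg_ne_zero n.factorial)) n.factorial := by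
  have h1 : IsPrimitiveRoot (omg n.factorial) n.factorial :=
    Complex.isPrimitiveRoot_exp _ n.factorial_ne_zero
  exact IsPrimitiveRoot.coe_units_iff.1 h1

include J in
theorem sigma_pow (p : PlT T) : σ p ^ n.factorial = 1 := by
  ext l
  rw [Equiv.Perm.one_apply]
  refine congrArg _ (psJ_injective J p (RingHom.ext fun z => ?_))
  have h1 := psJ_act J p n.factorial 0 l z
  rw [primJ.pow_eq_one, pow_zero, pow_zero, mul_one, rsOm_one] at h1
  exact h1.symm

include J in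
theorem rho_pow (p : PlT T) : ρ p ^ n.factorial = 1 := by
  ext l
  rw [Equiv.Perm.one_apply]
  refine congrArg _ (psJ_injective J p (RingHom.ext fun z => ?_))
  have h1 := psJ_act J p 0 n.factorial l z
  rw [primJ.pow_eq_one, pow_zero, pow_zero, one_mul, rsOm_one] at h1
  exact h1.symm

/-- **the monodromy on the surface.** -/
theorem monJ (p : PlT T) : letI := algRK J.M.hf J.M.W
    haveI := towRK J.M.hf J.M.W
    haveI := finDim_KF J.M.W
    haveI := sep_KF J.M.W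
    Surf.Mon (surfJ J) p (EJ J p) (σ p) (ρ p) (Units.mk0 _ (omg_ne_zero n.factorial)) := by
  letI := algRK J.M.hf J.M.W
  haveI := towRK J.M.hf J.M.W
  haveI := finDim_KF J.M.W
  haveI := sep_KF J.M.W
  exact
    { prim := primJ
      comm := (J.M.C p).comm
      σN := sigma_pow J p
      ρN := rho_pow J p
      inj := EJ_inj J p
      all := fun ψ => (EJ_surj J p ψ).imp fun _ h => h.symm
      act := fun i j l z => psJ_act J p i j l z }

/-- the second orders. -/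
theorem he2J : letI := algRK J.M.hf J.M.W
    haveI := towRK J.M.hf J.M.W
    haveI := finDim_KF J.M.W
    haveI := sep_KF J.M.W
    ∀ (p : PlT T) (l : Fin n), (surfJ J).e2 (Surf.pl (EJ J p l)) =
      ((n.factorial / Function.minimalPeriod (ρ p) l : ℕ) : ℤ) := by
  letI := algRK J.M.hf J.M.W
  haveI := towRK J.M.hf J.M.W
  haveI := finDim_KF J.M.W
  haveI := sep_KF J.M.W
  intro p l
  exact (monJ J p).e2_eq l

omit hirr in
/-- the end place on the curve `x = 0`: its chart, and it is the only one. -/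
theorem exists_i0 (T : Tree fun p => p.1 * disc n P p) : ∃ (i0 : PlT T) (k a b : ℕ),
    (∀ s, ThT T i0 s = (s.1 ^ (k + 1) * s.2, s.1)) ∧ ndT T i0 = none ∧ 0 < b ∧
    MonU (fun q => (ThT T i0 q).1) a b ∧
    ∀ (p : PlT T) (a b : ℕ), ndT T p = none → MonU (fun q => (ThT T p q).1) a b → 0 < b →
      p = i0 := by
  obtain ⟨w, hw, d, h1, h2, a, b, hb, hm⟩ := exists_x_place T
  obtain ⟨k, hk, hT⟩ := word_of_x T hw h1 h2 hm hb
  refine ⟨(⟨w, hw⟩, d), k, a, b, hT, ndT_none.2 ⟨h1, h2⟩, hb, hm, ?_⟩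
  rintro ⟨⟨w', hw'⟩, d'⟩ a' b' hn hm' hb'
  obtain ⟨h3, h4⟩ := ndT_none.1 hn
  obtain ⟨k', hk', -⟩ := word_of_x T hw' h3 h4 hm' hb'
  have h5 := word_unique T hw' hw h3 h1 hk' hk
  rw [List.cons.injEq] at h5
  obtain ⟨rfl, rfl⟩ := h5
  rfl

/-- **the inputs of the anchor.** -/
theorem anchorJ (hDy : ∃ᶠ y in 𝓝 (0 : ℂ), disc n P (0, y) ≠ 0) :
    letI := algRK J.M.hf J.M.W
    haveI := towRK J.M.hf J.M.W
    haveI := finDim_KF J.M.W
    haveI := sep_KF J.M.W
    ∃ (i0 : PlT T) (k : ℕ), (∀ᶠ s in 𝓝 (0 : ℂ × ℂ), ThT T i0 s = (s.1 ^ (k + 1) * s.2, s.1)) ∧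
      (∀ l l', Surf.pl (EJ J i0 l) = Surf.pl (EJ J i0 l') ↔ ∃ m : ℕ, (σ i0 ^ m) l = l') ∧
      (∀ l, (surfJ J).nb (Surf.pl (EJ J i0 l)) = none) ∧
      (∀ l, (surfJ J).e1 (Surf.pl (EJ J i0 l)) = n.factorial) ∧
      (∀ (l) [DecidablePred fun l' : Fin n => Surf.pl (EJ J i0 l') = Surf.pl (EJ J i0 l)],
        (surfJ J).ka (Surf.pl (EJ J i0 l)) *
          (Finset.univ.filter fun l' : Fin n =>
            Surf.pl (EJ J i0 l') = Surf.pl (EJ J i0 l)).card = n.factorial) ∧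
      (∀ q, (surfJ J).nb q = none →
        (surfJ J).lam q (algebraMap (RV f) (KF n P) (xR f)) ≠ 0 →
          ∃ l, Surf.pl (EJ J i0 l) = q) := by
  letI := algRK J.M.hf J.M.W
  haveI := towRK J.M.hf J.M.W
  haveI := finDim_KF J.M.W
  haveI := sep_KF J.M.W
  obtain ⟨i0, k, a, b, h1, h2, hb, hm, h3⟩ := exists_i0 T
  have hρ : ρ i0 = 1 := rho_eq_one_T J hDy i0 (ndT_none.1 h2) hm hb
  refine ⟨i0, k, .of_forall h1, (monJ J i0).pl_iff_one hρ, fun l => ?_,
    (monJ J i0).e1_one hρ, fun l _ => (monJ J i0).count_filter hρ l, fun q hq hl => ?_⟩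
  · exact Surf.nb_pl_none (EJ J i0 l) h2
  · have h4 : (surfJ J).nd ((surfJ J).cht q) = none := Surf.nd_of_nb_none hq
    obtain ⟨a', b', hm'⟩ := monU_x T ((surfJ J).cht q).1.2 ((surfJ J).cht q).2
    obtain ⟨U, hU, hU1⟩ := mono_X0 (T := T) ((surfJ J).cht q) hm'
    have h5 : (surfJ J).lam q (algebraMap (RV f) (KF n P) (xR f)) = n.factorial * b' := by
      have h6 := algRK_x (n := n) (P := P) J.M.hf J.M.W
      rw [h6]
      have h7 : (surfJ J).lam q (algebraMap L0 (KF n P)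
          (algebraMap R2 L0 (MvPowerSeries.X 0))) =
          Ta.lam ((surfJ J).phi ((surfJ J).cht q) (algebraMap R2 L0 (MvPowerSeries.X 0))) :=
        congrArg Ta.lam (((surfJ J).psq q).comm _)
      rw [h7, (surfJ J).phi_lam]
      have h8 : (surfJ J).θ ((surfJ J).cht q) (algebraMap R2 L0 (MvPowerSeries.X 0)) =
          algebraMap R2 Om (MvPowerSeries.X 0 ^ a' * MvPowerSeries.X 1 ^ b' * U) := hU1
      rw [h8, (Ta_mono hU rfl).2.1]
      rfl
    have hb' : 0 < b' := by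
      rcases Nat.eq_zero_or_pos b' with h9 | h9
      · rw [h9, Nat.cast_zero, mul_zero] at h5
        exact absurd h5 hl
      · exact h9
    have h9 : (surfJ J).cht q = i0 := h3 _ a' b' h4 hm' hb'
    obtain ⟨χ, -, hχ⟩ := Surf.Emb.cast h9 ((surfJ J).psq q)
    obtain ⟨l, hl'⟩ := EJ_surj J i0 χ
    refine ⟨l, ?_⟩
    rw [← hl', hχ, Surf.pl_psq]

end Vale.Agent.P298.H416
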