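import Vale.Agent.P298.H416.Lau
import Vale.Agent.P298.H701.Br9

/-!
# The field of fractions of power series in two variables and its two towers
-/

namespace Vale.Agent.P298.H416

open HahnSeries H766 H701

/-- power series in two variables. -/
abbrev R2 := MvPowerSeries (Fin 2) ℂ

/-- the first variable. -/
noncomputable def lA : Lam2 := single 1 1

/-- the second variable, in the residue field. -/
noncomputable def lb : LaurentSeries ℂ := single 1 1

theorem sA_mem' (F : R2) : 0 ≤ (sA F).order ∧ 0 ≤ ((sA F).coeff 0).order := by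
  refine ⟨order_sA_nonneg F, ?_⟩
  rcases mem_VS.1 (coeff_sA_mem F 0) with h | h
  · rw [h, order_zero]
  · exact h

/-- leading terms. -/
def Lead (F : R2) (i k : ℕ) (c : ℂ) : Prop :=
  c ≠ 0 ∧ ∃ G H : R2, F = MvPowerSeries.X 0 ^ i *
    (MvPowerSeries.X 1 ^ k * (MvPowerSeries.C c + MvPowerSeries.X 1 * G) + MvPowerSeries.X 0 * H)

theorem lead_aux {F : Type*} [Field F] {x : LaurentSeries F} (hx : 0 ≤ x.order)
    (h : x.coeff 0 ≠ 0) : x.order = 0 ∧ x.leadingCoeff = x.coeff 0 := by
  have h1 : x.order = 0 := le_antisymm (order_le_of_coeff_ne_zero h) hx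
  exact ⟨h1, by rw [leadingCoeff_eq, h1]⟩

theorem Lead.val {F : R2} {i k : ℕ} {c : ℂ} (h : Lead F i k c) :
    (sA F).order = i ∧ (sA F).leadingCoeff.order = k ∧
      (sA F).leadingCoeff.leadingCoeff = c := by
  obtain ⟨hc, G, H, rfl⟩ := h
  -- the inner factor
  have hG := sA_mem' G
  have hH := sA_mem' H
  set g0 := (sA G).coeff 0 with hg0
  have hC0 : ∀ x : LaurentSeries ℂ, 0 ≤ (HahnSeries.C x : Lam2).order := fun x => order_C.ge
  have hlb : (0 : ℤ) ≤ lb.order := by
    rw [lb, order_single one_ne_zero]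
    norm_num
  have hA : (0 : ℤ) ≤ lA.order := by
    rw [lA, order_single one_ne_zero]
    norm_num
  -- residue of the inner factor
  set z : Lam2 := HahnSeries.C lb ^ k * (HahnSeries.C (HahnSeries.C c) + HahnSeries.C lb * sA G) +
    lA * sA H with hz
  have hzO : z ∈ lO (LaurentSeries ℂ) := by
    refine add_mem (mul_mem (pow_mem ?_ k) (add_mem ?_ (mul_mem ?_ ?_))) (mul_mem ?_ ?_)
    · exact hC0 _
    · exact hC0 _
    · exact hC0 _
    · exact hG.1
    · exact hA
    · exact hH.1
  have hz0 : z.coeff 0 = lb ^ k * (HahnSeries.C c + lb * g0) := by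
    have e1 : (HahnSeries.C lb : Lam2).coeff 0 = lb := by simp [HahnSeries.C_apply]
    have e2 : (HahnSeries.C (HahnSeries.C c) : Lam2).coeff 0 = HahnSeries.C c := by
      simp [HahnSeries.C_apply]
    have e3 : lA.coeff 0 = 0 := by simp [lA]
    have hk : ∀ k : ℕ, ((HahnSeries.C lb : Lam2) ^ k).coeff 0 = lb ^ k := by
      intro k
      rw [← map_pow]
      simp [HahnSeries.C_apply]
    rw [hz, coeff_add, H416.coeff_zero_mul hA hH.1, e3, zero_mul, add_zero, H416.coeff_zero_mul, hk,
      coeff_add, H416.coeff_zero_mul (hC0 _) hG.1, e1, e2]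
    · rw [← map_pow]
      exact hC0 _
    · exact (add_mem (S := ValuationSubring _) (s := lO _) (hC0 _)
        (mul_mem (s := lO _) (hC0 _) hG.1) :)
  -- the second level
  set y : LaurentSeries ℂ := HahnSeries.C c + lb * g0 with hy
  have hyO : 0 ≤ y.order := by
    exact (add_mem (S := ValuationSubring _) (s := lO ℂ) (mem_lO.2 order_C.ge)
        (mul_mem (s := lO _) (mem_lO.2 hlb) (mem_lO.2 hG.2)) :)
  have hy0 : y.coeff 0 = c := by
    rw [hy, coeff_add, H416.coeff_zero_mul hlb hG.2]
    simp [lb, HahnSeries.C_apply]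
  obtain ⟨hy1, hy2⟩ := lead_aux hyO (by rw [hy0]; exact hc)
  have hyne : y ≠ 0 := by
    rintro h
    rw [h] at hy0
    exact hc (by rw [← hy0]; simp)
  have hlbne : lb ≠ 0 := by
    rw [lb]
    exact single_ne_zero one_ne_zero
  have hAne : lA ≠ 0 := by
    rw [lA]
    exact single_ne_zero one_ne_zero
  have hzne0 : z.coeff 0 ≠ 0 := by
    rw [hz0]
    exact mul_ne_zero (pow_ne_zero _ hlbne) hyne
  obtain ⟨hz1, hz2⟩ := lead_aux (mem_lO.1 hzO) hzne0
  have hzne : z ≠ 0 := by
    rintro h
    rw [h] at hzne0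
    exact hzne0 (by simp)
  have hF : sA (MvPowerSeries.X 0 ^ i * (MvPowerSeries.X 1 ^ k * (MvPowerSeries.C c +
      MvPowerSeries.X 1 * G) + MvPowerSeries.X 0 * H)) = lA ^ i * z := by
    rw [map_mul, map_add, map_mul, map_mul, map_add, map_mul, map_pow, map_pow, sA_X0, sA_X1,
      sA_C]
    rfl
  have hlp : ∀ {F : Type} [Field F] (n : ℕ),
      ((single (1 : ℤ) (1 : F) : LaurentSeries F) ^ n).leadingCoeff = 1 := by
    intro F _ n
    induction n with
    | zero => rw [pow_zero, leadingCoeff_one]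
    | succ n ih => rw [pow_succ, leadingCoeff_mul', ih, leadingCoeff_of_single, mul_one]
  have hAi : lA ^ i ≠ 0 := by
    intro h
    have h' := congrArg (fun x : Lam2 => x.leadingCoeff) h
    have hl : ∀ n : ℕ, (lA ^ n).leadingCoeff = 1 := by
      intro n
      induction n with
      | zero => rw [pow_zero, leadingCoeff_one]
      | succ n ih => rw [pow_succ, leadingCoeff_mul', ih, lA, leadingCoeff_of_single, mul_one]
    simp only [hl, leadingCoeff_zero] at h'
    exact one_ne_zero h'
  have hbk : lb ^ k ≠ 0 := pow_ne_zero k hlbne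
  rw [hF]
  refine ⟨?_, ?_, ?_⟩
  · rw [order_mul hAi hzne, hz1, order_pow, lA, order_single one_ne_zero]
    simp
  · rw [leadingCoeff_mul', hz2, hz0, lA, hlp, one_mul, order_mul hbk hyne,
      hy1, order_pow, lb, order_single one_ne_zero]
    simp
  · rw [leadingCoeff_mul', hz2, hz0, lA, hlp, one_mul, leadingCoeff_mul', lb, hlp, one_mul, hy2,
      hy0]

end Vale.Agent.P298.H416
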