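import Vale.Agent.P298.H416.Om1

/-!
# Leading terms of power series in two variables
-/

namespace Vale.Agent.P298.H416

open MvPowerSeries

theorem coeff_X_pow_mul' (s : Fin 2) (k : ℕ) (m : Fin 2 →₀ ℕ) (φ : R2) :
    coeff (Finsupp.single s k + m) (X s ^ k * φ) = coeff m φ := by
  rw [X_pow_eq, coeff_add_monomial_mul, one_mul]

/-- leading terms exist. -/
theorem exists_lead {F : R2} (hF : F ≠ 0) : ∃ i k c, Lead F i k c := by
  classical
  have h1 : ∃ i, ∃ m : Fin 2 →₀ ℕ, m 0 = i ∧ coeff m F ≠ 0 := by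
    by_contra hcon
    push Not at hcon
    exact hF (MvPowerSeries.ext fun m => by
      rw [hcon _ m rfl, map_zero])
  obtain ⟨m1, hm1, hm1'⟩ := Nat.find_spec h1
  set i := Nat.find h1 with hi
  have h2 : (X 0 : R2) ^ i ∣ F := by
    rw [X_pow_dvd_iff]
    intro m hm
    by_contra hcon
    exact Nat.find_min h1 hm ⟨m, rfl, hcon⟩
  obtain ⟨F1, hF1⟩ := h2
  -- the part without the first variable
  let f1 : R2 := fun m => if m 0 = 0 then coeff m F1 else 0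
  have hf1 : ∀ m, coeff m f1 = if m 0 = 0 then coeff m F1 else 0 := fun m => rfl
  have h3 : (X 0 : R2) ∣ F1 - f1 := by
    rw [X_dvd_iff]
    intro m hm
    rw [map_sub, hf1, if_pos hm, sub_self]
  obtain ⟨H, hH⟩ := h3
  have h4 : ∃ k, ∃ m : Fin 2 →₀ ℕ, m 0 = 0 ∧ m 1 = k ∧ coeff m F1 ≠ 0 := by
    by_contra hcon
    push Not at hcon
    have h5 : (X 0 : R2) ∣ F1 := by
      rw [X_dvd_iff]
      intro m hm
      exact hcon _ m hm rfl
    obtain ⟨F2, hF2⟩ := h5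
    have h6 : (X 0 : R2) ^ (i + 1) ∣ F := ⟨F2, by rw [hF1, hF2, pow_succ, mul_assoc]⟩
    rw [X_pow_dvd_iff] at h6
    exact hm1' (h6 m1 (by omega))
  obtain ⟨m2, hm2, hm2', hm2''⟩ := Nat.find_spec h4
  set k := Nat.find h4 with hk
  have h5 : (X 1 : R2) ^ k ∣ f1 := by
    rw [X_pow_dvd_iff]
    intro m hm
    rw [hf1]
    split_ifs with h0
    · by_contra hcon
      exact Nat.find_min h4 hm ⟨m, h0, rfl, hcon⟩
    · rfl
  obtain ⟨f2, hf2⟩ := h5
  have hm2k : m2 = Finsupp.single 1 k + 0 := by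
    ext j
    fin_cases j
    · simp [hm2]
    · simp [hm2']
  have hc : coeff 0 f2 ≠ 0 := by
    rw [← coeff_X_pow_mul' 1 k 0 f2, ← hf2, ← hm2k, hf1, if_pos hm2]
    exact hm2''
  have h6 : (X 1 : R2) ∣ f2 - C (coeff 0 f2) := by
    rw [X_dvd_iff]
    intro m hm
    by_cases h0 : m 0 = 0
    · have : m = 0 := by
        ext j
        fin_cases j
        · exact h0
        · exact hm
      rw [this, map_sub, coeff_zero_C, sub_self]
    · have hmne : m ≠ 0 := by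
        rintro rfl
        exact h0 rfl
      rw [map_sub, coeff_C, if_neg hmne, sub_zero, ← coeff_X_pow_mul' 1 k m f2, ← hf2, hf1,
        if_neg]
      simp [h0]
  obtain ⟨G, hG⟩ := h6
  refine ⟨i, k, coeff 0 f2, hc, G, H, ?_⟩
  have e1 : F1 = f1 + X 0 * H := by rw [← hH]; ring
  have e2 : f2 = C (coeff 0 f2) + X 1 * G := by rw [← hG]; ring
  rw [hF1, e1, hf2]
  conv_lhs => rw [e2]

theorem Lead.ne_zero {F : R2} {i k : ℕ} {c : ℂ} (h : Lead F i k c) : F ≠ 0 := by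
  rintro rfl
  have h1 := h.val
  rw [map_zero, HahnSeries.leadingCoeff_zero, HahnSeries.leadingCoeff_zero] at h1
  exact h.1 h1.2.2.symm

theorem Lead.unique {F : R2} {i k i' k' : ℕ} {c c' : ℂ} (h : Lead F i k c)
    (h' : Lead F i' k' c') : i = i' ∧ k = k' ∧ c = c' := by
  have h1 := h.val
  have h2 := h'.val
  rw [h1.1, h1.2.1, h1.2.2] at h2
  exact ⟨by exact_mod_cast h2.1, by exact_mod_cast h2.2.1, h2.2.2⟩

/-- a homomorphism that multiplies the exponents by `N` and rescales. -/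
theorem Lead.map {F : R2} {i k : ℕ} {c : ℂ} (h : Lead F i k c) (α : R2 →ₐ[ℂ] R2) {N : ℕ}
    (hN : 0 < N) {ξ ζ : ℂ} (hξ : ξ ≠ 0) (hζ : ζ ≠ 0) (h0 : α (X 0) = C ξ * X 0 ^ N)
    (h1 : α (X 1) = C ζ * X 1 ^ N) : Lead (α F) (N * i) (N * k) (ξ ^ i * ζ ^ k * c) := by
  obtain ⟨hc, G, H, rfl⟩ := h
  have hC : ∀ a : ℂ, α (C a) = C a := fun a => α.commutes a
  obtain ⟨M, rfl⟩ : ∃ M, N = M + 1 := ⟨N - 1, by omega⟩
  refine ⟨mul_ne_zero (mul_ne_zero (pow_ne_zero _ hξ) (pow_ne_zero _ hζ)) hc,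
    C (ξ ^ i * ζ ^ k * ζ) * X 1 ^ M * α G, C (ξ ^ i * ξ) * X 0 ^ M * α H, ?_⟩
  rw [map_mul, map_add, map_mul, map_mul, map_add, map_mul, map_pow, map_pow, h0, h1, hC]
  simp only [map_mul, map_pow]
  ring

end Vale.Agent.P298.H416
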