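import Vale.Agent.P298.H416.Om2

/-!
# The field of fractions `Om` of `ℂ[[a, b]]`, its tower, exchange, rescaling and power maps
-/

namespace Vale.Agent.P298.H416

open MvPowerSeries H766 H701

/-- the field of fractions. -/
abbrev Om := FractionRing R2

/-- extension to the field of fractions. -/
noncomputable def liftOm {F : Type*} [Field F] (g : R2 →+* F) (hg : Function.Injective g) :
    Om →+* F := IsFractionRing.lift (A := R2) (K := Om) (L := F) hg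

theorem liftOm_alg {F : Type*} [Field F] (g : R2 →+* F) (hg : Function.Injective g) (x : R2) :
    liftOm g hg (algebraMap R2 Om x) = g x := IsFractionRing.lift_algebraMap hg x

/-- ring homomorphisms into a field, with the instances of the field. -/
abbrev FRH (A F : Type*) [CommRing A] [Field F] := A →+* F

/-- the embedding of series, retyped. -/
noncomputable def sAF : FRH R2 Lam2 := sA

theorem sAF_apply (F : R2) : sAF F = sA F := rfl

theorem sAF_injective : Function.Injective sAF := sA_injective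

/-- the embedding into iterated Laurent series. -/
noncomputable def jOm : FRH Om Lam2 := liftOm (F := Lam2) sAF sAF_injective

theorem jOm_alg' (F : R2) : jOm (algebraMap R2 Om F) = sAF F := liftOm_alg sAF sAF_injective F

theorem jOm_alg (F : R2) : jOm (algebraMap R2 Om F) = sA F := jOm_alg' F

/-- the tower on `Om`: order along `a = 0`, order in `b` of the leading coefficient. -/
noncomputable def Ta : Twr Om (LaurentSeries ℂ) :=
  lTwr.pull jOm ⟨algebraMap R2 Om (X 0), by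
    change (jOm (algebraMap R2 Om (X 0))).order = 1
    rw [jOm_alg, sA_X0, HahnSeries.order_single one_ne_zero]⟩

theorem Ta_v (z : Om) : Ta.v z = (jOm z).order := rfl

theorem Ta_lam (z : Om) : Ta.lam z = (jOm z).leadingCoeff.order := rfl

theorem Ta_lc (z : Om) : Ta.lc z = (jOm z).leadingCoeff.leadingCoeff := rfl

theorem Ta_O : Ta.O = (lO (LaurentSeries ℂ)).comap jOm := rfl

theorem Ta_P : Ta.P = lO ℂ := rfl

theorem Ta_w (z : LaurentSeries ℂ) : Ta.w z = z.order := rfl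

theorem Ta_ρ (z : Ta.O) : Ta.ρ.ρ z = (jOm z).coeff 0 := rfl

theorem Ta_lead {F : R2} {i k : ℕ} {c : ℂ} (h : Lead F i k c) :
    Ta.v (algebraMap R2 Om F) = i ∧ Ta.lam (algebraMap R2 Om F) = k ∧
      Ta.lc (algebraMap R2 Om F) = c := by
  rw [Ta_v, Ta_lam, Ta_lc, jOm_alg]
  exact h.val

theorem Ta_sA (F : R2) : H701.lam (sA F) = (Ta.v (algebraMap R2 Om F), Ta.lam (algebraMap R2 Om F)) := by
  rw [Ta_v, Ta_lam, jOm_alg]
  rfl

/-- the extension of an injective endomorphism. -/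
noncomputable def omMap (α : R2 →ₐ[ℂ] R2) (hα : Function.Injective α) : Om →+* Om :=
  IsFractionRing.lift (A := R2) (K := Om) (g := (algebraMap R2 Om).comp (α : R2 →+* R2))
    ((IsFractionRing.injective R2 Om).comp hα)

theorem omMap_alg {α : R2 →ₐ[ℂ] R2} (hα : Function.Injective α) (F : R2) :
    omMap α hα (algebraMap R2 Om F) = algebraMap R2 Om (α F) :=
  IsFractionRing.lift_algebraMap _ F

theorem om_ext {F : Type*} [Field F] {f g : Om →+* F}
    (h : ∀ x : R2, f (algebraMap R2 Om x) = g (algebraMap R2 Om x)) : f = g :=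
  IsLocalization.ringHom_ext (nonZeroDivisors R2) (RingHom.ext h)

theorem om_div (z : Om) : ∃ F G : R2, G ≠ 0 ∧ z = algebraMap R2 Om F / algebraMap R2 Om G := by
  obtain ⟨F, G, hG, h⟩ := IsFractionRing.div_surjective (A := R2) z
  exact ⟨F, G, nonZeroDivisors.ne_zero hG, h.symm⟩

theorem alg_ne {F : R2} (hF : F ≠ 0) : algebraMap R2 Om F ≠ 0 := by
  intro h
  exact hF ((IsFractionRing.injective R2 Om) (by rw [h, map_zero]))

section twr

variable {Ω k1 : Type*} [Field Ω] [Field k1] (T : Twr Ω k1)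

theorem Twr.v_div {x y : Ω} (hx : x ≠ 0) (hy : y ≠ 0) : T.v (x / y) = T.v x - T.v y :=
  T.hv.div hx hy

theorem Twr.lam_div {x y : Ω} (hx : x ≠ 0) (hy : y ≠ 0) :
    T.lam (x / y) = T.lam x - T.lam y := by
  rw [div_eq_mul_inv, T.lam_mul _ _ hx (inv_ne_zero hy), T.lam_inv hy]
  ring

theorem Twr.lc_div {x y : Ω} (hx : x ≠ 0) (hy : y ≠ 0) : T.lc (x / y) = T.lc x / T.lc y := by
  rw [eq_div_iff (T.lc_ne _ hy), ← T.lc_mul _ _ (div_ne_zero hx hy) hy, div_mul_cancel₀ _ hy]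

theorem Twr.lam_zpow {x : Ω} (hx : x ≠ 0) (n : ℤ) : T.lam (x ^ n) = n * T.lam x := by
  cases n with
  | ofNat n => rw [Int.ofNat_eq_natCast, zpow_natCast, T.lam_pow hx]
  | negSucc n =>
    rw [zpow_negSucc, T.lam_inv (pow_ne_zero _ hx), T.lam_pow hx, Int.negSucc_eq]
    push_cast
    ring

end twr

/-- the values under a homomorphism that multiplies exponents and rescales. -/
theorem omMap_val {α : R2 →ₐ[ℂ] R2} (hα : Function.Injective α) {N : ℕ} (hN : 0 < N) {ξ ζ : ℂ}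
    (hξ : ξ ≠ 0) (hζ : ζ ≠ 0) (h0 : α (X 0) = C ξ * X 0 ^ N) (h1 : α (X 1) = C ζ * X 1 ^ N)
    {z : Om} (hz : z ≠ 0) :
    Ta.v (omMap α hα z) = N * Ta.v z ∧ Ta.lam (omMap α hα z) = N * Ta.lam z ∧
      Ta.lc (omMap α hα z) = ξ ^ Ta.v z * ζ ^ Ta.lam z * Ta.lc z := by
  obtain ⟨F, G, hG, rfl⟩ := om_div z
  have hF : F ≠ 0 := by
    rintro rfl
    exact hz (by rw [map_zero, zero_div])
  obtain ⟨i, k, c, hFl⟩ := exists_lead hF
  obtain ⟨i', k', c', hGl⟩ := exists_lead hG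
  have hF' := Ta_lead hFl
  have hG' := Ta_lead hGl
  have hαF := Ta_lead (hFl.map α hN hξ hζ h0 h1)
  have hαG := Ta_lead (hGl.map α hN hξ hζ h0 h1)
  have hnF : algebraMap R2 Om F ≠ 0 := alg_ne hF
  have hnG : algebraMap R2 Om G ≠ 0 := alg_ne hG
  have hnF' : algebraMap R2 Om (α F) ≠ 0 := alg_ne ((map_ne_zero_iff α hα).2 hF)
  have hnG' : algebraMap R2 Om (α G) ≠ 0 := alg_ne ((map_ne_zero_iff α hα).2 hG)
  rw [map_div₀, omMap_alg, omMap_alg, Ta.v_div hnF' hnG', Ta.lam_div hnF' hnG',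
    Ta.lc_div hnF' hnG', Ta.v_div hnF hnG, Ta.lam_div hnF hnG, Ta.lc_div hnF hnG, hαF.1, hαG.1,
    hαF.2.1, hαG.2.1, hαF.2.2, hαG.2.2, hF'.1, hG'.1, hF'.2.1, hG'.2.1, hF'.2.2, hG'.2.2]
  refine ⟨by push_cast; ring, by push_cast; ring, ?_⟩
  have hc' : c' ≠ 0 := hGl.1
  rw [zpow_sub₀ hξ, zpow_sub₀ hζ, zpow_natCast, zpow_natCast, zpow_natCast, zpow_natCast]
  field_simp

/-! ### the maps -/

/-- exchange. -/
noncomputable def swOm : Om →+* Om := omMap sw sw_injective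

theorem swOm_swOm (z : Om) : swOm (swOm z) = z := by
  have h : swOm.comp swOm = RingHom.id Om := by
    refine om_ext fun x => ?_
    rw [RingHom.comp_apply, swOm, omMap_alg, omMap_alg, sw_sw]
    rfl
  exact DFunLike.congr_fun h z

/-- powers. -/
noncomputable def pw (N : ℕ) (hN : 0 < N) : R2 →ₐ[ℂ] R2 :=
  sub ![X 0 ^ N, X 1 ^ N] (fun i => by
    fin_cases i
    · change constantCoeff (X 0 ^ N) = 0
      rw [map_pow, constantCoeff_X, zero_pow hN.ne']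
    · change constantCoeff (X 1 ^ N) = 0
      rw [map_pow, constantCoeff_X, zero_pow hN.ne'])

theorem pw_X0 (N : ℕ) (hN : 0 < N) : pw N hN (X 0) = X 0 ^ N := sub_X _ _ 0

theorem pw_X1 (N : ℕ) (hN : 0 < N) : pw N hN (X 1) = X 1 ^ N := sub_X _ _ 1

theorem map_ne_of_lead {α : R2 →ₐ[ℂ] R2} {N : ℕ} (hN : 0 < N) {ξ ζ : ℂ}
    (hξ : ξ ≠ 0) (hζ : ζ ≠ 0) (h0 : α (X 0) = C ξ * X 0 ^ N) (h1 : α (X 1) = C ζ * X 1 ^ N) :
    Function.Injective α := by
  rw [injective_iff_map_eq_zero]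
  intro F hF
  by_contra hne
  obtain ⟨i, k, c, hl⟩ := exists_lead hne
  exact (hl.map α hN hξ hζ h0 h1).ne_zero hF

theorem pw_X0' (N : ℕ) (hN : 0 < N) : pw N hN (X 0) = C (1 : ℂ) * X 0 ^ N := by
  rw [pw_X0, map_one, one_mul]

theorem pw_X1' (N : ℕ) (hN : 0 < N) : pw N hN (X 1) = C (1 : ℂ) * X 1 ^ N := by
  rw [pw_X1, map_one, one_mul]

theorem pw_injective (N : ℕ) (hN : 0 < N) : Function.Injective (pw N hN) :=
  map_ne_of_lead hN one_ne_zero one_ne_zero (pw_X0' N hN) (pw_X1' N hN)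

/-- powers on `Om`. -/
noncomputable def pwOm (N : ℕ) (hN : 0 < N) : Om →+* Om := omMap (pw N hN) (pw_injective N hN)

theorem pwOm_val (N : ℕ) (hN : 0 < N) (z : Om) :
    Ta.v (pwOm N hN z) = N * Ta.v z ∧ Ta.lam (pwOm N hN z) = N * Ta.lam z := by
  by_cases hz : z = 0
  · rw [hz, map_zero, Ta_v, Ta_lam, map_zero, HahnSeries.leadingCoeff_zero]
    simp
  · have h := omMap_val (pw_injective N hN) hN one_ne_zero one_ne_zero (pw_X0' N hN)
      (pw_X1' N hN) hz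
    exact ⟨h.1, h.2.1⟩

theorem rsc_X0' (ξ ζ : ℂ) : rsc ξ ζ (X 0) = C ξ * X 0 ^ 1 := by
  rw [rsc_X0, smul_eq_C_mul, pow_one]

theorem rsc_X1' (ξ ζ : ℂ) : rsc ξ ζ (X 1) = C ζ * X 1 ^ 1 := by
  rw [rsc_X1, smul_eq_C_mul, pow_one]

theorem rsc_injective {ξ ζ : ℂ} (hξ : ξ ≠ 0) (hζ : ζ ≠ 0) : Function.Injective (rsc ξ ζ) :=
  map_ne_of_lead one_pos hξ hζ (rsc_X0' ξ ζ) (rsc_X1' ξ ζ)

/-- rescaling on `Om`. -/
noncomputable def rsOm (ξ ζ : ℂˣ) : Om →+* Om := omMap (rsc ξ ζ) (rsc_injective ξ.ne_zero ζ.ne_zero)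

theorem rsOm_alg (ξ ζ : ℂˣ) (F : R2) :
    rsOm ξ ζ (algebraMap R2 Om F) = algebraMap R2 Om (rsc ξ ζ F) := omMap_alg _ F

theorem rsOm_val (ξ ζ : ℂˣ) {z : Om} (hz : z ≠ 0) :
    Ta.v (rsOm ξ ζ z) = Ta.v z ∧ Ta.lam (rsOm ξ ζ z) = Ta.lam z ∧
      Ta.lc (rsOm ξ ζ z) = (ξ : ℂ) ^ Ta.v z * (ζ : ℂ) ^ Ta.lam z * Ta.lc z := by
  have h := omMap_val (rsc_injective ξ.ne_zero ζ.ne_zero) one_pos ξ.ne_zero ζ.ne_zero
    (rsc_X0' ξ ζ) (rsc_X1' ξ ζ) hz
  rw [Nat.cast_one, one_mul, one_mul] at h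
  exact h

theorem rsc_X0_eq (ξ ζ : ℂ) : rsc ξ ζ (X 0) = C ξ * X 0 := by rw [rsc_X0', pow_one]

theorem rsc_X1_eq (ξ ζ : ℂ) : rsc ξ ζ (X 1) = C ζ * X 1 := by rw [rsc_X1', pow_one]

theorem algHom_C (α : R2 →ₐ[ℂ] R2) (c : ℂ) : α (C c) = C c := α.commutes c

theorem rsOm_mul (ξ ζ ξ' ζ' : ℂˣ) (z : Om) :
    rsOm (ξ * ξ') (ζ * ζ') z = rsOm ξ ζ (rsOm ξ' ζ' z) := by
  have h0 : (rsc ((ξ * ξ' : ℂˣ) : ℂ) ((ζ * ζ' : ℂˣ) : ℂ)) =
      (rsc (ξ : ℂ) ζ).comp (rsc (ξ' : ℂ) ζ') := by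
    refine algHom_ext fun i => ?_
    fin_cases i
    · change rsc _ _ (X 0) = rsc _ _ (rsc _ _ (X 0))
      rw [rsc_X0_eq, rsc_X0_eq, map_mul, algHom_C, rsc_X0_eq, Units.val_mul, map_mul]
      ring
    · change rsc _ _ (X 1) = rsc _ _ (rsc _ _ (X 1))
      rw [rsc_X1_eq, rsc_X1_eq, map_mul, algHom_C, rsc_X1_eq, Units.val_mul, map_mul]
      ring
  have h : rsOm (ξ * ξ') (ζ * ζ') = (rsOm ξ ζ).comp (rsOm ξ' ζ') := by
    refine om_ext fun x => ?_
    rw [RingHom.comp_apply, rsOm_alg, rsOm_alg, rsOm_alg, h0]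
    rfl
  exact DFunLike.congr_fun h z

theorem rsOm_one (z : Om) : rsOm 1 1 z = z := by
  have h0 : rsc ((1 : ℂˣ) : ℂ) ((1 : ℂˣ) : ℂ) = AlgHom.id ℂ R2 := by
    refine algHom_ext fun i => ?_
    fin_cases i
    · change rsc _ _ (X 0) = X 0
      rw [rsc_X0_eq, Units.val_one, map_one, one_mul]
    · change rsc _ _ (X 1) = X 1
      rw [rsc_X1_eq, Units.val_one, map_one, one_mul]
  have h : rsOm 1 1 = RingHom.id Om := by
    refine om_ext fun x => ?_
    rw [rsOm_alg, h0]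
    rfl
  exact DFunLike.congr_fun h z

theorem rsOm_pwOm {N : ℕ} (hN : 0 < N) {ξ ζ : ℂˣ} (hξ : ξ ^ N = 1) (hζ : ζ ^ N = 1) (z : Om) :
    rsOm ξ ζ (pwOm N hN z) = pwOm N hN z := by
  have h0 : (rsc (ξ : ℂ) ζ).comp (pw N hN) = pw N hN := by
    refine algHom_ext fun i => ?_
    have e1 : ((ξ : ℂ)) ^ N = 1 := by rw [← Units.val_pow_eq_pow_val, hξ, Units.val_one]
    have e2 : ((ζ : ℂ)) ^ N = 1 := by rw [← Units.val_pow_eq_pow_val, hζ, Units.val_one]
    fin_cases i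
    · change rsc _ _ (pw N hN (X 0)) = pw N hN (X 0)
      rw [pw_X0, map_pow, rsc_X0_eq, mul_pow, ← map_pow, e1, map_one, one_mul]
    · change rsc _ _ (pw N hN (X 1)) = pw N hN (X 1)
      rw [pw_X1, map_pow, rsc_X1_eq, mul_pow, ← map_pow, e2, map_one, one_mul]
  have h : (rsOm ξ ζ).comp (pwOm N hN) = pwOm N hN := by
    refine om_ext fun x => ?_
    rw [RingHom.comp_apply, pwOm, omMap_alg, rsOm_alg]
    exact congrArg _ (DFunLike.congr_fun h0 x)
  exact DFunLike.congr_fun h z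

theorem swOm_rsOm (ξ ζ : ℂˣ) (z : Om) : swOm (rsOm ξ ζ z) = rsOm ζ ξ (swOm z) := by
  have h0 : sw.comp (rsc (ξ : ℂ) ζ) = (rsc (ζ : ℂ) ξ).comp sw := by
    refine algHom_ext fun i => ?_
    fin_cases i
    · change sw (rsc _ _ (X 0)) = rsc _ _ (sw (X 0))
      rw [rsc_X0_eq, map_mul, algHom_C, sw_X0, rsc_X1_eq]
    · change sw (rsc _ _ (X 1)) = rsc _ _ (sw (X 1))
      rw [rsc_X1_eq, map_mul, algHom_C, sw_X1, rsc_X0_eq]
  have h : swOm.comp (rsOm ξ ζ) = (rsOm ζ ξ).comp swOm := by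
    refine om_ext fun x => ?_
    rw [RingHom.comp_apply, RingHom.comp_apply, swOm, rsOm_alg, omMap_alg, omMap_alg, rsOm_alg]
    exact congrArg _ (DFunLike.congr_fun h0 x)
  exact DFunLike.congr_fun h z

theorem swOm_pwOm {N : ℕ} (hN : 0 < N) (z : Om) : swOm (pwOm N hN z) = pwOm N hN (swOm z) := by
  have h0 : sw.comp (pw N hN) = (pw N hN).comp sw := by
    refine algHom_ext fun i => ?_
    fin_cases i
    · change sw (pw N hN (X 0)) = pw N hN (sw (X 0))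
      rw [pw_X0, map_pow, sw_X0, pw_X1]
    · change sw (pw N hN (X 1)) = pw N hN (sw (X 1))
      rw [pw_X1, map_pow, sw_X1, pw_X0]
  have h : swOm.comp (pwOm N hN) = (pwOm N hN).comp swOm := by
    refine om_ext fun x => ?_
    rw [RingHom.comp_apply, RingHom.comp_apply, swOm, pwOm, omMap_alg, omMap_alg, omMap_alg,
      omMap_alg]
    exact congrArg _ (DFunLike.congr_fun h0 x)
  exact DFunLike.congr_fun h z

end Vale.Agent.P298.H416
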