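import Vale.Agent.P298.H416.Om3
import Vale.Agent.P298.H416.Count3

/-!
# The action of pairs of roots of unity on `Om`
-/

namespace Vale.Agent.P298.H416

open MvPowerSeries H766 H701

/-- pairs of roots of unity. -/
abbrev GN (N : ℕ) := rootsOfUnity N ℂ × rootsOfUnity N ℂ

/-- the pairing. -/
noncomputable def pai (ξ ζ : ℂˣ) : Multiplicative (ℤ × ℤ) →* ℂˣ where
  toFun γ := ξ ^ γ.toAdd.1 * ζ ^ γ.toAdd.2
  map_one' := by simp
  map_mul' γ γ' := by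
    simp only [toAdd_mul, Prod.fst_add, Prod.snd_add, zpow_add]
    exact mul_mul_mul_comm _ _ _ _

theorem pai_apply (ξ ζ : ℂˣ) (γ : ℤ × ℤ) :
    pai ξ ζ (Multiplicative.ofAdd γ) = ξ ^ γ.1 * ζ ^ γ.2 := rfl

theorem rsOm_alg_fix {L : Type*} [Field L] [Algebra L Om] {N : ℕ}
    (hfix : ∀ ξ ζ : ℂˣ, ξ ^ N = 1 → ζ ^ N = 1 → ∀ x : L,
      rsOm ξ ζ (algebraMap L Om x) = algebraMap L Om x) (g : GN N) (x : L) :
    rsOm (g.1 : ℂˣ) (g.2 : ℂˣ) (algebraMap L Om x) = algebraMap L Om x :=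
  hfix _ _ ((mem_rootsOfUnity _ _).1 g.1.2) ((mem_rootsOfUnity _ _).1 g.2.2) x

/-- the group action. -/
noncomputable def gAct {L : Type*} [Field L] [Algebra L Om] {N : ℕ} (hN : 0 < N)
    (hfix : ∀ ξ ζ : ℂˣ, ξ ^ N = 1 → ζ ^ N = 1 → ∀ x : L,
      rsOm ξ ζ (algebraMap L Om x) = algebraMap L Om x)
    (hnd : ∀ m m' : ℤ, ∃ x : L, x ≠ 0 ∧ Ta.v (algebraMap L Om x) = N * m ∧
      Ta.lam (algebraMap L Om x) = N * m') : GAct L Ta (GN N) where
  act :=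
    { toFun := fun g =>
        { toRingHom := rsOm (g.1 : ℂˣ) (g.2 : ℂˣ)
          commutes' := fun x => rsOm_alg_fix hfix g x }
      map_one' := AlgHom.ext fun z => rsOm_one z
      map_mul' := fun g g' => AlgHom.ext fun z => rsOm_mul _ _ _ _ z }
  χ :=
    { toFun := fun g => pai (g.1 : ℂˣ) (g.2 : ℂˣ)
      map_one' := by
        ext γ
        simp [pai]
      map_mul' := fun g g' => by
        refine MonoidHom.ext fun γ => ?_
        change ((g.1 : ℂˣ) * (g'.1 : ℂˣ)) ^ γ.toAdd.1 * ((g.2 : ℂˣ) * (g'.2 : ℂˣ)) ^ γ.toAdd.2 =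
          ((g.1 : ℂˣ) ^ γ.toAdd.1 * (g.2 : ℂˣ) ^ γ.toAdd.2) *
            ((g'.1 : ℂˣ) ^ γ.toAdd.1 * (g'.2 : ℂˣ) ^ γ.toAdd.2)
        rw [mul_zpow, mul_zpow]
        exact mul_mul_mul_comm _ _ _ _ }
  v_act g x := by
    by_cases hx : x = 0
    · rw [hx, map_zero]
    · exact (rsOm_val _ _ hx).1
  lam_act g x hx := (rsOm_val _ _ hx).2.1
  lc_act g x hx := by
    refine (rsOm_val _ _ hx).2.2.trans ?_
    change _ = (((pai (g.1 : ℂˣ) (g.2 : ℂˣ)) (Multiplicative.ofAdd (Ta.v x, Ta.lam x)) : ℂˣ) : ℂ) * _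
    rw [pai_apply, Units.val_mul, Units.val_zpow_eq_zpow_val, Units.val_zpow_eq_zpow_val]
  nondeg γ hγ := by
    have hprim := Complex.isPrimitiveRoot_exp N hN.ne'
    obtain ⟨ξ, hξ⟩ : ∃ ξ : ℂˣ, IsPrimitiveRoot ξ N :=
      ⟨(hprim.isUnit hN.ne').unit, IsPrimitiveRoot.coe_units_iff.1 hprim⟩
    have hmem : ξ ∈ rootsOfUnity N ℂ := (mem_rootsOfUnity _ _).2 hξ.pow_eq_one
    have h1 := hγ (⟨ξ, hmem⟩, 1)
    have h2 := hγ (1, ⟨ξ, hmem⟩)
    have h1' : ξ ^ γ.1 * (1 : ℂˣ) ^ γ.2 = 1 := h1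
    have h2' : (1 : ℂˣ) ^ γ.1 * ξ ^ γ.2 = 1 := h2
    rw [one_zpow, mul_one] at h1'
    rw [one_zpow, one_mul] at h2'
    obtain ⟨m, hm⟩ := (hξ.zpow_eq_one_iff_dvd _).1 h1'
    obtain ⟨m', hm'⟩ := (hξ.zpow_eq_one_iff_dvd _).1 h2'
    rw [hm, hm']
    exact hnd m m'

theorem gAct_act {L : Type*} [Field L] [Algebra L Om] {N : ℕ} (hN : 0 < N)
    (hfix : ∀ ξ ζ : ℂˣ, ξ ^ N = 1 → ζ ^ N = 1 → ∀ x : L,
      rsOm ξ ζ (algebraMap L Om x) = algebraMap L Om x)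
    (hnd : ∀ m m' : ℤ, ∃ x : L, x ≠ 0 ∧ Ta.v (algebraMap L Om x) = N * m ∧
      Ta.lam (algebraMap L Om x) = N * m') (g : GN N) (z : Om) :
    (gAct hN hfix hnd).act g z = rsOm (g.1 : ℂˣ) (g.2 : ℂˣ) z := rfl

theorem gAct_chi {L : Type*} [Field L] [Algebra L Om] {N : ℕ} (hN : 0 < N)
    (hfix : ∀ ξ ζ : ℂˣ, ξ ^ N = 1 → ζ ^ N = 1 → ∀ x : L,
      rsOm ξ ζ (algebraMap L Om x) = algebraMap L Om x)
    (hnd : ∀ m m' : ℤ, ∃ x : L, x ≠ 0 ∧ Ta.v (algebraMap L Om x) = N * m ∧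
      Ta.lam (algebraMap L Om x) = N * m') (γ : ℤ × ℤ) (g : GN N) :
    (gAct hN hfix hnd).chi γ g = (g.1 : ℂˣ) ^ γ.1 * (g.2 : ℂˣ) ^ γ.2 := rfl

/-! ### values of series -/

theorem Ta_nonneg (F : R2) :
    0 ≤ Ta.v (algebraMap R2 Om F) ∧ 0 ≤ Ta.lam (algebraMap R2 Om F) := by
  by_cases hF : F = 0
  · rw [hF, map_zero, Ta_v, Ta_lam, map_zero, HahnSeries.leadingCoeff_zero]
    simp
  · obtain ⟨i, k, c, h⟩ := exists_lead hF
    rw [(Ta_lead h).1, (Ta_lead h).2.1]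
    exact ⟨Int.natCast_nonneg _, Int.natCast_nonneg _⟩

theorem swOm_alg (F : R2) : swOm (algebraMap R2 Om F) = algebraMap R2 Om (sw F) :=
  omMap_alg _ F

/-- the other side: the order along `b = 0` is at most the order in `b` of the leading
coefficient; in the case of equality the series is a monomial times a unit. -/
theorem Ta_sw_le {F : R2} (hF : F ≠ 0) :
    Ta.v (algebraMap R2 Om (sw F)) ≤ Ta.lam (algebraMap R2 Om F) ∧
      (Ta.lam (algebraMap R2 Om F) = Ta.v (algebraMap R2 Om (sw F)) →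
        ∃ i k : ℕ, ∃ U : R2, IsUnit U ∧ F = X 0 ^ i * X 1 ^ k * U) := by
  have hsF : sw F ≠ 0 := (map_ne_zero_iff sw sw_injective).2 hF
  obtain ⟨i, k, c, h⟩ := exists_lead hF
  obtain ⟨i', k', c', h'⟩ := exists_lead hsF
  rw [(Ta_lead h).2.1, (Ta_lead h').1]
  obtain ⟨hc, G, H, hFe⟩ := h
  obtain ⟨hc', G', H', hFe'⟩ := h'
  -- `X 1 ^ i'` divides `F`
  have hdvd : (X 1 : R2) ^ i' ∣ F := by
    have h1 : (X 0 : R2) ^ i' ∣ sw F := ⟨_, hFe'⟩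
    rw [← sw_dvd_iff, map_pow, sw_X1]
    exact h1
  have hdvd0 : (X 1 : R2) ^ i' ∣ X 1 ^ k * (C c + X 1 * G) + X 0 * H := by
    rw [X_pow_dvd_iff] at hdvd ⊢
    intro m hm
    have h3 := hdvd (Finsupp.single 0 i + m) (by simpa using hm)
    rw [hFe, coeff_X_pow_mul'] at h3
    exact h3
  have hcoef : coeff (Finsupp.single 1 k) (X 1 ^ k * (C c + X 1 * G) + X 0 * H) = c := by
    have e1 : coeff (Finsupp.single 1 k) (X 1 ^ k * (C c + X 1 * G)) = c := by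
      have := coeff_X_pow_mul' 1 k 0 (C c + X 1 * G)
      rw [add_zero] at this
      rw [this, coeff_zero_eq_constantCoeff_apply, map_add, map_mul, constantCoeff_C,
        constantCoeff_X, zero_mul, add_zero]
    have e2 : coeff (Finsupp.single 1 k) (X 0 * H) = 0 := by
      have h4 : (X 0 : R2) ∣ X 0 * H := ⟨H, rfl⟩
      rw [X_dvd_iff] at h4
      exact h4 _ (by simp)
    rw [map_add, e1, e2, add_zero]
  have hle : i' ≤ k := by
    by_contra hcon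
    push Not at hcon
    rw [X_pow_dvd_iff] at hdvd0
    have := hdvd0 (Finsupp.single 1 k) (by simpa using hcon)
    rw [hcoef] at this
    exact hc this
  refine ⟨by exact_mod_cast hle, fun heq => ?_⟩
  have heq' : i' = k := by exact_mod_cast heq.symm
  obtain ⟨U, hU⟩ := hdvd0
  refine ⟨i, k, U, ?_, ?_⟩
  · rw [heq'] at hU
    have h5 := coeff_X_pow_mul' 1 k 0 U
    rw [add_zero, ← hU, hcoef] at h5
    rw [MvPowerSeries.isUnit_iff_constantCoeff, ← coeff_zero_eq_constantCoeff_apply, ← h5]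
    exact isUnit_iff_ne_zero.2 hc
  · rw [hFe, hU, heq', mul_assoc]

/-- values of a monomial times a unit. -/
theorem Ta_mono {F U : R2} {i k : ℕ} (hU : IsUnit U) (h : F = X 0 ^ i * X 1 ^ k * U) :
    Ta.v (algebraMap R2 Om F) = i ∧ Ta.lam (algebraMap R2 Om F) = k ∧
      Ta.v (algebraMap R2 Om (sw F)) = k ∧ Ta.lam (algebraMap R2 Om (sw F)) = i := by
  have h1 := lam_of_unit hU h
  have h2 : H701.lam (sA (sw F)) = ((k : ℤ), (i : ℤ)) := lamB_of_unit hU h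
  rw [Ta_sA] at h1 h2
  exact ⟨congrArg Prod.fst h1, congrArg Prod.snd h1, congrArg Prod.fst h2, congrArg Prod.snd h2⟩

end Vale.Agent.P298.H416
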