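import Vale.Agent.P298.H416.Om4
import Vale.Agent.P298.H400.Plc2

/-!
# Surfaces over the tree of charts: the abstract input and the places
-/

set_option linter.style.haveILetI false

noncomputable section

namespace Vale.Agent.P298.H416

open Vale.Agent.P298.FF Vale.Agent.P298.H400

/-- the abstract input. -/
structure Surf (L K R : Type) [Field L] [Algebra ℂ L] [Field K] [Algebra ℂ K] [Algebra L K]
    [IsScalarTower ℂ L K] [FiniteDimensional L K] [Algebra.IsSeparable L K]
    [CommRing R] [Algebra ℂ R] [Algebra R K] [IsScalarTower ℂ R K] where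
  /-- vertices. -/
  V : Type
  [fin : Fintype V]
  [dec : DecidableEq V]
  /-- the valuation rings of the vertices. -/
  W : V → ValuationSubring L
  ow : V → L → ℤ
  hW : ∀ v, NOrd (W v) (ow v)
  hC : ∀ v (c : ℂ), algebraMap ℂ L c ∈ W v
  /-- residue maps. -/
  rw : ∀ v, Res (W v) (RatFunc ℂ)
  rw_surj : ∀ v, Function.Surjective (rw v).ρ
  rw_C : ∀ v c, (rw v).ρ (cstO (hC v) c) = algebraMap ℂ (RatFunc ℂ) c
  et : ∀ v, W v
  et_X : ∀ v, (rw v).ρ (et v) = RatFunc.X
  /-- the exponent of the covering. -/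
  N : ℕ
  hN : 0 < N
  /-- the charts. -/
  θ : V × Option ℂ → (L →+* Om)
  θ_v : ∀ p x, Ta.v (θ p x) = ow p.1 x
  ev : Option ℂ → (RatFunc ℂ →+* LaurentSeries ℂ)
  ev_some : ∀ c, ev (some c) RatFunc.X = HahnSeries.C c + lb
  ev_none : ev none RatFunc.X = lb⁻¹
  ev_C : ∀ d c, ev d (algebraMap ℂ (RatFunc ℂ) c) = HahnSeries.C c
  θ_lam : ∀ p (x : W p.1), (x : L) ≠ 0 → ow p.1 x = 0 →
    Ta.lam (θ p x) = (ev p.2 ((rw p.1).ρ x)).order
  /-- nodes. -/
  nd : V × Option ℂ → Option (V × Option ℂ)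
  nd_symm : ∀ p p', nd p = some p' → nd p' = some p
  nd_ne : ∀ p p', nd p = some p' → p'.1 ≠ p.1
  nd_fin : {p | nd p ≠ none}.Finite
  θ_nd : ∀ p p', nd p = some p' → ∀ x, θ p' x = swOm (θ p x)
  ac : ∀ v, ∃ a : L, ow v a ≠ 0 ∧ {d | Ta.lam (θ (v, d) a) ≠ 0}.Finite
  split : ∀ p (g : K), ((minpoly L g).map ((pwOm N hN).comp (θ p))).Splits
  hR : ∀ p (ψ : K →+* Om), (∀ x : L, ψ (algebraMap L K x) = pwOm N hN (θ p x)) →
    ∀ h : R, ∃ F : R2, ψ (algebraMap R K h) = algebraMap R2 Om F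
  inj : Function.Injective (algebraMap R K)

attribute [instance] Surf.fin Surf.dec

namespace Surf

variable {L K R : Type} [Field L] [Algebra ℂ L] [Field K] [Algebra ℂ K] [Algebra L K]
    [IsScalarTower ℂ L K] [FiniteDimensional L K] [Algebra.IsSeparable L K]
    [CommRing R] [Algebra ℂ R] [Algebra R K] [IsScalarTower ℂ R K]
    (S : Surf L K R)

/-! ### constants and lines -/

instance alg0 (v : S.V) : Algebra ℂ (IsLocalRing.ResidueField (S.W v)) := resAlgC (S.hC v)

instance alg1 {v : S.V} (O : Ovr (S.W v) K) : Algebra ℂ (IsLocalRing.ResidueField O.val) :=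
  resAlgC (ovr_hC (S.hC v) O)

instance tow {v : S.V} (O : Ovr (S.W v) K) :
    IsScalarTower ℂ (IsLocalRing.ResidueField (S.W v)) (IsLocalRing.ResidueField O.val) :=
  res_tower (S.hC v) O

theorem line (v : S.V) : IsLine ℂ (IsLocalRing.residue (S.W v) (S.et v)) :=
  isLine_res (S.hC v) (S.rw v) (S.rw_surj v) (S.rw_C v) (S.et_X v)

instance cff0 (v : S.V) : CFF ℂ (IsLocalRing.ResidueField (S.W v)) := (S.line v).cff

instance cff1 {v : S.V} (O : Ovr (S.W v) K) : CFF ℂ (IsLocalRing.ResidueField O.val) :=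
  res_cff (S.hW v) (S.hC v) (S.cff0 v) O

instance cz0 (v : S.V) : CharZero (IsLocalRing.ResidueField (S.W v)) :=
  charZero_of_injective_algebraMap (algebraMap ℂ _).injective

instance fd1 {v : S.V} (O : Ovr (S.W v) K) :
    FiniteDimensional (IsLocalRing.ResidueField (S.W v)) (IsLocalRing.ResidueField O.val) :=
  res_finite (S.hW v) O

/-- the components. -/
abbrev I := Σ v : S.V, Ovr (S.W v) K

/-- the places. -/
abbrev Q := Σ i : S.I, Plk ℂ (IsLocalRing.ResidueField i.2.val)

instance finO (v : S.V) : Finite (Ovr (S.W v) K) := ovr_finite' K (S.hW v)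

instance finI : Finite S.I := inferInstance

/-! ### charts -/

/-- the base homomorphism of a chart, after the covering. -/
def phi (p : S.V × Option ℂ) : L →+* Om := (pwOm S.N S.hN).comp (S.θ p)

theorem phi_apply (p : S.V × Option ℂ) (x : L) : S.phi p x = pwOm S.N S.hN (S.θ p x) := rfl

theorem phi_v (p : S.V × Option ℂ) (x : L) : Ta.v (S.phi p x) = S.N * S.ow p.1 x := by
  rw [phi_apply, (pwOm_val _ _ _).1, S.θ_v]

theorem phi_lam (p : S.V × Option ℂ) (x : L) :
    Ta.lam (S.phi p x) = S.N * Ta.lam (S.θ p x) := (pwOm_val _ _ _).2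

theorem phi_O (p : S.V × Option ℂ) : Ta.O.comap (S.phi p) = S.W p.1 := by
  ext x
  rw [ValuationSubring.mem_comap, Ta.hv.mem, (S.hW p.1).mem, map_eq_zero, S.phi_v]
  have hN : (0 : ℤ) < S.N := by exact_mod_cast S.hN
  exact or_congr_right ⟨fun h => nonneg_of_mul_nonneg_right h hN, fun h => mul_nonneg hN.le h⟩

/-- units of the residue ring in the place of the chart. -/
theorem phi_mem (p : S.V × Option ℂ) (y : S.W p.1) (hy : (y : L) ≠ 0) (hy0 : S.ow p.1 y = 0) :
    resMap Ta.ρ (S.phi p) (S.phi_O p) (IsLocalRing.residue _ y) ∈ Ta.P ↔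
      0 ≤ (S.ev p.2 ((S.rw p.1).ρ y)).order := by
  have hN : (0 : ℤ) < S.N := by exact_mod_cast S.hN
  have h0 : S.phi p y ≠ 0 := by rwa [Ne, map_eq_zero]
  have hv : Ta.v (S.phi p y) = 0 := by rw [S.phi_v, hy0, mul_zero]
  rw [← S.θ_lam p y hy hy0]
  have e1 : resMap Ta.ρ (S.phi p) (S.phi_O p) (IsLocalRing.residue _ y) ∈ Ta.P ↔
      S.phi p y ∈ comp Ta.O Ta.ρ Ta.P :=
    ⟨fun h => ⟨(resPre (S.phi p) (S.phi_O p) y).2, h⟩, fun h => h.2⟩
  rw [e1, Ta.mem_comp_iff h0, hv, S.phi_lam]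
  constructor
  · rintro (h | h)
    · exact absurd h (lt_irrefl _)
    · exact nonneg_of_mul_nonneg_right h.2 hN
  · exact fun h => Or.inr ⟨rfl, mul_nonneg hN.le h⟩

theorem order_C_add_lb (c : ℂ) : (HahnSeries.C c + lb - HahnSeries.C c : LaurentSeries ℂ).order = 1 := by
  rw [add_sub_cancel_left, lb, HahnSeries.order_single one_ne_zero]

theorem ev_inv_order (d : Option ℂ) (x : RatFunc ℂ) :
    (S.ev d x⁻¹).order = -(S.ev d x).order := by
  rw [map_inv₀, order_inv']

theorem ow_of_res {v : S.V} {y : S.W v} (h : (S.rw v).ρ y ≠ 0) : (y : L) ≠ 0 ∧ S.ow v y = 0 := by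
  have h0 : (y : L) ≠ 0 := by
    intro h0
    apply h
    rw [show y = 0 from Subtype.ext h0, map_zero]
  refine ⟨h0, ?_⟩
  have h1 : 0 ≤ S.ow v y := (((S.hW v).mem _).1 y.2).resolve_left h0
  have h2 : ¬ 0 < S.ow v y := by
    rw [← (S.hW v).val_lt_one h0, ← (S.rw v).ker]
    exact h
  omega

/-- membership by the residue in the rational function field. -/
theorem phi_mem' (p : S.V × Option ℂ) (y : S.W p.1) :
    resMap Ta.ρ (S.phi p) (S.phi_O p) (IsLocalRing.residue _ y) ∈ Ta.P ↔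
      0 ≤ (S.ev p.2 ((S.rw p.1).ρ y)).order := by
  by_cases h : (S.rw p.1).ρ y = 0
  · have h1 : IsLocalRing.residue (S.W p.1) y = 0 := by
      rw [IsLocalRing.residue_eq_zero_iff, ValuationSubring.valuation_lt_one_iff,
        ← (S.rw p.1).ker]
      exact h
    rw [h1, h, map_zero, map_zero, HahnSeries.order_zero]
    exact iff_of_true (zero_mem _) le_rfl
  · obtain ⟨h1, h2⟩ := S.ow_of_res h
    exact S.phi_mem p y h1 h2

theorem rc_eq (v : S.V) (c : ℂ) : algebraMap ℂ (IsLocalRing.ResidueField (S.W v)) c =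
    IsLocalRing.residue (S.W v) (cstO (S.hC v) c) := rfl

theorem resEq_inj {v : S.V} {x y : S.W v} (h : (S.rw v).ρ x = (S.rw v).ρ y) :
    IsLocalRing.residue (S.W v) x = IsLocalRing.residue (S.W v) y := by
  rw [← sub_eq_zero, ← map_sub, IsLocalRing.residue_eq_zero_iff,
    ValuationSubring.valuation_lt_one_iff, ← (S.rw v).ker, map_sub, h, sub_self]

/-- the place of the residue field of the vertex seen by the chart. -/
theorem phi_P (p : S.V × Option ℂ) :
    Ta.P.comap (resMap Ta.ρ (S.phi p) (S.phi_O p)) = ((S.line p.1).Q p.2).1 := by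
  set P' := Ta.P.comap (resMap Ta.ρ (S.phi p) (S.phi_O p)) with hP'
  have hmem : ∀ y : S.W p.1, IsLocalRing.residue _ y ∈ P' ↔
      0 ≤ (S.ev p.2 ((S.rw p.1).ρ y)).order := fun y => by
    rw [hP', ValuationSubring.mem_comap]
    exact S.phi_mem' p y
  have hcon : ∀ c : ℂ, algebraMap ℂ (IsLocalRing.ResidueField (S.W p.1)) c ∈ P' := by
    intro c
    rw [S.rc_eq, hmem, S.rw_C, S.ev_C, HahnSeries.order_C]
  -- a lift of an element of the rational function field
  have hinv : ∀ (y : S.W p.1), (S.rw p.1).ρ y ≠ 0 →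
      0 < (S.ev p.2 ((S.rw p.1).ρ y)).order → (IsLocalRing.residue _ y)⁻¹ ∉ P' := by
    intro y hy hpos hcon
    obtain ⟨z, hz⟩ := S.rw_surj p.1 ((S.rw p.1).ρ y)⁻¹
    have h1 : (IsLocalRing.residue _ y)⁻¹ = IsLocalRing.residue (S.W p.1) z := by
      refine inv_eq_of_mul_eq_one_right ?_
      rw [← map_mul, ← map_one (IsLocalRing.residue (S.W p.1))]
      refine S.resEq_inj ?_
      rw [map_mul, hz, map_one, mul_inv_cancel₀ hy]
    rw [h1, hmem, hz, S.ev_inv_order] at hcon
    omega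
  obtain ⟨y, hy, hypos, hyQ⟩ : ∃ y : S.W p.1, (S.rw p.1).ρ y ≠ 0 ∧
      0 < (S.ev p.2 ((S.rw p.1).ρ y)).order ∧
      ∀ P : Plk ℂ (IsLocalRing.ResidueField (S.W p.1)), 0 < ord P (IsLocalRing.residue _ y) →
        P = (S.line p.1).Q p.2 := by
    obtain ⟨v, d⟩ := p
    cases d with
    | some c =>
      refine ⟨S.et v - cstO (S.hC v) c, ?_, ?_, ?_⟩
      · rw [map_sub, S.et_X, S.rw_C, sub_ne_zero]
        intro h
        have h1 := congrArg (S.ev none) h
        rw [S.ev_none, S.ev_C] at h1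
        have h2 := congrArg (fun x : LaurentSeries ℂ => x.order) h1
        simp only [order_inv', HahnSeries.order_C] at h2
        rw [lb, HahnSeries.order_single one_ne_zero] at h2
        omega
      · rw [map_sub, S.et_X, S.rw_C, map_sub, S.ev_some, S.ev_C]
        rw [order_C_add_lb]
        exact one_pos
      · intro P hP
        refine (S.line v).eq_some ?_
        rw [map_sub] at hP
        exact hP
    | none =>
      obtain ⟨z, hz⟩ := S.rw_surj v RatFunc.X⁻¹
      have hX : (RatFunc.X : RatFunc ℂ) ≠ 0 := RatFunc.X_ne_zero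
      refine ⟨z, ?_, ?_, ?_⟩
      · rw [hz]
        exact inv_ne_zero hX
      · rw [hz, S.ev_inv_order, S.ev_none, order_inv', neg_neg, lb,
          HahnSeries.order_single one_ne_zero]
        exact one_pos
      · intro P hP
        refine (S.line v).eq_none ?_
        have h1 : (IsLocalRing.residue (S.W v) z) = (IsLocalRing.residue (S.W v) (S.et v))⁻¹ := by
          refine (inv_eq_of_mul_eq_one_right ?_).symm
          rw [← map_mul, ← map_one (IsLocalRing.residue (S.W v))]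
          refine S.resEq_inj ?_
          rw [map_mul, hz, map_one, S.et_X, mul_inv_cancel₀ hX]
        rw [h1, ord_inv] at hP
        omega
  have hne : P' ≠ ⊤ := by
    intro h
    apply hinv y hy hypos
    rw [h]
    exact ValuationSubring.mem_top _
  obtain ⟨d, hd⟩ := (S.line p.1).exists_Q P' hcon hne
  have h1 : (S.line p.1).Q d = (S.line p.1).Q p.2 := by
    apply hyQ
    have h2 := hinv y hy hypos
    rw [← hd, mem_iff_ord, ord_inv, not_or] at h2
    omega
  rw [← hd, h1]

end Surf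

end Vale.Agent.P298.H416
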