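import Vale.Agent.P298.H416.Surf1

/-!
# Embeddings and places of a surface
-/

set_option linter.style.haveILetI false

noncomputable section

namespace Vale.Agent.P298.H416

open Vale.Agent.P298.FF Vale.Agent.P298.H400

namespace Surf

variable {L K R : Type} [Field L] [Algebra ℂ L] [Field K] [Algebra ℂ K] [Algebra L K]
    [IsScalarTower ℂ L K] [FiniteDimensional L K] [Algebra.IsSeparable L K]
    [CommRing R] [Algebra ℂ R] [Algebra R K] [IsScalarTower ℂ R K]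
    (S : Surf L K R)

/-- an embedding over a chart. -/
@[ext]
structure Emb (p : S.V × Option ℂ) where
  /-- the homomorphism -/
  f : K →+* Om
  comm : ∀ x : L, f (algebraMap L K x) = S.phi p x

/-- the algebra structure of a chart. -/
@[reducible] def alg (p : S.V × Option ℂ) : Algebra L Om := (S.phi p).toAlgebra

variable {S}

/-- as an algebra homomorphism. -/
def Emb.hom {p : S.V × Option ℂ} (ψ : S.Emb p) : letI := S.alg p; K →ₐ[L] Om :=
  letI := S.alg p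
  { toRingHom := ψ.f, commutes' := ψ.comm }

theorem Emb.hom_coe {p : S.V × Option ℂ} (ψ : S.Emb p) :
    letI := S.alg p; (ψ.hom : K →+* Om) = ψ.f := rfl

/-- from an algebra homomorphism. -/
def ofHom {p : S.V × Option ℂ} (ψ : letI := S.alg p; K →ₐ[L] Om) : S.Emb p :=
  letI := S.alg p
  { f := (ψ : K →+* Om), comm := ψ.commutes }

/-- the embedding sees the place. -/
def SeesP {v : S.V} {d : Option ℂ} (ψ : S.Emb (v, d)) (O : Ovr (S.W v) K)
    (P : Plk ℂ (IsLocalRing.ResidueField O.val)) : Prop :=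
  ∃ h : Ta.O.comap ψ.f = O.val, Ta.P.comap (resMap Ta.ρ ψ.f h) = P.1

/-- the pair of a place. -/
def toPrs {v : S.V} {d : Option ℂ} (O : Ovr (S.W v) K)
    (P : Plk ℂ (IsLocalRing.ResidueField O.val))
    (h : P.1.comap (algebraMap (IsLocalRing.ResidueField (S.W v)) _) = ((S.line v).Q d).1) :
    Prs K ((S.line v).Q d).1 := ⟨O, ⟨P.1, h⟩⟩

theorem SeesP.down {v : S.V} {d : Option ℂ} {ψ : S.Emb (v, d)} {O : Ovr (S.W v) K}
    {P : Plk ℂ (IsLocalRing.ResidueField O.val)} (h : SeesP ψ O P) :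
    P.1.comap (algebraMap (IsLocalRing.ResidueField (S.W v)) (IsLocalRing.ResidueField O.val)) =
      ((S.line v).Q d).1 := by
  obtain ⟨h1, h2⟩ := h
  rw [← h2, ← S.phi_P (v, d)]
  ext x
  obtain ⟨y, rfl⟩ := IsLocalRing.residue_surjective x
  rw [ValuationSubring.mem_comap, ValuationSubring.mem_comap, ValuationSubring.mem_comap,
    resAlg_residue, resMap_residue, resMap_residue]
  refine iff_of_eq (congrArg (· ∈ Ta.P) (congrArg Ta.ρ.ρ (Subtype.ext ?_)))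
  exact ψ.comm y

theorem SeesP.down' {v : S.V} {d : Option ℂ} {ψ : S.Emb (v, d)} {O : Ovr (S.W v) K}
    {P : Plk ℂ (IsLocalRing.ResidueField O.val)} (h : SeesP ψ O P) :
    H400.down (κ0 := IsLocalRing.ResidueField (S.W v)) P = (S.line v).Q d :=
  Subtype.ext h.down

theorem SeesP.sees {v : S.V} {d : Option ℂ} {ψ : S.Emb (v, d)} {O : Ovr (S.W v) K}
    {P : Plk ℂ (IsLocalRing.ResidueField O.val)} (h : SeesP ψ O P) :
    letI := S.alg (v, d)
    Sees Ta ψ.hom (toPrs O P h.down) := h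

theorem seesP_of {v : S.V} {d : Option ℂ} {ψ : S.Emb (v, d)} {t : Prs K ((S.line v).Q d).1}
    (h : letI := S.alg (v, d); Sees Ta ψ.hom t) : SeesP ψ t.1 (up t.2) := h

/-- every embedding sees a place. -/
theorem exists_seesP {v : S.V} {d : Option ℂ} (ψ : S.Emb (v, d)) :
    ∃ (O : Ovr (S.W v) K) (P : Plk ℂ (IsLocalRing.ResidueField O.val)), SeesP ψ O P := by
  letI := S.alg (v, d)
  obtain ⟨t, ht⟩ := exists_sees (T := Ta) (Q := ((S.line v).Q d).1) (S.phi_O (v, d))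
    (S.phi_P (v, d)) ψ.hom
  exact ⟨t.1, up t.2, seesP_of ht⟩

/-- every place is seen. -/
theorem exists_emb {v : S.V} (O : Ovr (S.W v) K) (P : Plk ℂ (IsLocalRing.ResidueField O.val)) :
    ∃ (d : Option ℂ) (ψ : S.Emb (v, d)), SeesP ψ O P := by
  obtain ⟨d, hd⟩ := (S.line v).surj (H400.down (κ0 := IsLocalRing.ResidueField (S.W v)) P)
  letI := S.alg (v, d)
  have hd' : P.1.comap (algebraMap (IsLocalRing.ResidueField (S.W v))
      (IsLocalRing.ResidueField O.val)) = ((S.line v).Q d).1 := by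
    rw [hd]
    rfl
  obtain ⟨ψ, hψ⟩ := exists_sees' (T := Ta) (Q := ((S.line v).Q d).1) (S.split (v, d))
    (S.phi_O (v, d)) (S.phi_P (v, d)) (toPrs O P hd')
  exact ⟨d, ofHom ψ, hψ⟩

variable (S)

/-- the point of the line under a place. -/
def dof (q : S.Q) : Option ℂ := (exists_emb q.1.2 q.2).choose

/-- the chart of a place. -/
def cht (q : S.Q) : S.V × Option ℂ := (q.1.1, S.dof q)

/-- the embedding of a place. -/
def psq (q : S.Q) : S.Emb (S.cht q) := (exists_emb q.1.2 q.2).choose_spec.choose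

theorem psq_sees (q : S.Q) : SeesP (S.psq q) q.1.2 q.2 :=
  (exists_emb q.1.2 q.2).choose_spec.choose_spec

variable {S}

/-- the place of an embedding. -/
def pl {p : S.V × Option ℂ} (ψ : S.Emb p) : S.Q :=
  ⟨⟨p.1, (exists_seesP (v := p.1) (d := p.2) ψ).choose⟩,
    (exists_seesP (v := p.1) (d := p.2) ψ).choose_spec.choose⟩

theorem pl_sees {p : S.V × Option ℂ} (ψ : S.Emb p) :
    SeesP (v := p.1) (d := p.2) ψ (pl ψ).1.2 (pl ψ).2 :=
  (exists_seesP (v := p.1) (d := p.2) ψ).choose_spec.choose_spec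

theorem pl_fst {p : S.V × Option ℂ} (ψ : S.Emb p) : (pl ψ).1.1 = p.1 := rfl

theorem SeesP.unique {v : S.V} {d : Option ℂ} {ψ : S.Emb (v, d)} {O O' : Ovr (S.W v) K}
    {P : Plk ℂ (IsLocalRing.ResidueField O.val)} {P' : Plk ℂ (IsLocalRing.ResidueField O'.val)}
    (h : SeesP ψ O P) (h' : SeesP ψ O' P') :
    (⟨⟨v, O⟩, P⟩ : S.Q) = ⟨⟨v, O'⟩, P'⟩ := by
  obtain ⟨h1, h2⟩ := h
  obtain ⟨h1', h2'⟩ := h'
  have h3 : O = O' := Ovr.ext (h1.symm.trans h1')
  subst h3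
  have h4 : P = P' := Subtype.ext (h2.symm.trans h2')
  rw [h4]

theorem SeesP.pl_eq {v : S.V} {d : Option ℂ} {ψ : S.Emb (v, d)} {O : Ovr (S.W v) K}
    {P : Plk ℂ (IsLocalRing.ResidueField O.val)} (h : SeesP ψ O P) :
    pl ψ = ⟨⟨v, O⟩, P⟩ := (pl_sees ψ).unique h

theorem pl_psq (q : S.Q) : pl (S.psq q) = q := (S.psq_sees q).pl_eq

theorem SeesP.dof_eq {v : S.V} {d : Option ℂ} {ψ : S.Emb (v, d)} {O : Ovr (S.W v) K}
    {P : Plk ℂ (IsLocalRing.ResidueField O.val)} (h : SeesP ψ O P) :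
    S.dof ⟨⟨v, O⟩, P⟩ = d := by
  have h1 := (S.psq_sees ⟨⟨v, O⟩, P⟩).down'
  have h2 := h.down'
  exact (S.line v).inj (h1.symm.trans h2)

theorem dof_pl {p : S.V × Option ℂ} (ψ : S.Emb p) : S.dof (pl ψ) = p.2 :=
  SeesP.dof_eq (v := p.1) (d := p.2) (pl_sees ψ)

theorem cht_pl {p : S.V × Option ℂ} (ψ : S.Emb p) : S.cht (pl ψ) = p :=
  Prod.ext rfl (dof_pl ψ)

/-! ### the group -/

theorem exists_unif_chart (p : S.V × Option ℂ) :
    (∃ x : L, x ≠ 0 ∧ S.ow p.1 x = 1) ∧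
    ∃ x : L, x ≠ 0 ∧ S.ow p.1 x = 0 ∧ Ta.lam (S.θ p x) = 1 := by
  constructor
  · obtain ⟨x, hx⟩ := (S.hW p.1).one
    exact ⟨x, by rintro rfl; rw [(S.hW p.1).zero] at hx; omega, hx⟩
  · obtain ⟨r, hr, hr1⟩ : ∃ r : RatFunc ℂ, r ≠ 0 ∧ (S.ev p.2 r).order = 1 := by
      obtain ⟨v, d⟩ := p
      cases d with
      | some c =>
        have h1 : (S.ev (some c) (RatFunc.X - algebraMap ℂ (RatFunc ℂ) c)).order = 1 := by
          rw [map_sub, S.ev_some, S.ev_C, order_C_add_lb]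
        refine ⟨_, ?_, h1⟩
        intro h
        rw [h, map_zero, HahnSeries.order_zero] at h1
        omega
      | none =>
        refine ⟨RatFunc.X⁻¹, inv_ne_zero RatFunc.X_ne_zero, ?_⟩
        rw [S.ev_inv_order, S.ev_none, order_inv', neg_neg, lb,
          HahnSeries.order_single one_ne_zero]
    obtain ⟨y, hy⟩ := S.rw_surj p.1 r
    obtain ⟨h1, h2⟩ := S.ow_of_res (y := y) (by rw [hy]; exact hr)
    exact ⟨y, h1, h2, by rw [S.θ_lam p y h1 h2, hy, hr1]⟩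

theorem phi_nd (p : S.V × Option ℂ) (m m' : ℤ) : ∃ x : L, x ≠ 0 ∧ Ta.v (S.phi p x) = S.N * m ∧
    Ta.lam (S.phi p x) = S.N * m' := by
  obtain ⟨⟨a, ha, ha1⟩, ⟨b, hb, hb0, hb1⟩⟩ := exists_unif_chart p
  have ha' : S.θ p a ≠ 0 := by rwa [Ne, map_eq_zero]
  have hb' : S.θ p b ≠ 0 := by rwa [Ne, map_eq_zero]
  refine ⟨a ^ m * b ^ (m' - m * Ta.lam (S.θ p a)), mul_ne_zero (zpow_ne_zero _ ha)
    (zpow_ne_zero _ hb), ?_, ?_⟩
  · rw [S.phi_v, (S.hW p.1).mul _ _ (zpow_ne_zero _ ha) (zpow_ne_zero _ hb), (S.hW p.1).zpow,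
      (S.hW p.1).zpow, ha1, hb0]
    ring
  · rw [S.phi_lam, map_mul, map_zpow₀, map_zpow₀, Ta.lam_mul _ _ (zpow_ne_zero _ ha')
      (zpow_ne_zero _ hb'), Ta.lam_zpow ha', Ta.lam_zpow hb', hb1]
    ring

theorem phi_fix (p : S.V × Option ℂ) {ξ ζ : ℂˣ} (hξ : ξ ^ S.N = 1) (hζ : ζ ^ S.N = 1) (x : L) :
    rsOm ξ ζ (S.phi p x) = S.phi p x := rsOm_pwOm S.hN hξ hζ _

/-- the action at a chart. -/
def gA (p : S.V × Option ℂ) : letI := S.alg p; GAct L Ta (GN S.N) :=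
  letI := S.alg p
  gAct S.hN (fun _ _ hξ hζ x => phi_fix p hξ hζ x) (phi_nd p)

instance gnFinite : Finite (GN S.N) := by
  have : NeZero S.N := ⟨S.hN.ne'⟩
  infer_instance

/-- rescaling of an embedding. -/
def Emb.rs {p : S.V × Option ℂ} (ψ : S.Emb p) {ξ ζ : ℂˣ} (hξ : ξ ^ S.N = 1) (hζ : ζ ^ S.N = 1) :
    S.Emb p where
  f := (rsOm ξ ζ).comp ψ.f
  comm := fun x => by
    rw [RingHom.comp_apply, ψ.comm, phi_fix p hξ hζ]

instance acQ (v : S.V) (P : Plk ℂ (IsLocalRing.ResidueField (S.W v))) :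
    IsAlgClosed (IsLocalRing.ResidueField P.1) := residue_isAlgClosed P

/-- **two embeddings over a chart see the same place iff they are conjugate.** -/
theorem pl_eq_iff {p : S.V × Option ℂ} (ψ ψ' : S.Emb p) :
    pl ψ = pl ψ' ↔ ∃ ξ ζ : ℂˣ, ξ ^ S.N = 1 ∧ ζ ^ S.N = 1 ∧ ∀ z, ψ'.f z = rsOm ξ ζ (ψ.f z) := by
  obtain ⟨v, d⟩ := p
  letI := S.alg (v, d)
  constructor
  · intro h
    have h1 : SeesP ψ (pl ψ).1.2 (pl ψ).2 := pl_sees ψ
    have h2 : SeesP ψ' (pl ψ').1.2 (pl ψ').2 := pl_sees ψ'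
    have h3 : ∀ (q : S.Q) (hv : q.1.1 = v), q = pl ψ' → SeesP ψ' (hv ▸ q.1.2) (by
        subst hv; exact q.2) := by
      rintro q hv rfl
      exact h2
    have h4 : SeesP ψ' (pl ψ).1.2 (pl ψ).2 := h3 _ rfl h
    obtain ⟨g, hg⟩ := (count (S.split (v, d)) (S.hW v) (plk_nord ((S.line v).Q d))
      (S.phi_O (v, d)) (S.phi_P (v, d)) (gA (S := S) (v, d)) h1.sees).2 ψ'.hom h4.sees
    refine ⟨g.1, g.2, (mem_rootsOfUnity _ _).1 g.1.2, (mem_rootsOfUnity _ _).1 g.2.2,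
      fun z => ?_⟩
    exact (DFunLike.congr_fun hg z).symm
  · rintro ⟨ξ, ζ, hξ, hζ, h⟩
    have h1 : SeesP ψ (pl ψ).1.2 (pl ψ).2 := pl_sees ψ
    have h2 := sees_of (ψ' := ψ'.hom) h1.sees (fun x => by
      by_cases hx : x = 0
      · rw [hx, map_zero, map_zero]
      · change Ta.v (ψ'.f x) = Ta.v (ψ.f x)
        rw [h]
        exact (rsOm_val ξ ζ (by rwa [Ne, map_eq_zero])).1) (fun x hx => by
        change Ta.lam (ψ'.f x) = Ta.lam (ψ.f x)
        rw [h]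
        exact (rsOm_val ξ ζ (by rwa [Ne, map_eq_zero])).2.1)
    have h3 : SeesP ψ' (pl ψ).1.2 (pl ψ).2 := h2
    exact h3.pl_eq.symm

end Surf

end Vale.Agent.P298.H416
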