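import Vale.Agent.P298.H416.Surf2

/-!
# The orders and the partners of the places of a surface
-/

set_option linter.style.haveILetI false

noncomputable section

namespace Vale.Agent.P298.H416

open Vale.Agent.P298.FF Vale.Agent.P298.H400

namespace Surf

variable {L K R : Type} [Field L] [Algebra ℂ L] [Field K] [Algebra ℂ K] [Algebra L K]
    [IsScalarTower ℂ L K] [FiniteDimensional L K] [Algebra.IsSeparable L K]
    [CommRing R] [Algebra ℂ R] [Algebra R K] [IsScalarTower ℂ R K]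
    (S : Surf L K R)

theorem exists_isE {v : S.V} (O : Ovr (S.W v) K) : ∃ e : ℕ, IsE O (S.ow v) e := by
  let _ : Fintype (Ovr (S.W v) K) := Fintype.ofFinite _
  obtain ⟨e, he, -⟩ := exists_fund K (S.hW v)
  exact ⟨e O, he O⟩

/-- ramification over the vertex. -/
def ram (i : S.I) : ℕ := (S.exists_isE i.2).choose

theorem ram_pos (i : S.I) : 0 < S.ram i := (S.exists_isE i.2).choose_spec.1

/-- the normalised order of a component. -/
def vv (i : S.I) : K → ℤ := (S.exists_isE i.2).choose_spec.2.choose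

theorem hvv (i : S.I) : NOrd i.2.val (S.vv i) := (S.exists_isE i.2).choose_spec.2.choose_spec.1

theorem vv_alg (i : S.I) (x : L) : S.vv i (algebraMap L K x) = S.ram i * S.ow i.1 x :=
  (S.exists_isE i.2).choose_spec.2.choose_spec.2 x

variable {S}

theorem SeesP.ords {v : S.V} {d : Option ℂ} {ψ : S.Emb (v, d)} {O : Ovr (S.W v) K}
    {P : Plk ℂ (IsLocalRing.ResidueField O.val)} (h : SeesP ψ O P) :
    ∃ κ κ' : ℤ, 0 < κ ∧ 0 < κ' ∧ (∀ x, Ta.v (ψ.f x) = κ * S.vv ⟨v, O⟩ x) ∧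
      ∀ z : O.val, (z : K) ≠ 0 → S.vv ⟨v, O⟩ z = 0 →
        Ta.lam (ψ.f z) = κ' * ord P (IsLocalRing.residue _ z) := by
  letI := S.alg (v, d)
  exact h.sees.ords (S.hvv ⟨v, O⟩) (plk_nord P)

variable (S)

theorem exists_ords (q : S.Q) : ∃ κ κ' : ℤ, 0 < κ ∧ 0 < κ' ∧
    (∀ x, Ta.v ((S.psq q).f x) = κ * S.vv q.1 x) ∧
      ∀ z : q.1.2.val, (z : K) ≠ 0 → S.vv q.1 z = 0 →
        Ta.lam ((S.psq q).f z) = κ' * ord q.2 (IsLocalRing.residue _ z) := (S.psq_sees q).ords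

/-- the order along the curve of the chart is `ka` times the normalised order. -/
def ka (q : S.Q) : ℤ := (S.exists_ords q).choose

/-- the order of the second coordinate is `e1` times the order at the place. -/
def e1 (q : S.Q) : ℤ := (S.exists_ords q).choose_spec.choose

theorem ka_pos (q : S.Q) : 0 < S.ka q := (S.exists_ords q).choose_spec.choose_spec.1

theorem e1_pos (q : S.Q) : 0 < S.e1 q := (S.exists_ords q).choose_spec.choose_spec.2.1

theorem psq_v (q : S.Q) (x : K) : Ta.v ((S.psq q).f x) = S.ka q * S.vv q.1 x :=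
  (S.exists_ords q).choose_spec.choose_spec.2.2.1 x

/-- the second order. -/
def lam (q : S.Q) (z : K) : ℤ := Ta.lam ((S.psq q).f z)

theorem lam_res (q : S.Q) (z : q.1.2.val) (hz : (z : K) ≠ 0) (h0 : S.vv q.1 z = 0) :
    S.lam q z = S.e1 q * ord q.2 (IsLocalRing.residue _ z) :=
  (S.exists_ords q).choose_spec.choose_spec.2.2.2 z hz h0

theorem lam_mul (q : S.Q) (z w : K) (hz : z ≠ 0) (hw : w ≠ 0) :
    S.lam q (z * w) = S.lam q z + S.lam q w := by
  rw [lam, map_mul]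
  exact Ta.lam_mul _ _ (by rwa [Ne, map_eq_zero]) (by rwa [Ne, map_eq_zero])

theorem lam_one (q : S.Q) : S.lam q 1 = 0 := by
  rw [lam, map_one]
  exact Ta.lam_one

theorem lam_inv (q : S.Q) (z : K) (hz : z ≠ 0) : S.lam q z⁻¹ = -S.lam q z := by
  rw [lam, map_inv₀]
  exact Ta.lam_inv (by rwa [Ne, map_eq_zero])

/-- the group of second orders. -/
def lamG (q : S.Q) : AddSubgroup ℤ where
  carrier := {n | ∃ z : K, z ≠ 0 ∧ S.lam q z = n}
  zero_mem' := ⟨1, one_ne_zero, S.lam_one q⟩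
  add_mem' := by
    rintro _ _ ⟨z, hz, rfl⟩ ⟨w, hw, rfl⟩
    exact ⟨z * w, mul_ne_zero hz hw, S.lam_mul q z w hz hw⟩
  neg_mem' := by
    rintro _ ⟨z, hz, rfl⟩
    exact ⟨z⁻¹, inv_ne_zero hz, S.lam_inv q z hz⟩

/-- the generator of the second orders. -/
def e2 (q : S.Q) : ℤ := |(Int.subgroup_cyclic (S.lamG q)).choose|

theorem mem_lamG (q : S.Q) (n : ℤ) : (∃ z : K, z ≠ 0 ∧ S.lam q z = n) ↔ S.e2 q ∣ n := by
  have h := (Int.subgroup_cyclic (S.lamG q)).choose_spec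
  have h1 : n ∈ S.lamG q ↔ S.e2 q ∣ n := by
    rw [h, AddSubgroup.mem_closure_singleton, e2, abs_dvd]
    constructor
    · rintro ⟨m, rfl⟩
      exact ⟨m, by rw [smul_eq_mul, mul_comm]⟩
    · rintro ⟨m, hm⟩
      exact ⟨m, by rw [smul_eq_mul, mul_comm, ← hm]⟩
  exact h1

theorem e2_dvd (q : S.Q) (z : K) (hz : z ≠ 0) : S.e2 q ∣ S.lam q z :=
  (S.mem_lamG q _).1 ⟨z, hz, rfl⟩

variable {S}

/-- transport. -/
theorem Emb.cast {p p' : S.V × Option ℂ} (h : p' = p) (χ : S.Emb p') :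
    ∃ χ' : S.Emb p, χ'.f = χ.f ∧ pl χ' = pl χ := by
  subst h
  exact ⟨χ, rfl, rfl⟩

theorem exists_conj {p : S.V × Option ℂ} (ψ : S.Emb p) : ∃ ξ ζ : ℂˣ, ξ ^ S.N = 1 ∧
    ζ ^ S.N = 1 ∧ ∀ z, (S.psq (pl ψ)).f z = rsOm ξ ζ (ψ.f z) := by
  obtain ⟨χ, hχ, hχ'⟩ := Emb.cast (cht_pl ψ) (S.psq (pl ψ))
  rw [pl_psq] at hχ'
  obtain ⟨ξ, ζ, hξ, hζ, h⟩ := (pl_eq_iff ψ χ).1 hχ'.symm
  exact ⟨ξ, ζ, hξ, hζ, fun z => by rw [← hχ, h]⟩

/-- the orders by any embedding that sees the place. -/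
theorem pl_lam {p : S.V × Option ℂ} (ψ : S.Emb p) (z : K) :
    Ta.lam (ψ.f z) = S.lam (pl ψ) z := by
  obtain ⟨ξ, ζ, -, -, h⟩ := exists_conj ψ
  rw [lam, h]
  by_cases hz : z = 0
  · rw [hz, map_zero, map_zero]
  · exact (rsOm_val ξ ζ (by rwa [Ne, map_eq_zero])).2.1.symm

theorem pl_v {p : S.V × Option ℂ} (ψ : S.Emb p) (z : K) :
    Ta.v (ψ.f z) = S.ka (pl ψ) * S.vv (pl ψ).1 z := by
  obtain ⟨ξ, ζ, -, -, h⟩ := exists_conj ψ
  rw [← S.psq_v, h]
  by_cases hz : z = 0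
  · rw [hz, map_zero, map_zero]
  · exact (rsOm_val ξ ζ (by rwa [Ne, map_eq_zero])).1.symm

/-! ### partners -/

theorem phi_swap {p p' : S.V × Option ℂ} (h : S.nd p = some p') (x : L) :
    swOm (S.phi p x) = S.phi p' x := by
  rw [phi_apply, phi_apply, swOm_pwOm, S.θ_nd p p' h]

/-- the exchanged embedding over the partner chart. -/
def Emb.swE {p p' : S.V × Option ℂ} (ψ : S.Emb p) (h : S.nd p = some p') : S.Emb p' where
  f := swOm.comp ψ.f
  comm := fun x => by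
    rw [RingHom.comp_apply, ψ.comm, phi_swap h]

theorem Emb.swE_f {p p' : S.V × Option ℂ} (ψ : S.Emb p) (h : S.nd p = some p') (z : K) :
    (ψ.swE h).f z = swOm (ψ.f z) := rfl

theorem pl_swE {p p' : S.V × Option ℂ} {ψ χ : S.Emb p} (h : S.nd p = some p')
    (he : pl ψ = pl χ) : pl (ψ.swE h) = pl (χ.swE h) := by
  obtain ⟨ξ, ζ, hξ, hζ, hz⟩ := (pl_eq_iff ψ χ).1 he
  exact (pl_eq_iff _ _).2 ⟨ζ, ξ, hζ, hξ, fun z => by
    rw [Emb.swE_f, Emb.swE_f, hz, swOm_rsOm]⟩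

variable (S)

/-- the partner of a place. -/
def nb (q : S.Q) : Option S.Q :=
  match h : S.nd (S.cht q) with
  | none => none
  | some _ => some (pl ((S.psq q).swE h))

variable {S}

theorem nb_some {q : S.Q} {p' : S.V × Option ℂ} (h : S.nd (S.cht q) = some p') :
    S.nb q = some (pl ((S.psq q).swE h)) := by
  unfold nb
  split
  · next h' => rw [h] at h'; exact absurd h' (by simp)
  · next p'' h' =>
    have : p' = p'' := Option.some.inj (h.symm.trans h')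
    subst this
    rfl

theorem nb_none {q : S.Q} (h : S.nd (S.cht q) = none) : S.nb q = none := by
  unfold nb
  split
  · rfl
  · next p'' h' => rw [h] at h'; exact absurd h' (by simp)

theorem nb_pl {p p' : S.V × Option ℂ} (ψ : S.Emb p) (h : S.nd p = some p') :
    S.nb (pl ψ) = some (pl (ψ.swE h)) := by
  have h1 : S.nd (S.cht (pl ψ)) = some p' := by rw [cht_pl]; exact h
  rw [nb_some h1]
  have key : ∀ (p₁ : S.V × Option ℂ) (hp : p₁ = p) (χ : S.Emb p₁) (h₁ : S.nd p₁ = some p'),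
      pl χ = pl ψ → pl (χ.swE h₁) = pl (ψ.swE h) := by
    intro p₁ hp χ h₁ he
    subst hp
    exact pl_swE h he
  exact congrArg some (key _ (cht_pl ψ) _ h1 (pl_psq _))

theorem nb_pl_none {p : S.V × Option ℂ} (ψ : S.Emb p) (h : S.nd p = none) :
    S.nb (pl ψ) = none := nb_none (by rw [cht_pl]; exact h)

/-- every place comes from an embedding. -/
theorem exists_pl (q : S.Q) : ∃ (p : S.V × Option ℂ) (ψ : S.Emb p), pl ψ = q ∧ p.1 = q.1.1 :=
  ⟨_, S.psq q, pl_psq q, rfl⟩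

end Surf

end Vale.Agent.P298.H416
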