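import Vale.Agent.P298.H416.Surf3

/-!
# The lattices at the nodes of a surface
-/

set_option linter.style.haveILetI false

noncomputable section

namespace Vale.Agent.P298.H416

open Vale.Agent.P298.FF Vale.Agent.P298.H400

namespace Surf

variable {L K R : Type} [Field L] [Algebra ℂ L] [Field K] [Algebra ℂ K] [Algebra L K]
    [IsScalarTower ℂ L K] [FiniteDimensional L K] [Algebra.IsSeparable L K]
    [CommRing R] [Algebra ℂ R] [Algebra R K] [IsScalarTower ℂ R K]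
    {S : Surf L K R}

/-- **the value lattice of an embedding is the annihilator of its stabiliser.** -/
theorem lattice_iff {p : S.V × Option ℂ} (ψ : S.Emb p) (a b : ℤ) :
    (∃ z : K, z ≠ 0 ∧ Ta.v (ψ.f z) = a ∧ Ta.lam (ψ.f z) = b) ↔
      ∀ ξ ζ : ℂˣ, ξ ^ S.N = 1 → ζ ^ S.N = 1 → (∀ z, rsOm ξ ζ (ψ.f z) = ψ.f z) →
        ξ ^ a * ζ ^ b = 1 := by
  obtain ⟨v, d⟩ := p
  letI := S.alg (v, d)
  have h := value_lattice (S.split (v, d)) (S.hW v) (plk_nord ((S.line v).Q d))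
    (S.phi_O (v, d)) (S.phi_P (v, d)) (gA (S := S) (v, d)) ψ.hom (a, b)
  refine h.trans ⟨fun h1 ξ ζ hξ hζ hz => ?_, fun h1 g hg => ?_⟩
  · exact h1 (⟨ξ, (mem_rootsOfUnity _ _).2 hξ⟩, ⟨ζ, (mem_rootsOfUnity _ _).2 hζ⟩)
      (GAct.mem_stab.2 (AlgHom.ext hz))
  · exact h1 g.1 g.2 ((mem_rootsOfUnity _ _).1 g.1.2) ((mem_rootsOfUnity _ _).1 g.2.2)
      (fun z => DFunLike.congr_fun (GAct.mem_stab.1 hg) z)

theorem swOm_injective : Function.Injective swOm := swOm.injective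

/-- the lattices of the two ends of a node. -/
theorem lattice_swE {p p' : S.V × Option ℂ} (ψ : S.Emb p) (h : S.nd p = some p') (a b : ℤ) :
    (∃ z : K, z ≠ 0 ∧ Ta.v ((ψ.swE h).f z) = b ∧ Ta.lam ((ψ.swE h).f z) = a) ↔
      ∃ z : K, z ≠ 0 ∧ Ta.v (ψ.f z) = a ∧ Ta.lam (ψ.f z) = b := by
  rw [lattice_iff, lattice_iff]
  constructor
  · intro h1 ξ ζ hξ hζ hz
    rw [mul_comm]
    refine h1 ζ ξ hζ hξ fun z => ?_
    rw [Emb.swE_f, ← swOm_rsOm, hz]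
  · intro h1 ζ ξ hζ hξ hz
    rw [mul_comm]
    refine h1 ξ ζ hξ hζ fun z => swOm_injective ?_
    rw [swOm_rsOm]
    exact hz z

theorem exists_vv (i : S.I) (n : ℤ) : ∃ z : K, z ≠ 0 ∧ S.vv i z = n := by
  obtain ⟨π, hπ⟩ := (S.hvv i).one
  have hπ0 : π ≠ 0 := by
    rintro rfl
    rw [(S.hvv i).zero] at hπ
    omega
  exact ⟨π ^ n, zpow_ne_zero _ hπ0, by rw [(S.hvv i).zpow, hπ, mul_one]⟩

theorem e2_nonneg (q : S.Q) : 0 ≤ S.e2 q := abs_nonneg _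

/-- the data of a node. -/
theorem nb_data {q q' : S.Q} (h : S.nb q = some q') :
    ∃ (p' : S.V × Option ℂ) (h' : S.nd (S.cht q) = some p'), q' = pl ((S.psq q).swE h') := by
  by_cases hnd : S.nd (S.cht q) = none
  · rw [nb_none hnd] at h
    exact absurd h (by simp)
  · obtain ⟨p', hp'⟩ := Option.ne_none_iff_exists'.1 hnd
    refine ⟨p', hp', ?_⟩
    rw [nb_some hp'] at h
    exact (Option.some.inj h).symm

theorem eq_of_dvd_iff {a b : ℤ} (ha : 0 ≤ a) (hb : 0 ≤ b) (h : ∀ n : ℤ, a ∣ n ↔ b ∣ n) :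
    a = b :=
  Int.dvd_antisymm ha hb ((h b).2 dvd_rfl) ((h a).1 dvd_rfl)

/-- the second orders at a node are the orders of the partner. -/
theorem e2_node {q q' : S.Q} (h : S.nb q = some q') : S.e2 q = S.ka q' := by
  obtain ⟨p', h', rfl⟩ := nb_data h
  refine eq_of_dvd_iff (e2_nonneg q) (S.ka_pos _).le fun n => ?_
  rw [← S.mem_lamG]
  constructor
  · rintro ⟨z, hz, hl⟩
    obtain ⟨z', hz', hv, -⟩ := (lattice_swE (S.psq q) h' (Ta.v ((S.psq q).f z)) n).2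
      ⟨z, hz, rfl, hl⟩
    rw [pl_v] at hv
    exact ⟨_, hv.symm⟩
  · rintro ⟨m, rfl⟩
    obtain ⟨z', hz', hv⟩ := exists_vv (pl ((S.psq q).swE h')).1 m
    obtain ⟨z, hz, -, hl⟩ := (lattice_swE (S.psq q) h' (Ta.lam (((S.psq q).swE h').f z'))
      (S.ka (pl ((S.psq q).swE h')) * m)).1 ⟨z', hz', by rw [pl_v, hv], rfl⟩
    exact ⟨z, hz, hl⟩

/-- the same at the partner. -/
theorem e2_node' {q q' : S.Q} (h : S.nb q = some q') : S.e2 q' = S.ka q := by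
  obtain ⟨p', h', rfl⟩ := nb_data h
  refine eq_of_dvd_iff (e2_nonneg _) (S.ka_pos _).le fun n => ?_
  rw [← S.mem_lamG]
  constructor
  · rintro ⟨z', hz', hl⟩
    rw [← pl_lam] at hl
    obtain ⟨z, hz, hv, -⟩ := (lattice_swE (S.psq q) h' n _).1 ⟨z', hz', rfl, hl⟩
    rw [S.psq_v] at hv
    exact ⟨_, hv.symm⟩
  · rintro ⟨m, rfl⟩
    obtain ⟨z, hz, hv⟩ := exists_vv q.1 m
    obtain ⟨z', hz', -, hl⟩ := (lattice_swE (S.psq q) h' (S.ka q * m) _).2
      ⟨z, hz, by rw [S.psq_v, hv], rfl⟩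
    exact ⟨z', hz', by rw [← pl_lam]; exact hl⟩

/-- the two lattices of a node. -/
theorem lat (q q' : S.Q) (h : S.nb q = some q') (z : K) (hz : z ≠ 0) (b : ℤ)
    (hb : S.lam q z = S.e2 q * b) :
    ∃ z', z' ≠ 0 ∧ S.vv q'.1 z' = b ∧ S.lam q' z' = S.e2 q' * S.vv q.1 z := by
  have h2 := e2_node h
  have h2' := e2_node' h
  obtain ⟨p', h', hq⟩ := nb_data h
  obtain ⟨z', hz', hv, hl⟩ := (lattice_swE (S.psq q) h' (Ta.v ((S.psq q).f z))
    (S.e2 q * b)).2 ⟨z, hz, rfl, hb⟩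
  rw [pl_v, ← hq, h2] at hv
  rw [pl_lam, ← hq, S.psq_v, ← h2'] at hl
  exact ⟨z', hz', mul_left_cancel₀ (S.ka_pos q').ne' hv, hl⟩

/-- the second orders of a component: all pairs of values at a place. -/
theorem e1_mem (q : S.Q) : ∃ z : K, z ≠ 0 ∧ S.vv q.1 z = 0 ∧ S.lam q z = S.e1 q := by
  obtain ⟨r, hr⟩ := exists_unif q.2
  obtain ⟨z, rfl⟩ := IsLocalRing.residue_surjective r
  have hr0 := hr.1
  have hz0 : (z : K) ≠ 0 := by
    intro h0
    apply hr0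
    rw [show z = 0 from Subtype.ext h0, map_zero]
  have hvz : S.vv q.1 z = 0 := by
    have h1 : 0 ≤ S.vv q.1 z := (((S.hvv q.1).mem _).1 z.2).resolve_left hz0
    have h2 : ¬ 0 < S.vv q.1 z := by
      rw [← (S.hvv q.1).val_lt_one hz0, ← ValuationSubring.valuation_lt_one_iff,
        ← IsLocalRing.residue_eq_zero_iff]
      exact hr0
    omega
  exact ⟨z, hz0, hvz, by rw [S.lam_res q z hz0 hvz, hr.2, mul_one]⟩

theorem e2_dvd_e1 (q : S.Q) : S.e2 q ∣ S.e1 q := by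
  obtain ⟨z, hz, -, hl⟩ := e1_mem q
  rw [← hl]
  exact S.e2_dvd q z hz

theorem e2_pos (q : S.Q) : 0 < S.e2 q := by
  refine lt_of_le_of_ne (e2_nonneg q) fun h => ?_
  have h1 := e2_dvd_e1 q
  rw [← h, zero_dvd_iff] at h1
  exact (S.e1_pos q).ne' h1

/-- the equation `e e' = [stabiliser]`, in the form `ka * ram = N`. -/
theorem ka_mul_ram (q : S.Q) : S.ka q * S.ram q.1 = S.N := by
  obtain ⟨x, hx⟩ := (S.hW q.1.1).one
  have h1 := S.psq_v q (algebraMap L K x)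
  rw [(S.psq q).comm, S.phi_v, S.vv_alg] at h1
  change (S.N : ℤ) * S.ow q.1.1 x = _ at h1
  rw [hx, mul_one, mul_one] at h1
  exact h1.symm

end Surf

end Vale.Agent.P298.H416
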