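import Vale.Agent.P298.H416.Surf4
import Vale.Agent.P298.H955.CM

/-!
# The chart model of a surface, up to the canonical and geometric fields
-/

set_option linter.style.haveILetI false

noncomputable section

namespace Vale.Agent.P298.H416

open Vale.Agent.P298.FF Vale.Agent.P298.H400

namespace Surf

variable {L K R : Type} [Field L] [Algebra ℂ L] [Field K] [Algebra ℂ K] [Algebra L K]
    [IsScalarTower ℂ L K] [FiniteDimensional L K] [Algebra.IsSeparable L K]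
    [CommRing R] [Algebra ℂ R] [Algebra R K] [IsScalarTower ℂ R K]
    (S : Surf L K R)

instance fintypeI : Fintype S.I := Fintype.ofFinite _

instance decI : DecidableEq S.I := Classical.decEq _

/-- the remaining fields of the chart model. -/
structure Ext where
  nb_symm : ∀ q q', S.nb q = some q' → S.nb q' = some q
  nb_ne : ∀ q q', S.nb q = some q' → q'.1 ≠ q.1
  nb_fin : {q | S.nb q ≠ none}.Finite
  ram_fin : {q | S.nb q = none ∧ S.e1 q ≠ S.e2 q}.Finite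
  lam_fin : ∀ i : S.I, ∃ z, S.vv i z ≠ 0 ∧
    {P : Plk ℂ (IsLocalRing.ResidueField i.2.val) | S.lam ⟨i, P⟩ z ≠ 0}.Finite
  hR : ∀ (i : S.I) (h : R), algebraMap R K h ∈ i.2.val
  node_le : ∀ q q', S.nb q = some q' → ∀ h : R, h ≠ 0 →
    S.e2 q * S.vv q'.1 (algebraMap R K h) ≤ S.lam q (algebraMap R K h)
  node_nv : ∀ q q', S.nb q = some q' → ∀ h : R, h ≠ 0 →
    S.lam q (algebraMap R K h) = S.e2 q * S.vv q'.1 (algebraMap R K h) →
    S.lam q' (algebraMap R K h) = S.e2 q' * S.vv q.1 (algebraMap R K h)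
  free_le : ∀ q, S.nb q = none → ∀ h : R, h ≠ 0 → 0 ≤ S.lam q (algebraMap R K h)
  /-- the canonical orders. -/
  Kc : S.I → ℤ
  ω : S.I → K
  ω_ne : ∀ i, ω i ≠ 0
  ω_v : ∀ i, S.vv i (ω i) = Kc i + 1
  η : ∀ i : S.I, IsLocalRing.ResidueField i.2.val
  η_nc : ∀ i (a : ℂ), η i ≠ algebraMap ℂ (IsLocalRing.ResidueField i.2.val) a
  adj_node : ∀ q q', S.nb q = some q' →
    S.lam q (ω q.1) + S.e1 q * (wd ℂ (η q.1) q.2 + 1) = S.e2 q * (Kc q'.1 + 1)
  adj_free : ∀ q, S.nb q = none →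
    S.lam q (ω q.1) + S.e1 q * (wd ℂ (η q.1) q.2 + 1) = S.e2 q
  /-- the first coordinate. -/
  x : R
  x_ne : x ≠ 0
  x_pos : ∀ i, 0 < S.vv i (algebraMap R K x)
  x_node : ∀ q q', S.nb q = some q' →
    S.lam q (algebraMap R K x) = S.e2 q * S.vv q'.1 (algebraMap R K x)
  x_ram : ∀ q, S.nb q = none → S.e1 q ≠ S.e2 q → S.lam q (algebraMap R K x) = 0
  x_zero : ∃ q, S.nb q = none ∧ S.lam q (algebraMap R K x) ≠ 0
  frac : ∀ z : K, ∃ g h : R, h ≠ 0 ∧ z * algebraMap R K h = algebraMap R K g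
  mm : Ideal R
  mm_fin : ∀ n : ℕ, Module.Finite ℂ (R ⧸ mm ^ n)
  mm_v : ∀ h ∈ mm, h ≠ 0 → ∀ i, 1 ≤ S.vv i (algebraMap R K h)

/-- **the chart model.** -/
def cmodel (E : S.Ext) : H955.CModel R K S.I where
  κ i := IsLocalRing.ResidueField i.2.val
  O i := i.2.val
  v i := S.vv i
  hv i := S.hvv i
  ρ i := resCan i.2.val
  ρ_surj _ := IsLocalRing.residue_surjective
  hC i := ovr_hC (S.hC i.1) i.2
  ρ_C _ _ := rfl
  inj := S.inj
  hR := E.hR
  lam := S.lam
  e1 := S.e1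
  e2 := S.e2
  e1_pos := S.e1_pos
  e2_pos := e2_pos
  e2_dvd := S.e2_dvd
  lam_mul := S.lam_mul
  lam_res := S.lam_res
  nb := S.nb
  nb_symm := E.nb_symm
  nb_ne := E.nb_ne
  nb_fin := E.nb_fin
  ram_fin := E.ram_fin
  lam_fin := E.lam_fin
  lat := lat
  node_le := E.node_le
  node_nv := E.node_nv
  free_le := E.free_le
  K := E.Kc
  ω := E.ω
  ω_ne := E.ω_ne
  ω_v := E.ω_v
  η := E.η
  η_nc := E.η_nc
  adj_node := E.adj_node
  adj_free := E.adj_free
  x := E.x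
  x_ne := E.x_ne
  x_pos := E.x_pos
  x_node := E.x_node
  x_ram := E.x_ram
  x_zero := E.x_zero
  frac := E.frac
  mm := E.mm
  mm_fin := E.mm_fin
  mm_v := E.mm_v

end Surf

end Vale.Agent.P298.H416
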