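import Vale.Agent.P298.H416.Surf4

/-!
# The number of embeddings that see a place
-/

set_option linter.style.haveILetI false

noncomputable section

namespace Vale.Agent.P298.H416

open Vale.Agent.P298.FF Vale.Agent.P298.H400

namespace Surf

variable {L K R : Type} [Field L] [Algebra ℂ L] [Field K] [Algebra ℂ K] [Algebra L K]
    [IsScalarTower ℂ L K] [FiniteDimensional L K] [Algebra.IsSeparable L K]
    [CommRing R] [Algebra ℂ R] [Algebra R K] [IsScalarTower ℂ R K]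
    {S : Surf L K R}

theorem ram_isE (i : S.I) : IsE i.2 (S.ow i.1) (S.ram i) :=
  ⟨S.ram_pos i, S.vv i, S.hvv i, S.vv_alg i⟩

/-- the ramification index of a place over the point of the line. -/
theorem exists_e' {v : S.V} {d : Option ℂ} {ψ : S.Emb (v, d)} {O : Ovr (S.W v) K}
    {P : Plk ℂ (IsLocalRing.ResidueField O.val)} (h : SeesP ψ O P) :
    ∃ e' : ℕ, 0 < e' ∧ IsE (toPrs O P h.down).2 (ord ((S.line v).Q d)) e' ∧
      ∀ x, ord P (algebraMap (IsLocalRing.ResidueField (S.W v)) _ x) =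
        e' * ord ((S.line v).Q d) x := by
  obtain ⟨e', he0, he⟩ := exists_ram (κ0 := IsLocalRing.ResidueField (S.W v)) P
  rw [h.down'] at he
  have h5 : ∃ w : IsLocalRing.ResidueField O.val → ℤ, NOrd P.1 w ∧
      ∀ x, w (algebraMap (IsLocalRing.ResidueField (S.W v)) _ x) =
        e' * ord ((S.line v).Q d) x := ⟨ord P, plk_nord P, he⟩
  exact ⟨e', he0, ⟨he0, h5⟩, he⟩

/-- `e1 * e' = N`. -/
theorem e1_mul {v : S.V} {d : Option ℂ} {ψ : S.Emb (v, d)} {O : Ovr (S.W v) K}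
    {P : Plk ℂ (IsLocalRing.ResidueField O.val)} (h : SeesP ψ O P) {e' : ℕ}
    (he : ∀ x, ord P (algebraMap (IsLocalRing.ResidueField (S.W v)) _ x) =
        e' * ord ((S.line v).Q d) x) (he0 : 0 < e') :
    S.e1 ⟨⟨v, O⟩, P⟩ * e' = S.N := by
  have hq : pl ψ = ⟨⟨v, O⟩, P⟩ := h.pl_eq
  have hN : (0 : ℤ) < S.N := by exact_mod_cast S.hN
  -- values of elements of the residue field
  have key : ∀ y : S.W v, (y : L) ≠ 0 → S.ow v y = 0 →
      (S.N : ℤ) * Ta.lam (S.θ (v, d) y) = S.e1 ⟨⟨v, O⟩, P⟩ * (e' *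
        ord ((S.line v).Q d) (IsLocalRing.residue _ y)) := by
    intro y hy hy0
    have hy' : algebraMap L K y ≠ 0 := by rwa [Ne, map_eq_zero]
    have hyO : algebraMap L K y ∈ O.val := ovr_mem.2 y.2
    have h1 : S.vv ⟨v, O⟩ (algebraMap L K y) = 0 := by
      rw [S.vv_alg]
      change (S.ram ⟨v, O⟩ : ℤ) * S.ow v y = 0
      rw [hy0, mul_zero]
    have h2 := S.lam_res ⟨⟨v, O⟩, P⟩ ⟨algebraMap L K y, hyO⟩ hy' h1
    have h3 := pl_lam ψ (algebraMap L K y)
    rw [hq, ψ.comm, S.phi_lam] at h3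
    rw [h3]
    refine h2.trans ?_
    rw [← he, resAlg_residue]
    rfl
  obtain ⟨r, hr⟩ := exists_unif ((S.line v).Q d)
  obtain ⟨y, rfl⟩ := IsLocalRing.residue_surjective r
  have hy := S.ow_of_res (v := v) (y := y) (by
    intro h0
    apply hr.1
    have := S.resEq_inj (x := y) (y := 0) (by rw [h0, map_zero])
    rw [this, map_zero])
  have h1 := key y hy.1 hy.2
  rw [hr.2, mul_one] at h1
  obtain ⟨-, b, hb, hb0, hb1⟩ := exists_unif_chart (S := S) (v, d)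
  have hbW : b ∈ S.W v := ((S.hW v).mem b).2 (Or.inr hb0.ge)
  have h2 := key ⟨b, hbW⟩ hb hb0
  change (S.N : ℤ) * Ta.lam (S.θ (v, d) b) = _ at h2
  rw [hb1, mul_one] at h2
  have hpos : 0 < S.e1 ⟨⟨v, O⟩, P⟩ * e' :=
    mul_pos (S.e1_pos _) (by exact_mod_cast he0)
  refine Int.dvd_antisymm hpos.le hN.le ?_ ?_
  · exact Dvd.intro _ (by rw [mul_assoc]; exact h2.symm)
  · exact ⟨_, h1.symm⟩

/-- embeddings over a chart are algebra homomorphisms. -/
def embEquiv (p : S.V × Option ℂ) : letI := S.alg p; S.Emb p ≃ (K →ₐ[L] Om) :=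
  letI := S.alg p
  { toFun := fun ψ => ψ.hom
    invFun := fun χ => ofHom χ
    left_inv := fun _ => rfl
    right_inv := fun _ => rfl }

/-- **the number of embeddings that see a place is `ram * e'`.** -/
theorem fib_card {p : S.V × Option ℂ} (ψ : S.Emb p) :
    ∃ e' : ℕ, 0 < e' ∧ S.e1 (pl ψ) * e' = S.N ∧
      Nat.card {χ : S.Emb p // pl χ = pl ψ} = S.ram (pl ψ).1 * e' := by
  obtain ⟨v, d⟩ := p
  letI := S.alg (v, d)
  have h : SeesP ψ (pl ψ).1.2 (pl ψ).2 := pl_sees ψ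
  obtain ⟨e', he0, he, he'⟩ := exists_e' h
  refine ⟨e', he0, e1_mul h he' he0, ?_⟩
  have hc := (count (S.split (v, d)) (S.hW v) (plk_nord ((S.line v).Q d))
      (S.phi_O (v, d)) (S.phi_P (v, d)) (gA (S := S) (v, d)) h.sees).1 _ _
      (ram_isE (pl ψ).1) he
  rw [hc]
  letI := (gA (S := S) (v, d)).mulAction K
  have hidx : ((gA (S := S) (v, d)).stab ψ.hom).index =
      (MulAction.orbit (GN S.N) ψ.hom).ncard := MulAction.index_stabilizer (GN S.N) ψ.hom
  rw [hidx]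
  refine Nat.card_congr ?_
  refine (embEquiv (S := S) (v, d)).subtypeEquiv fun χ => ?_
  rw [eq_comm, pl_eq_iff]
  constructor
  · rintro ⟨ξ, ζ, hξ, hζ, hz⟩
    exact ⟨(⟨ξ, (mem_rootsOfUnity _ _).2 hξ⟩, ⟨ζ, (mem_rootsOfUnity _ _).2 hζ⟩),
      AlgHom.ext fun z => (hz z).symm⟩
  · rintro ⟨g, hg⟩
    exact ⟨g.1, g.2, (mem_rootsOfUnity _ _).1 g.1.2, (mem_rootsOfUnity _ _).1 g.2.2,
      fun z => (DFunLike.congr_fun hg z).symm⟩

/-- the count in the unramified case. -/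
theorem fib_card_of_e1 {p : S.V × Option ℂ} (ψ : S.Emb p) (h : S.e1 (pl ψ) = S.N) :
    S.ka (pl ψ) * Nat.card {χ : S.Emb p // pl χ = pl ψ} = S.N := by
  obtain ⟨e', he0, h1, h2⟩ := fib_card ψ
  rw [h] at h1
  have hN : (0 : ℤ) < S.N := by exact_mod_cast S.hN
  have h3 : (e' : ℤ) = 1 := mul_left_cancel₀ hN.ne' (by rw [h1, mul_one])
  have h4 : e' = 1 := by exact_mod_cast h3
  rw [h2, h4, mul_one]
  exact ka_mul_ram _

end Surf

end Vale.Agent.P298.H416
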