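import Vale.Agent.P298.H416.Surf6
import Vale.Agent.P298.H400.Lat

/-!
# Monodromy of the embeddings over a chart
-/

set_option linter.style.haveILetI false

noncomputable section

namespace Vale.Agent.P298.H416

open Vale.Agent.P298.FF Vale.Agent.P298.H400

namespace Surf

variable {L K R : Type} [Field L] [Algebra ℂ L] [Field K] [Algebra ℂ K] [Algebra L K]
    [IsScalarTower ℂ L K] [FiniteDimensional L K] [Algebra.IsSeparable L K]
    [CommRing R] [Algebra ℂ R] [Algebra R K] [IsScalarTower ℂ R K]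

/-- the embeddings over a chart are listed by `E`, and the rescalings by the primitive root `w`
act by `σ` and `ρ`. -/
structure Mon (S : Surf L K R) (p : S.V × Option ℂ) {ι : Type*} (E : ι → S.Emb p)
    (σ ρ : Equiv.Perm ι) (w : ℂˣ) : Prop where
  prim : IsPrimitiveRoot w S.N
  comm : Commute σ ρ
  σN : σ ^ S.N = 1
  ρN : ρ ^ S.N = 1
  inj : Function.Injective E
  all : ∀ ψ : S.Emb p, ∃ l, E l = ψ
  act : ∀ (i j : ℕ) (l : ι) (z : K),
    rsOm (w ^ i) (w ^ j) ((E l).f z) = (E ((σ ^ i * ρ ^ j) l)).f z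

namespace Mon

variable {S : Surf L K R} {p : S.V × Option ℂ} {ι : Type*} {E : ι → S.Emb p}
    {σ ρ : Equiv.Perm ι} {w : ℂˣ} (M : Mon S p E σ ρ w)

include M

theorem exists_pow {ξ : ℂˣ} (hξ : ξ ^ S.N = 1) : ∃ i : ℕ, w ^ i = ξ := by
  haveI : NeZero S.N := ⟨S.hN.ne'⟩
  have h1 : IsPrimitiveRoot (w : ℂ) S.N := IsPrimitiveRoot.coe_units_iff.2 M.prim
  obtain ⟨i, -, hi⟩ := h1.eq_pow_of_pow_eq_one (ξ := (ξ : ℂ)) (by
    rw [← Units.val_pow_eq_pow_val, hξ, Units.val_one])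
  exact ⟨i, Units.ext (by rw [Units.val_pow_eq_pow_val, hi])⟩

theorem pow_N (i : ℕ) : (w ^ i) ^ S.N = 1 := by
  rw [← pow_mul, mul_comm, pow_mul, M.prim.pow_eq_one, one_pow]

/-- **(1)** two embeddings see the same place iff they are conjugate under the monodromy. -/
theorem pl_iff (l l' : ι) :
    pl (E l) = pl (E l') ↔ ∃ i j : ℕ, (σ ^ i * ρ ^ j) l = l' := by
  rw [pl_eq_iff]
  constructor
  · rintro ⟨ξ, ζ, hξ, hζ, h⟩
    obtain ⟨i, rfl⟩ := M.exists_pow hξ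
    obtain ⟨j, rfl⟩ := M.exists_pow hζ
    refine ⟨i, j, M.inj ?_⟩
    refine Emb.ext (RingHom.ext fun z => ?_)
    rw [h, M.act]
  · rintro ⟨i, j, rfl⟩
    exact ⟨w ^ i, w ^ j, M.pow_N i, M.pow_N j, fun z => (M.act i j l z).symm⟩

/-- the case of a trivial second monodromy. -/
theorem pl_iff_one (hρ : ρ = 1) (l l' : ι) :
    pl (E l) = pl (E l') ↔ ∃ m : ℕ, (σ ^ m) l = l' := by
  rw [M.pl_iff]
  subst hρ
  simp only [one_pow, mul_one]
  exact ⟨fun ⟨i, _, h⟩ => ⟨i, h⟩, fun ⟨i, h⟩ => ⟨i, 0, h⟩⟩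

theorem exists_nat (s : ℤ) : ∃ i : ℕ, (S.N : ℤ) ∣ s - i ∧ σ ^ s = σ ^ i ∧ ρ ^ s = ρ ^ i := by
  have hN : (0 : ℤ) < S.N := by exact_mod_cast S.hN
  have h0 : 0 ≤ s % S.N := Int.emod_nonneg _ hN.ne'
  obtain ⟨i, hi⟩ := Int.eq_ofNat_of_zero_le h0
  have hs : s = S.N * (s / S.N) + i := by rw [← hi]; exact (Int.mul_ediv_add_emod s S.N).symm
  refine ⟨i, ⟨s / S.N, by omega⟩, ?_, ?_⟩
  · conv_lhs => rw [hs]
    rw [zpow_add, zpow_mul, zpow_natCast, M.σN, one_zpow, one_mul, zpow_natCast]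
  · conv_lhs => rw [hs]
    rw [zpow_add, zpow_mul, zpow_natCast, M.ρN, one_zpow, one_mul, zpow_natCast]

theorem pow_iff (i j : ℕ) (a b : ℤ) :
    (w ^ i) ^ a * (w ^ j) ^ b = 1 ↔ (S.N : ℤ) ∣ i * a + j * b := by
  rw [← M.prim.zpow_eq_one_iff_dvd, zpow_add, zpow_mul, zpow_mul, zpow_natCast, zpow_natCast]

/-- **(2)** the value lattice is the annihilator of the stabiliser. -/
theorem lattice (l : ι) (a b : ℤ) :
    (∃ z : K, z ≠ 0 ∧ Ta.v ((E l).f z) = a ∧ Ta.lam ((E l).f z) = b) ↔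
      (a, b) ∈ ann S.N (stab M.comm l) := by
  rw [lattice_iff, mem_ann]
  constructor
  · rintro h ⟨s, t⟩ hs
    rw [mem_stab] at hs
    obtain ⟨i, hi, hσ, -⟩ := M.exists_nat s
    obtain ⟨j, hj, -, hρ⟩ := M.exists_nat t
    simp only at hs ⊢
    rw [hσ, hρ] at hs
    have h1 := h (w ^ i) (w ^ j) (M.pow_N i) (M.pow_N j) (fun z => by rw [M.act, hs])
    rw [M.pow_iff] at h1
    have h2 : s * a + t * b = (s - i) * a + (t - j) * b + (i * a + j * b) := by ring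
    rw [h2]
    exact dvd_add (dvd_add (Dvd.dvd.mul_right hi _) (Dvd.dvd.mul_right hj _)) h1
  · intro h ξ ζ hξ hζ hz
    obtain ⟨i, rfl⟩ := M.exists_pow hξ
    obtain ⟨j, rfl⟩ := M.exists_pow hζ
    rw [M.pow_iff]
    have h1 : (σ ^ i * ρ ^ j) l = l := M.inj (Emb.ext (RingHom.ext fun z => by
      rw [← M.act, hz]))
    have h2 := h ((i : ℤ), (j : ℤ)) (by
      rw [mem_stab]
      simp only [zpow_natCast]
      exact h1)
    exact h2

/-- **(3)** the second orders. -/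
theorem e2_eq (l : ι) : S.e2 (pl (E l)) = ((S.N / Function.minimalPeriod ρ l : ℕ) : ℤ) := by
  refine eq_of_dvd_iff (e2_nonneg _) (Int.natCast_nonneg _) fun b => ?_
  rw [← S.mem_lamG, ← dvd_per_mul_iff S.hN.ne' M.ρN,
    ← exists_fst_mem_ann_stab (h := M.comm) (l := l) S.hN.ne' M.σN b]
  constructor
  · rintro ⟨z, hz, h⟩
    exact ⟨_, (M.lattice l _ b).1 ⟨z, hz, rfl, by rw [pl_lam, h]⟩⟩
  · rintro ⟨a, h⟩
    obtain ⟨z, hz, -, h2⟩ := (M.lattice l a b).2 h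
    exact ⟨z, hz, by rw [← pl_lam, h2]⟩

theorem ka_eq (l : ι) : S.ka (pl (E l)) = ((S.N / Function.minimalPeriod σ l : ℕ) : ℤ) := by
  refine eq_of_dvd_iff (S.ka_pos _).le (Int.natCast_nonneg _) fun a => ?_
  rw [← dvd_per_mul_iff S.hN.ne' M.σN,
    ← exists_snd_mem_ann_stab (h := M.comm) (l := l) S.hN.ne' M.ρN a]
  constructor
  · rintro ⟨m, rfl⟩
    obtain ⟨z, hz, h⟩ := exists_vv (S := S) (pl (E l)).1 m
    exact ⟨_, (M.lattice l _ _).1 ⟨z, hz, by rw [pl_v, h], rfl⟩⟩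
  · rintro ⟨b, h⟩
    obtain ⟨z, hz, h1, -⟩ := (M.lattice l a b).2 h
    exact ⟨S.vv (pl (E l)).1 z, by rw [← pl_v, h1]⟩

theorem period_dvd_snd (l : ι) : Function.minimalPeriod ρ l ∣ S.N := by
  rw [← Function.isPeriodicPt_iff_minimalPeriod_dvd]
  change (ρ^[S.N]) l = l
  rw [Equiv.Perm.iterate_eq_pow, M.ρN]
  rfl

theorem period_dvd_fst (l : ι) : Function.minimalPeriod σ l ∣ S.N := by
  rw [← Function.isPeriodicPt_iff_minimalPeriod_dvd]
  change (σ^[S.N]) l = l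
  rw [Equiv.Perm.iterate_eq_pow, M.σN]
  rfl

theorem e2_mul (l : ι) : S.e2 (pl (E l)) * Function.minimalPeriod ρ l = S.N := by
  rw [M.e2_eq]
  exact_mod_cast Nat.div_mul_cancel (M.period_dvd_snd l)

theorem ka_mul (l : ι) : S.ka (pl (E l)) * Function.minimalPeriod σ l = S.N := by
  rw [M.ka_eq]
  exact_mod_cast Nat.div_mul_cancel (M.period_dvd_fst l)

/-- **(4)** trivial second monodromy: `e2 = N`. -/
theorem e2_one (hρ : ρ = 1) (l : ι) : S.e2 (pl (E l)) = S.N := by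
  have h := M.e2_mul l
  have h1 : Function.minimalPeriod ρ l = 1 := by
    rw [Function.minimalPeriod_eq_one_iff_isFixedPt, hρ]
    exact rfl
  rw [h1] at h
  simpa using h

theorem e1_one (hρ : ρ = 1) (l : ι) : S.e1 (pl (E l)) = S.N := by
  have h := M.e2_one hρ l
  obtain ⟨e', he0, h1, -⟩ := fib_card (E l)
  refine Int.dvd_antisymm (S.e1_pos _).le (Int.natCast_nonneg _) ⟨e', h1.symm⟩ ?_
  rw [← h]
  exact e2_dvd_e1 _

/-- **(5)** the count. -/
theorem fib_natCard (l : ι) : Nat.card {χ : S.Emb p // pl χ = pl (E l)} =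
    Nat.card {l' : ι // pl (E l') = pl (E l)} := by
  let e : ι ≃ S.Emb p := Equiv.ofBijective E ⟨M.inj, M.all⟩
  exact (Nat.card_congr (e.subtypeEquiv fun l' => Iff.rfl)).symm

theorem count_one (hρ : ρ = 1) (l : ι) :
    S.ka (pl (E l)) * Nat.card {l' : ι // pl (E l') = pl (E l)} = S.N := by
  rw [← M.fib_natCard]
  exact fib_card_of_e1 _ (M.e1_one hρ l)

theorem count_filter [Fintype ι] (hρ : ρ = 1) (l : ι)
    [DecidablePred fun l' : ι => pl (E l') = pl (E l)] :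
    S.ka (pl (E l)) * (Finset.univ.filter fun l' : ι => pl (E l') = pl (E l)).card = S.N := by
  have h := M.count_one hρ l
  rwa [Nat.card_eq_fintype_card, Fintype.card_subtype] at h

end Mon

end Surf

end Vale.Agent.P298.H416
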